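import Crest.Agent.Saxl.Glue

/-!
CHUNK FINAL (medium; bridge to the Prelude and Maschke).
-/

set_option autoImplicit false

namespace Crest.Agent.Saxl

open Finset Equiv

variable {X : Type} [Fintype X] [DecidableEq X]

open Crest.AlgebraR.Specht Crest.AlgebraR

lemma fin_staircase_card (m : ℕ) : (staircaseShape m).card = m * (m + 1) / 2 := by
  have h1 : (staircaseShape m).card = ∑ i ∈ range m, (m - i) := by
    unfold staircaseShape
    rw [Finset.card_filter, Finset.sum_product]
    refine Finset.sum_congr rfl fun i _ => ?_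
    rw [← Finset.card_filter]
    have : (range m).filter (fun j => i + j < m) = range (m - i) := by
      ext j
      simp only [Finset.mem_filter, Finset.mem_range]
      omega
    rw [this, Finset.card_range]
  have h2 : ∀ m : ℕ, (∑ i ∈ range m, (m - i)) * 2 = m * (m + 1) := by
    intro m
    induction m with
    | zero => simp
    | succ m ih =>
      rw [Finset.sum_range_succ']
      have : ∀ i ∈ range m, m + 1 - (i + 1) = m - i := fun i _ => by omega
      rw [Finset.sum_congr rfl this, add_mul, ih]
      simp only [Nat.sub_zero]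
      ring
  rw [h1]
  have := h2 m
  omega

/-- finitely supported functions on row words as functions on words -/
def fin_phi (n : ℕ) : (RowWord n →₀ ℂ) →ₗ[ℂ] (Word (Fin n) → ℂ) where
  toFun v := fun Y => v (show RowWord n from Y)
  map_add' _ _ := rfl
  map_smul' _ _ := rfl

lemma fin_phi_apply (n : ℕ) (v : RowWord n →₀ ℂ) (Y : Word (Fin n)) :
    fin_phi n v Y = v (show RowWord n from Y) := rfl

lemma fin_phi_rep (n : ℕ) (g : Perm (Fin n)) (v : RowWord n →₀ ℂ) :
    fin_phi n (rowWordRep n g v) = act g (fin_phi n v) := by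
  funext Y
  have e : (show RowWord n from Y) = g • (show RowWord n from (Y ∘ g)) := by
    funext i
    show Y i = Y (g (g.symm i))
    rw [Equiv.apply_symm_apply]
  have h2 : (Finsupp.mapDomain (g • ·) v) (g • (show RowWord n from (Y ∘ g))) =
      v (show RowWord n from (Y ∘ g)) :=
    Finsupp.mapDomain_apply (MulAction.injective g) v _
  rw [← e] at h2
  exact h2

variable {D : Finset (ℕ × ℕ)}

lemma fin_phi_poly (t : D ≃ Fin D.card) (A B : Word (Fin D.card))
    (hA : ∀ x, A x = (t.symm x).1.2) (hB : ∀ x, B x = (t.symm x).1.1) :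
    fin_phi D.card (polytabloid t) = toC (pt A B) := by
  funext Y
  have h1 : columnGroup t = Rs A := by
    unfold columnGroup Rs
    refine Finset.filter_congr fun σ _ => ?_
    constructor
    · intro h
      funext x
      simp only [Function.comp_apply, hA, h x]
    · intro h x
      have := congrFun h x
      simpa only [Function.comp_apply, hA] using this
  unfold polytabloid toC pt
  rw [h1, map_sum, Finset.sum_apply, Int.cast_sum]
  refine Finset.sum_congr rfl fun σ _ => ?_
  rw [map_smul, Pi.smul_apply, smul_eq_mul, fin_phi_apply, Int.cast_mul]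
  congr 1
  have h2 : (σ • rowWord t : RowWord D.card) = (show RowWord D.card from B ∘ (σ⁻¹ : Perm _)) := by
    funext i
    show (t.symm (σ.symm i)).1.1 = B (σ.symm i)
    rw [hB]
  rw [h2]
  by_cases h : Y = B ∘ (σ⁻¹ : Perm _)
  · rw [if_pos h, h, Int.cast_one]
    exact Finsupp.single_eq_same
  · rw [if_neg h, Int.cast_zero]
    exact Finsupp.single_eq_of_ne h

lemma fin_poly_mem (t : D ≃ Fin D.card) : polytabloid t ∈ (spechtSubrep D).toSubmodule := by
  unfold spechtSubrep generate
  rw [Submodule.mem_sInf]
  intro p hp
  exact hp.1 (Set.mem_range_self t)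

/-- Maschke: a nonzero equivariant map onto an irreducible representation gives a nonzero
equivariant map in the other direction. -/
lemma fin_maschke {G V W : Type} [Group G] [Fintype G] [AddCommMonoid V] [Module ℂ V]
    [AddCommGroup W] [Module ℂ W] (ρ : Representation ℂ G V) (σ : Representation ℂ G W)
    (hσ : Representation.IsIrreducible σ) (T : V →ₗ[ℂ] W)
    (hT : ∀ g v, T (ρ g v) = σ g (T v)) (v0 : V) (h0 : T v0 ≠ 0) :
    Nontrivial (Representation.IntertwiningMap σ ρ) := by
  classical
  let R : Subrepresentation σ :=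
    { toSubmodule := LinearMap.range T
      apply_mem_toSubmodule := by
        rintro g _ ⟨v, rfl⟩
        exact ⟨ρ g v, hT g v⟩ }
  have hsurj : Function.Surjective T := by
    rcases hσ.eq_bot_or_eq_top R with h | h
    · exfalso
      apply h0
      have h1 : T v0 ∈ R.toSubmodule := ⟨v0, rfl⟩
      rw [h] at h1
      exact h1
    · have h1 : R.toSubmodule = ⊤ := by rw [h]; rfl
      exact LinearMap.range_eq_top.1 h1
  let b := Module.Basis.ofVectorSpace ℂ W
  let s : W →ₗ[ℂ] V := b.constr ℂ (fun i => (hsurj (b i)).choose)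
  have hs : T ∘ₗ s = LinearMap.id := by
    refine b.ext fun i => ?_
    rw [LinearMap.comp_apply, Module.Basis.constr_basis, LinearMap.id_apply]
    exact (hsurj (b i)).choose_spec
  have hs' : ∀ w, T (s w) = w := fun w => congrArg (fun f : W →ₗ[ℂ] W => f w) hs
  -- average
  let S : W →ₗ[ℂ] V := ((Fintype.card G : ℂ)⁻¹) • ∑ g : G, (ρ g) ∘ₗ s ∘ₗ (σ g⁻¹)
  have hS : ∀ w, S w = ((Fintype.card G : ℂ)⁻¹) • ∑ g : G, ρ g (s (σ g⁻¹ w)) := by
    intro w
    simp only [S, LinearMap.smul_apply, LinearMap.sum_apply, LinearMap.comp_apply]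
  have hcard : (Fintype.card G : ℂ) ≠ 0 := by
    exact_mod_cast Fintype.card_ne_zero
  have hTS : ∀ w, T (S w) = w := by
    intro w
    rw [hS, map_smul, map_sum]
    have : ∀ g : G, T (ρ g (s (σ g⁻¹ w))) = w := by
      intro g
      rw [hT, hs', ← Module.End.mul_apply, ← map_mul, mul_inv_cancel, map_one]
      rfl
    simp only [this, Finset.sum_const, Finset.card_univ]
    rw [← Nat.cast_smul_eq_nsmul ℂ, smul_smul, inv_mul_cancel₀ hcard, one_smul]
  have hSe : ∀ (h : G) (w : W), S (σ h w) = ρ h (S w) := by
    intro h w
    rw [hS, hS, map_smul, map_sum]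
    congr 1
    refine (Fintype.sum_equiv (Equiv.mulLeft h) _ _ fun g => ?_).symm
    simp only [Equiv.coe_mulLeft]
    have e1 : σ (h * g)⁻¹ (σ h w) = σ g⁻¹ w := by
      rw [← Module.End.mul_apply, ← map_mul]
      congr 2
      group
    rw [e1, map_mul, Module.End.mul_apply]
  let S' : Representation.IntertwiningMap σ ρ := S.intertwiningMap_of_isIntertwiningMap σ ρ hSe
  refine ⟨⟨S', 0, ?_⟩⟩
  intro hcon
  have h1 : S' (T v0) = (0 : Representation.IntertwiningMap σ ρ) (T v0) := by rw [hcon]
  have h2 : S (T v0) = 0 := h1
  apply h0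
  rw [← hTS (T v0), h2, map_zero]

/-- PROOF. `D = staircaseShape m`, `X = Fin D.card`, `D.card = m(m+1)/2`; a tableau `t : D ≃ X`; `B = row word`,
`A x = (t.symm x).1.2` (column word); `Perp m A B`. The polytabloid of the Prelude of `t` is, as a function of row
words, `toC (pt A B)` (`columnGroup t = Rs A`; `σ • rowWord t = rowWord t ∘ σ⁻¹`), and that of the
transposed tableau is `toC (pt B A)`. `F` from `exists_bilin`, restricted to the Specht submodule `V`, gives a
nonzero intertwiner `V ⊗ V → W`; `W` is irreducible, so it is surjective and by Maschke it has an equivariant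
section `W → V ⊗ V`, which is nonzero (`W ≠ 0`). -/
theorem staircase_main (m : ℕ) (hm : 1 ≤ m)
    (W : Type) [AddCommGroup W] [Module ℂ W] [FiniteDimensional ℂ W]
    (σ : Representation ℂ (Equiv.Perm (Fin (staircaseShape m).card)) W)
    (hσ : Representation.IsIrreducible σ) :
    Nontrivial (Representation.IntertwiningMap σ
      (Representation.tprod (spechtRep (staircaseShape m)) (spechtRep (staircaseShape m)))) := by
  classical
  have hWn : Nontrivial W := by
    by_contra hcon
    rw [not_nontrivial_iff_subsingleton] at hcon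
    have hbt : (⊥ : Subrepresentation σ) = ⊤ := by
      refine Subrepresentation.toSubmodule_injective ?_
      exact Subsingleton.elim _ _
    have := hσ.toNontrivial
    exact bot_ne_top hbt
  let t : staircaseShape m ≃ Fin (staircaseShape m).card := (staircaseShape m).equivFin
  -- the transpose
  have hmem : ∀ c : ℕ × ℕ, c ∈ staircaseShape m ↔ c.1 + c.2 < m := by
    intro c
    unfold staircaseShape
    simp only [Finset.mem_filter, Finset.mem_product, Finset.mem_range]
    omega
  let sw : staircaseShape m ≃ staircaseShape m :=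
    { toFun := fun c => ⟨(c.1.2, c.1.1), (hmem _).2 (by have := (hmem c.1).1 c.2; simp; omega)⟩
      invFun := fun c => ⟨(c.1.2, c.1.1), (hmem _).2 (by have := (hmem c.1).1 c.2; simp; omega)⟩
      left_inv := fun c => rfl
      right_inv := fun c => rfl }
  let t' : staircaseShape m ≃ Fin (staircaseShape m).card := sw.trans t
  let A : Word (Fin (staircaseShape m).card) := fun x => (t.symm x).1.2
  let B : Word (Fin (staircaseShape m).card) := fun x => (t.symm x).1.1
  have hPerp : Perp m A B := by
    constructor
    · intro x y hxy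
      have h1 : A x = A y ∧ B x = B y := by
        have := hxy
        simp only [Prod.mk.injEq] at this
        exact this
      have h2 : (t.symm x).1 = (t.symm y).1 := Prod.ext h1.2 h1.1
      exact t.symm.injective (Subtype.ext h2)
    · intro x
      have := (hmem (t.symm x).1).1 (t.symm x).2
      show (t.symm x).1.2 + (t.symm x).1.1 < m
      omega
  have hX : Fintype.card (Fin (staircaseShape m).card) = m * (m + 1) / 2 := by
    rw [Fintype.card_fin, fin_staircase_card]
  obtain ⟨F, hF, hF0⟩ := exists_bilin hX hPerp σ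
  have e1 : fin_phi (staircaseShape m).card (polytabloid t) = toC (pt A B) :=
    fin_phi_poly t A B (fun _ => rfl) (fun _ => rfl)
  have e2 : fin_phi (staircaseShape m).card (polytabloid t') = toC (pt B A) :=
    fin_phi_poly t' B A (fun _ => rfl) (fun _ => rfl)
  -- the map on the tensor product
  let φ : (spechtSubrep (staircaseShape m)).toSubmodule →ₗ[ℂ] (Word (Fin (staircaseShape m).card) → ℂ) :=
    (fin_phi (staircaseShape m).card) ∘ₗ (spechtSubrep (staircaseShape m)).toSubmodule.subtype
  have hφ : ∀ g (v : (spechtSubrep (staircaseShape m)).toSubmodule), φ (spechtRep (staircaseShape m) g v) = act g (φ v) := by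
    intro g v
    exact fin_phi_rep (staircaseShape m).card g v.1
  let T : TensorProduct ℂ (spechtSubrep (staircaseShape m)).toSubmodule (spechtSubrep (staircaseShape m)).toSubmodule →ₗ[ℂ] W :=
    TensorProduct.lift (F.compl₁₂ φ φ)
  have hTt : ∀ x y, T (x ⊗ₜ[ℂ] y) = F (φ x) (φ y) := fun x y => rfl
  refine fin_maschke _ σ hσ T ?_
    ((⟨polytabloid t, fin_poly_mem t⟩ : (spechtSubrep (staircaseShape m)).toSubmodule) ⊗ₜ[ℂ]
      (⟨polytabloid t', fin_poly_mem t'⟩ : (spechtSubrep (staircaseShape m)).toSubmodule)) ?_
  · intro g v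
    induction v using TensorProduct.induction_on with
    | zero => simp
    | tmul x y =>
      rw [Representation.tprod_apply, TensorProduct.map_tmul, hTt, hTt, hφ, hφ, hF]
    | add x y hx hy => rw [map_add, map_add, hx, hy, map_add, map_add]
  · rw [hTt]
    show F (fin_phi (staircaseShape m).card (polytabloid t)) (fin_phi (staircaseShape m).card (polytabloid t')) ≠ 0
    rw [e1, e2]
    exact hF0

end Crest.Agent.Saxl
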