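import Mathlib
import Crest.Prelude.Def_SpechtModule

/-!
# Row 195 (Saxl): definitions shared by all chunks

`X` is a finite set of letters, `G = Perm X`, `Fintype.card X = k (k+1) / 2`.
A *word* is a function `X → ℕ`.  A word of *type k* has exactly `k - j` letters with value `j`
(`j = 0, 1, ..`).  `Perp k A B` : `x ↦ (A x, B x)` is injective and `A x + B x < k`, i.e. (as
`card X = k(k+1)/2`) a bijection onto the staircase.
`pt A B` is the polytabloid with column word `A` (alternating along the blocks of `A`), a function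
on words `Y` (row words); it is `± [Perp k A Y]`.
Strips: a word `u` with block sizes `2k-1, 2k-5, ..`; a word `2 u + b` (`b : X → Fin 2`) is a row
word compatible with the strips.
-/

set_option autoImplicit false

namespace Crest.Agent.Saxl

open Finset Equiv

/-- Words on `X`. -/
abbrev Word (X : Type) := X → ℕ

section
variable {X : Type} [Fintype X] [DecidableEq X]

/-- Action of permutations on functions of words: `(g f)(Y) = f (Y ∘ g)`. It is a left action. -/
def act {X : Type} {R : Type*} (g : Perm X) (f : Word X → R) : Word X → R := fun Y => f (Y ∘ g)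

/-- `A ⊥ B` (with `card X = k(k+1)/2`: `(A,B)` is a bijection onto the staircase). -/
def Perp {X : Type} (k : ℕ) (A B : Word X) : Prop :=
  Function.Injective (fun x => (A x, B x)) ∧ ∀ x, A x + B x < k

noncomputable instance instDecPerp {X : Type} (k : ℕ) (A B : Word X) : Decidable (Perp k A B) :=
  Classical.propDecidable _

/-- Words of type `k`: `k - j` letters have value `j`. -/
def IsType (k : ℕ) (A : Word X) : Prop :=
  ∀ j, (univ.filter (fun x => A x = j)).card = k - j

/-- The permutations preserving a word (with values in any type). -/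
def Rs {β : Type} [DecidableEq β] (w : X → β) : Finset (Perm X) :=
  univ.filter (fun g : Perm X => w ∘ g = w)

/-- Polytabloid with column word `A` (and reference row word `B`), as a function of the row word. -/
def pt (A B : Word X) : Word X → ℤ := fun Y =>
  ∑ σ ∈ Rs A, ((Perm.sign σ : ℤˣ) : ℤ) * (if Y = B ∘ (σ⁻¹ : Perm X) then 1 else 0)

/-- complexification -/
def toC {α : Type*} (f : α → ℤ) : α → ℂ := fun a => ((f a : ℤ) : ℂ)

/-- All words with values `< k`. -/
def Wd (k : ℕ) (X : Type) [Fintype X] [DecidableEq X] : Finset (Word X) :=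
  (univ : Finset (X → Fin k)).image (fun T x => ((T x : Fin k) : ℕ))

/-- The standard pairing. -/
def pair {R : Type*} [CommSemiring R] (k : ℕ) (f h : Word X → R) : R :=
  ∑ Y ∈ Wd k X, f Y * h Y

/-- Strip words: block sizes `2k-1, 2k-5, 2k-9, ..`. -/
def IsStrip (k : ℕ) (u : Word X) : Prop :=
  ∀ i, (univ.filter (fun x => u x = i)).card = if 2 * i < k then 2 * (k - 2 * i) - 1 else 0

noncomputable instance instDecStrip (k : ℕ) (u : Word X) : Decidable (IsStrip k u) :=
  Classical.propDecidable _

/-- Restriction of a function of row words to the row words `2 u + b`. -/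
def res {X : Type} {R : Type*} (u : Word X) (f : Word X → R) : (X → Fin 2) → R :=
  fun b => f (fun x => 2 * u x + ((b x : Fin 2) : ℕ))

/-- The strips (two antidiagonals each, from outside) of a perpendicular pair. -/
def uAB {X : Type} (k : ℕ) (A B : Word X) : Word X := fun x => (k - 1 - (A x + B x)) / 2

/-- size of the block of `x` -/
def bsize (u : Word X) (x : X) : ℕ := (univ.filter (fun y => u y = u x)).card

/-- Strip matchings: an involution preserving `u` with exactly one fixed point in each block,
together with an orientation of each pair. -/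
structure SM (u : Word X) (m : Perm X) (o : X → Bool) : Prop where
  invol : ∀ x, m (m x) = x
  pres : ∀ x, u (m x) = u x
  fix : ∀ x, ∃! y, u y = u x ∧ m y = y
  orient : ∀ x, m x ≠ x → o (m x) = !(o x)

/-- The two-row polytabloid of a strip matching, as a function of `b : X → Fin 2`. -/
def em (m : Perm X) (o : X → Bool) (b : X → Fin 2) : ℤ :=
  (∏ x ∈ univ.filter (fun x => m x ≠ x ∧ o x = true),
      ((((b (m x) : Fin 2) : ℕ) : ℤ) - (((b x : Fin 2) : ℕ) : ℤ))) *
    ∏ x ∈ univ.filter (fun x => m x = x), (1 - (((b x : Fin 2) : ℕ) : ℤ))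

/-- `p` is a position function: it numbers each block of `u` by `0, 1, ..`. -/
def IsPath (u p : Word X) : Prop :=
  Function.Injective (fun x => (u x, p x)) ∧ ∀ x, p x < bsize u x

/-- The path element: `e_m(b) e_{m'}(b')` where `m` matches the positions `(0,1),(2,3),..` (last
position fixed) and `m'` matches `(1,2),(3,4),..` (position `0` fixed) in each block of `u`
(blocks of odd size). -/
def zp (u p : Word X) (b b' : X → Fin 2) : ℤ :=
  (∏ q ∈ (univ : Finset (X × X)).filter
      (fun q => u q.1 = u q.2 ∧ p q.2 = p q.1 + 1 ∧ Even (p q.1)),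
      ((((b q.2 : Fin 2) : ℕ) : ℤ) - (((b q.1 : Fin 2) : ℕ) : ℤ))) *
    (∏ x ∈ univ.filter (fun x => p x + 1 = bsize u x), (1 - (((b x : Fin 2) : ℕ) : ℤ))) *
  ((∏ q ∈ (univ : Finset (X × X)).filter
      (fun q => u q.1 = u q.2 ∧ p q.2 = p q.1 + 1 ∧ Odd (p q.1)),
      ((((b' q.2 : Fin 2) : ℕ) : ℤ) - (((b' q.1 : Fin 2) : ℕ) : ℤ))) *
    (∏ x ∈ univ.filter (fun x => p x = 0), (1 - (((b' x : Fin 2) : ℕ) : ℤ))))

/-- Functions of pairs of `0/1`-words (= `(ℂ²⊗ℂ²)^{⊗X}`). -/
abbrev FF (X : Type) := (X → Fin 2) → (X → Fin 2) → ℂ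

/-- complexified path element -/
def zpC (u p : Word X) : FF X := fun b b' => ((zp u p b b' : ℤ) : ℂ)

/-- The diagonal action on `FF X`. -/
def frep (X : Type) : Representation ℂ (Perm X) (FF X) where
  toFun h :=
    { toFun := fun F b b' => F (b ∘ h) (b' ∘ h)
      map_add' := fun _ _ => rfl
      map_smul' := fun _ _ => rfl }
  map_one' := by ext F b b'; rfl
  map_mul' g h := by ext F b b'; rfl

@[simp] lemma frep_apply {X : Type} (h : Perm X) (F : FF X) (b b' : X → Fin 2) :
    frep X h F b b' = F (b ∘ h) (b' ∘ h) := rfl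

/-- The subgroup of permutations preserving the blocks of `u`. -/
def Hs {X : Type} (u : Word X) : Subgroup (Perm X) where
  carrier := {g | u ∘ g = u}
  mul_mem' {a b} ha hb := by
    show u ∘ (a * b) = u
    have ha' : u ∘ a = u := ha
    have hb' : u ∘ b = u := hb
    funext x
    have h1 := congrFun ha' (b x)
    have h2 := congrFun hb' x
    simp only [Function.comp_apply] at h1 h2
    simp [Perm.mul_apply, h1, h2]
  one_mem' := rfl
  inv_mem' {a} ha := by
    show u ∘ (a⁻¹ : Perm X) = u
    have ha' : u ∘ a = u := ha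
    funext x
    have h1 := congrFun ha' (a⁻¹ x)
    simp only [Function.comp_apply] at h1 ⊢
    rw [← h1]
    simp

@[simp] lemma mem_Hs {X : Type} (u : Word X) (g : Perm X) : g ∈ Hs u ↔ u ∘ g = u := Iff.rfl

/-- (Systems of) Young tableaux: in each block of `u` the map `x ↦ (ρ x, κ x)` (row, column) is a
bijection onto a Young diagram. -/
structure IsTab {X : Type} (u ρ κ : Word X) : Prop where
  inj : Function.Injective (fun x => (u x, ρ x, κ x))
  lower : ∀ x i j, i ≤ ρ x → j ≤ κ x → ∃ y, u y = u x ∧ ρ y = i ∧ κ y = j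

noncomputable instance instFintypeHs (u : Word X) : Fintype (Hs u) := Fintype.ofFinite _

/-- The Young symmetriser of a system of tableaux: `∑_{r, c} sgn(c) r c`, `r` row preserving,
`c` column preserving, in the group algebra of `Hs u`. -/
noncomputable def YE (u ρ κ : Word X) : MonoidAlgebra ℂ (Hs u) :=
  ∑ r ∈ (univ : Finset (Hs u)).filter (fun r : Hs u => ρ ∘ (r : Perm X) = ρ),
    ∑ c ∈ (univ : Finset (Hs u)).filter (fun c : Hs u => κ ∘ (c : Perm X) = κ),
      (((Perm.sign (c : Perm X) : ℤˣ) : ℤ) : ℂ) • MonoidAlgebra.of ℂ (Hs u) (r * c)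

/-- The Young symmetriser acting in a representation of `Perm X`. -/
noncomputable def yact {W : Type} [AddCommGroup W] [Module ℂ W]
    (σ : Representation ℂ (Perm X) W) (ρ κ : Word X) (w : W) : W :=
  ∑ r ∈ Rs ρ, ∑ c ∈ Rs κ, (((Perm.sign c : ℤˣ) : ℤ) : ℂ) • σ (r * c) w

/-- Restriction of a representation of `Perm X` to `Hs u`, twisted by a sign character. -/
noncomputable def twist {X : Type} {W : Type} [AddCommGroup W] [Module ℂ W]
    (σ : Representation ℂ (Perm X) W) (u : Word X) (ε : Hs u →* ℤˣ) :
    Representation ℂ (Hs u) W where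
  toFun h := (((ε h : ℤˣ) : ℤ) : ℂ) • σ (h : Perm X)
  map_one' := by simp
  map_mul' g h := by
    ext w
    simp only [map_mul, Units.val_mul, Int.cast_mul, Subgroup.coe_mul, LinearMap.smul_apply,
      Module.End.mul_apply, map_smul, smul_smul]
    rw [mul_comm]

/-- The diagonal action of `Hs u` on `FF X`. -/
noncomputable def frepH {X : Type} (u : Word X) : Representation ℂ (Hs u) (FF X) :=
  (frep X).comp (Hs u).subtype

/-- The four `2 × 2` matrices used to evaluate the path element. -/
def Mq : Fin 4 → Fin 2 → Fin 2 → ℤ :=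
  ![![![3, 1], ![2, 1]], ![![-1, -1], ![-2, -1]], ![![3, 1], ![1, 0]], ![![1, 1], ![-1, 0]]]

/-- Evaluation of the path element at a word of matrices. -/
def Phi (u p : Word X) (ρ : X → Fin 4) : ℤ :=
  ∑ b : X → Fin 2, ∑ b' : X → Fin 2, zp u p b b' * ∏ x, Mq (ρ x) (b x) (b' x)

end

end Crest.Agent.Saxl
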