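import Crest.Agent.Saxl.Young

/-!
CHUNK IRR-A (medium/hard; Young is a black box).
-/

set_option autoImplicit false

namespace Crest.Agent.Saxl

open Finset Equiv

variable {X : Type} [Fintype X] [DecidableEq X]

/-- The Young symmetriser in the group algebra of `Perm X`. -/
noncomputable def EP (ρ κ : Word X) : MonoidAlgebra ℂ (Perm X) :=
  ∑ r ∈ Rs ρ, ∑ c ∈ Rs κ,
    (((Perm.sign c : ℤˣ) : ℤ) : ℂ) • MonoidAlgebra.of ℂ (Perm X) (r * c)

/-- The central element attached to a tableau. -/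
noncomputable def zP (ρ κ : Word X) : MonoidAlgebra ℂ (Perm X) :=
  ∑ g : Perm X, MonoidAlgebra.of ℂ (Perm X) g * EP ρ κ * MonoidAlgebra.of ℂ (Perm X) g⁻¹

/-! Transport between `Hs (fun _ => 0)` and `Perm X`. -/

/-- `Hs (fun _ => 0)` is all of `Perm X`. -/
private def hsEquiv (X : Type) : Hs (fun _ : X => 0) ≃* Perm X where
  toFun g := g.1
  invFun g := ⟨g, rfl⟩
  left_inv _ := rfl
  right_inv _ := rfl
  map_mul' _ _ := rfl

/-- the induced isomorphism of group algebras -/
private noncomputable def phiA (X : Type) :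
    MonoidAlgebra ℂ (Hs (fun _ : X => 0)) ≃ₐ[ℂ] MonoidAlgebra ℂ (Perm X) :=
  MonoidAlgebra.domCongr ℂ ℂ (hsEquiv X)

omit [Fintype X] [DecidableEq X] in
private theorem phiA_of (g : Hs (fun _ : X => 0)) :
    phiA X (MonoidAlgebra.of ℂ _ g) = MonoidAlgebra.of ℂ (Perm X) (g : Perm X) := by
  unfold phiA
  rw [MonoidAlgebra.of_apply, MonoidAlgebra.of_apply]
  simp [hsEquiv]

private theorem phiA_YE (ρ κ : Word X) : phiA X (YE (fun _ => 0) ρ κ) = EP ρ κ := by
  unfold YE EP
  rw [map_sum]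
  refine Finset.sum_bij' (fun r _ => (r : Perm X)) (fun r _ => (hsEquiv X).symm r) ?_ ?_ ?_ ?_ ?_
  · intro r hr
    rw [Finset.mem_filter] at hr
    rw [Rs, Finset.mem_filter]
    exact ⟨Finset.mem_univ _, hr.2⟩
  · intro r hr
    rw [Rs, Finset.mem_filter] at hr
    rw [Finset.mem_filter]
    exact ⟨Finset.mem_univ _, hr.2⟩
  · intro r _; rfl
  · intro r _; rfl
  · intro r _
    rw [map_sum]
    refine Finset.sum_bij' (fun r _ => (r : Perm X)) (fun r _ => (hsEquiv X).symm r) ?_ ?_ ?_ ?_ ?_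
    · intro r hr
      rw [Finset.mem_filter] at hr
      rw [Rs, Finset.mem_filter]
      exact ⟨Finset.mem_univ _, hr.2⟩
    · intro r hr
      rw [Rs, Finset.mem_filter] at hr
      rw [Finset.mem_filter]
      exact ⟨Finset.mem_univ _, hr.2⟩
    · intro r _; rfl
    · intro r _; rfl
    · intro c _
      rw [map_smul, phiA_of]
      rfl

/-- `Hs (fun _ => 0)` is all of `Perm X`; transport `YE_sandwich`, `YE_sq` (u = 0), or repeat the argument. -/
theorem EP_sandwich {ρ κ : Word X} (h : IsTab (fun _ => 0) ρ κ) (a : MonoidAlgebra ℂ (Perm X)) :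
    ∃ z : ℂ, EP ρ κ * a * EP ρ κ = z • EP ρ κ := by
  obtain ⟨z, hz⟩ := YE_sandwich h ((phiA X).symm a)
  refine ⟨z, ?_⟩
  have := congrArg (phiA X) hz
  rw [map_mul, map_mul, AlgEquiv.apply_symm_apply, map_smul, phiA_YE] at this
  exact this

theorem EP_sq {ρ κ : Word X} (h : IsTab (fun _ => 0) ρ κ) :
    ∃ γ : ℂ, γ ≠ 0 ∧ EP ρ κ * EP ρ κ = γ • EP ρ κ := by
  obtain ⟨γ, hγ, hz⟩ := YE_sq h
  refine ⟨γ, hγ, ?_⟩
  have := congrArg (phiA X) hz
  rw [map_mul, map_smul, phiA_YE] at this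
  exact this

theorem zP_central (ρ κ : Word X) (g : Perm X) :
    MonoidAlgebra.of ℂ (Perm X) g * zP ρ κ = zP ρ κ * MonoidAlgebra.of ℂ (Perm X) g := by
  unfold zP
  rw [Finset.mul_sum, Finset.sum_mul]
  refine Fintype.sum_equiv (Equiv.mulLeft g) _ _ fun h => ?_
  simp only [Equiv.coe_mulLeft, mul_inv_rev, map_mul]
  have h1 : MonoidAlgebra.of ℂ (Perm X) g⁻¹ * MonoidAlgebra.of ℂ (Perm X) g = 1 := by
    rw [← map_mul, inv_mul_cancel, map_one]
  simp only [mul_assoc]
  rw [h1, mul_one]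

/-- the coefficient of the Young symmetriser at `1` is `1` -/
private theorem EP_coeff_one {ρ κ : Word X} (h : IsTab (fun _ => 0) ρ κ) :
    (EP ρ κ).coeff 1 = 1 := by
  have hone : ∀ r ∈ Rs ρ, ∀ c ∈ Rs κ, r * c = 1 → r = 1 ∧ c = 1 := by
    intro r hr c hc hrc
    rw [Rs, Finset.mem_filter] at hr hc
    have h1 : r = c⁻¹ := eq_inv_of_mul_eq_one_left hrc
    have h2 : κ ∘ r = κ := by
      rw [h1]
      funext x
      have h3 := congrFun hc.2 (c⁻¹ x)
      have h4 : c (c⁻¹ x) = x := by rw [← Perm.mul_apply, mul_inv_cancel, Perm.one_apply]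
      rw [Function.comp_apply, h4] at h3
      exact h3.symm
    have h3 : r = 1 := by
      ext x
      have h4 : ((fun _ : X => (0 : ℕ)) (r x), ρ (r x), κ (r x)) =
          ((fun _ : X => (0 : ℕ)) x, ρ x, κ x) := by
        have e1 := congrFun hr.2 x
        have e2 := congrFun h2 x
        simp only [Function.comp_apply] at e1 e2
        rw [e1, e2]
      simpa using h.inj h4
    refine ⟨h3, ?_⟩
    rw [h3, one_mul] at hrc
    exact hrc
  have hmem : ∀ w : Word X, (1 : Perm X) ∈ Rs w := by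
    intro w
    rw [Rs, Finset.mem_filter]
    exact ⟨Finset.mem_univ _, rfl⟩
  unfold EP
  simp only [MonoidAlgebra.coeff_sum, Finsupp.finsetSum_apply, MonoidAlgebra.coeff_smul,
    Finsupp.smul_apply, MonoidAlgebra.of_apply, MonoidAlgebra.coeff_single, Finsupp.single_apply, smul_eq_mul]
  rw [Finset.sum_eq_single_of_mem 1 (hmem ρ)]
  · rw [Finset.sum_eq_single_of_mem 1 (hmem κ)]
    · simp
    · intro c hc hc1
      rw [if_neg, mul_zero]
      intro hrc
      exact hc1 (hone 1 (hmem ρ) c hc hrc).2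
  · intro r hr hr1
    refine Finset.sum_eq_zero fun c hc => ?_
    rw [if_neg, mul_zero]
    intro hrc
    exact hr1 (hone r hr c hc hrc).1

theorem EP_ne_zero {ρ κ : Word X} (h : IsTab (fun _ => 0) ρ κ) : EP ρ κ ≠ 0 := by
  intro h0
  have h1 := EP_coeff_one h
  rw [h0] at h1
  simp at h1

/-- PROOF. `z` commutes with everything, `E = EP ρ κ`, `E z E = z E² = γ z E` and `E z E = c' E`, so
`z E = c E`, `c = c'/γ`, and `z` acts on the left ideal `ℂG E` as the scalar `c`, so with trace `c * d`,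
`d = dim ℂG E`. On the other hand the trace of `z` (left multiplication) on `ℂG E` is `|G|` times the trace of
left multiplication by `E` on `ℂG E` (trace is conjugation invariant), and `E * (a E) ∈ ℂ E`, `E * E = γ E`
show that this trace is `γ` (rank one map). So `c * d = |G| γ ≠ 0`. -/
theorem zP_mul_EP {ρ κ : Word X} (h : IsTab (fun _ => 0) ρ κ) :
    ∃ c : ℂ, c ≠ 0 ∧ zP ρ κ * EP ρ κ = c • EP ρ κ := by
  obtain ⟨γ, hγ, hE2⟩ := EP_sq h
  set E := EP ρ κ with hE
  set z := zP ρ κ with hz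
  -- `z` commutes with everything
  have hcomm : ∀ a : MonoidAlgebra ℂ (Perm X), a * z = z * a := by
    intro a
    induction a using MonoidAlgebra.induction_on with
    | of g => exact zP_central ρ κ g
    | add a b ha hb => rw [add_mul, mul_add, ha, hb]
    | smul r a ha => rw [smul_mul_assoc, mul_smul_comm, ha]
  obtain ⟨c', hc'⟩ := EP_sandwich h z
  rw [← hE] at hc'
  have hzE : z * E = (c' / γ) • E := by
    have h1 : E * z * E = γ • (z * E) := by
      rw [hcomm E, mul_assoc, hE2, mul_smul_comm]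
    rw [h1] at hc'
    have h2 := congrArg (fun a => γ⁻¹ • a) hc'
    simp only [smul_smul, inv_mul_cancel₀ hγ, one_smul] at h2
    rw [h2, div_eq_inv_mul]
  refine ⟨c' / γ, ?_, hzE⟩
  intro hc0
  rw [hc0, zero_smul] at hzE
  -- traces
  have hfin : Module.Finite ℂ (MonoidAlgebra ℂ (Perm X)) :=
    Module.Finite.of_basis (MonoidAlgebra.basis (Perm X) ℂ)
  have hfree : Module.Free ℂ (MonoidAlgebra ℂ (Perm X)) :=
    Module.Free.of_basis (MonoidAlgebra.basis (Perm X) ℂ)
  -- `a ↦ E a E`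
  set SE : MonoidAlgebra ℂ (Perm X) →ₗ[ℂ] MonoidAlgebra ℂ (Perm X) :=
    LinearMap.mulLeft ℂ E * LinearMap.mulRight ℂ E with hSE
  have hSEa : ∀ a, SE a = E * a * E := by
    intro a
    simp [hSE, mul_assoc]
  have htrSE : LinearMap.trace ℂ _ SE = γ ^ 2 := by
    -- the functional `coefficient at 1`
    let ℓ : MonoidAlgebra ℂ (Perm X) →ₗ[ℂ] ℂ :=
      (Finsupp.lapply 1) ∘ₗ (MonoidAlgebra.coeffLinearEquiv ℂ).toLinearMap
    have hℓE : ℓ E = 1 := EP_coeff_one h
    have h1 : SE = (ℓ ∘ₗ SE).smulRight E := by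
      refine LinearMap.ext fun a => ?_
      rw [LinearMap.smulRight_apply, LinearMap.comp_apply, hSEa]
      obtain ⟨w, hw⟩ := EP_sandwich h a
      rw [← hE] at hw
      rw [hw, map_smul, hℓE, smul_eq_mul, mul_one]
    rw [h1, LinearMap.trace_smulRight, LinearMap.comp_apply, hSEa, hE2, smul_mul_assoc, hE2,
      smul_smul, map_smul, hℓE, smul_eq_mul, mul_one, sq]
  -- `a ↦ z a E`
  have htr0 : LinearMap.trace ℂ _ (LinearMap.mulLeft ℂ z * LinearMap.mulRight ℂ E) = 0 := by
    have h1 : LinearMap.mulLeft ℂ z * LinearMap.mulRight ℂ E = 0 := by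
      refine LinearMap.ext fun a => ?_
      simp only [Module.End.mul_apply, LinearMap.mulRight_apply, LinearMap.mulLeft_apply,
        LinearMap.zero_apply]
      rw [← mul_assoc, ← hcomm a, mul_assoc, hzE, mul_zero]
    rw [h1, map_zero]
  have htr1 : LinearMap.trace ℂ _ (LinearMap.mulLeft ℂ z * LinearMap.mulRight ℂ E) =
      ∑ _g : Perm X, γ ^ 2 := by
    have h1 : LinearMap.mulLeft ℂ z * LinearMap.mulRight ℂ E =
        ∑ g : Perm X, LinearMap.mulLeft ℂ (MonoidAlgebra.of ℂ (Perm X) g) *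
          (LinearMap.mulLeft ℂ (E * MonoidAlgebra.of ℂ (Perm X) g⁻¹) * LinearMap.mulRight ℂ E) := by
      refine LinearMap.ext fun a => ?_
      rw [LinearMap.sum_apply]
      simp only [Module.End.mul_apply, LinearMap.mulRight_apply, LinearMap.mulLeft_apply]
      rw [hz]
      unfold zP
      rw [Finset.sum_mul]
      refine Finset.sum_congr rfl fun g _ => ?_
      simp only [mul_assoc, hE]
    rw [h1, map_sum]
    refine Finset.sum_congr rfl fun g _ => ?_
    rw [LinearMap.trace_mul_comm, ← htrSE]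
    congr 1
    refine LinearMap.ext fun a => ?_
    rw [hSEa]
    simp only [Module.End.mul_apply, LinearMap.mulRight_apply, LinearMap.mulLeft_apply]
    have h2 : MonoidAlgebra.of ℂ (Perm X) g⁻¹ * MonoidAlgebra.of ℂ (Perm X) g = 1 := by
      rw [← map_mul, inv_mul_cancel, map_one]
    calc E * MonoidAlgebra.of ℂ (Perm X) g⁻¹ * (MonoidAlgebra.of ℂ (Perm X) g * a * E)
        = E * (MonoidAlgebra.of ℂ (Perm X) g⁻¹ * MonoidAlgebra.of ℂ (Perm X) g) * a * E := by
          simp only [mul_assoc]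
      _ = E * a * E := by rw [h2, mul_one]
  rw [htr1, Finset.sum_const, Finset.card_univ, nsmul_eq_mul] at htr0
  have h3 : (Fintype.card (Perm X) : ℂ) ≠ 0 := by exact_mod_cast Fintype.card_ne_zero
  exact (mul_ne_zero h3 (pow_ne_zero 2 hγ)) htr0

end Crest.Agent.Saxl
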