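import Crest.Agent.Saxl.Defs

/-!
CHUNK YOUNG-A (medium).
-/

set_option autoImplicit false

namespace Crest.Agent.Saxl

open Finset Equiv

variable {X : Type} [Fintype X] [DecidableEq X]

/-- a finite lower set of naturals is an initial segment -/
theorem ya_lower_eq_range (s : Finset ℕ) (h : ∀ k ∈ s, ∀ j ≤ k, j ∈ s) : s = range s.card := by
  have hsub : range s.card ⊆ s := by
    intro j hj
    by_contra hjs
    have h1 : s ⊆ range j := by
      intro k hk
      rw [mem_range]
      by_contra hkj
      exact hjs (h k hk j (by omega))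
    have h2 := card_le_card h1
    rw [card_range] at h2
    rw [mem_range] at hj
    omega
  exact (eq_of_subset_of_card_le hsub (by rw [card_range])).symm

theorem ya_sum_ge (s : Finset ℕ) : ∑ i ∈ range s.card, i ≤ ∑ i ∈ s, i ∧
    (∑ i ∈ range s.card, i = ∑ i ∈ s, i → s = range s.card) := by
  set n := s.card with hn
  have e1 : ∑ i ∈ s ∩ range n, i + ∑ i ∈ s \ range n, i = ∑ i ∈ s, i := sum_inter_add_sum_sdiff s (range n) _
  have e2 : ∑ i ∈ range n ∩ s, i + ∑ i ∈ range n \ s, i = ∑ i ∈ range n, i := sum_inter_add_sum_sdiff (range n) s _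
  rw [inter_comm] at e2
  have hc : (range n \ s).card = (s \ range n).card := by
    have h1 := card_sdiff_add_card_inter (range n) s
    have h2 := card_sdiff_add_card_inter s (range n)
    rw [card_range] at h1
    rw [inter_comm] at h2
    omega
  have h3 : (s \ range n).card * n ≤ ∑ i ∈ s \ range n, i := by
    rw [← smul_eq_mul]
    refine card_nsmul_le_sum _ _ _ fun i hi => ?_
    rw [mem_sdiff, mem_range] at hi
    omega
  have h4 : ∑ i ∈ range n \ s, (i + 1) ≤ (range n \ s).card * n := by
    rw [← smul_eq_mul]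
    refine sum_le_card_nsmul _ _ _ fun i hi => ?_
    rw [mem_sdiff, mem_range] at hi
    omega
  rw [sum_add_distrib, sum_const, smul_eq_mul, mul_one, hc] at h4
  constructor
  · omega
  · intro heq
    have h5 : (s \ range n).card = 0 := by omega
    have h6 : s ⊆ range n := by
      rw [← sdiff_eq_empty_iff_subset]
      exact card_eq_zero.1 h5
    exact eq_of_subset_of_card_le h6 (by rw [card_range])

/-- Combinatorial heart of von Neumann's lemma.
PROOF (in each block of `u`, `λ_i` = number of letters with `ρ = i`, column `j` has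
`λ'_j = #{i : λ_i > j}` letters by `IsTab`; `κ ∘ g` has the same block-and-value counts as `κ`).
For each `t` and each row `i` the number of letters `x` of row `i` with `κ (g x) < t` is at most
`min λ_i t` by `hinj`; the sum over `i` is the number of letters with `κ (g x) < t`, i.e. the number with
`κ x < t`, which is `∑_i min λ_i t`. So equality holds for all `i`, and `t = λ_i` shows
`κ (g x) < λ_i` for all `x` in row `i`; so `x ↦ κ (g x)` is a bijection from row `i` onto
`{0..λ_i - 1}`, as is `κ`; hence `r` exists. -/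
theorem tab_factor {u ρ κ : Word X} (h : IsTab u ρ κ) (g : Perm X) (hg : u ∘ g = u)
    (hinj : Function.Injective (fun x => (u x, ρ x, κ (g x)))) :
    ∃ r : Perm X, u ∘ r = u ∧ ρ ∘ r = ρ ∧ κ ∘ (g * r : Perm X) = κ := by
  classical
  set f : X → ℕ × ℕ := fun x => (u x, ρ x) with hf
  set R : ℕ × ℕ → Finset X := fun p => univ.filter (fun x => f x = p) with hR
  have hmemR : ∀ p x, x ∈ R p ↔ f x = p := fun p x => by simp [hR]
  -- injectivity on rows
  have inj1 : ∀ p, Set.InjOn κ (R p : Set X) := by
    intro p x hx y hy hxy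
    rw [mem_coe, hmemR] at hx hy
    have e : f x = f y := hx.trans hy.symm
    simp only [hf, Prod.mk.injEq] at e
    exact h.inj (by simp only [e.1, e.2, hxy])
  have inj2 : ∀ p, Set.InjOn (fun x => κ (g x)) (R p : Set X) := by
    intro p x hx y hy hxy
    rw [mem_coe, hmemR] at hx hy
    have e : f x = f y := hx.trans hy.symm
    simp only [hf, Prod.mk.injEq] at e
    exact hinj (by simp only [e.1, e.2] at hxy ⊢; rw [hxy])
  have im1 : ∀ p, (R p).image κ = range (R p).card := by
    intro p
    rw [← card_image_of_injOn (inj1 p)]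
    apply ya_lower_eq_range
    intro k hk j hj
    rw [mem_image] at hk ⊢
    obtain ⟨x, hx, rfl⟩ := hk
    rw [hmemR] at hx
    obtain ⟨y, hy1, hy2, hy3⟩ := h.lower x (ρ x) j le_rfl hj
    exact ⟨y, (hmemR _ _).2 (by rw [← hx]; simp only [hf, hy1, hy2]), hy3⟩
  have c2 : ∀ p, ((R p).image (fun x => κ (g x))).card = (R p).card := fun p =>
    card_image_of_injOn (inj2 p)
  have s1 : ∀ p, ∑ x ∈ R p, κ x = ∑ i ∈ range (R p).card, i := by
    intro p
    rw [← im1 p, sum_image (inj1 p)]
  have s2 : ∀ p, ∑ x ∈ R p, κ (g x) = ∑ i ∈ (R p).image (fun x => κ (g x)), i := by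
    intro p
    rw [sum_image (inj2 p)]
  have hle : ∀ p ∈ univ.image f, ∑ x ∈ R p, κ x ≤ ∑ x ∈ R p, κ (g x) := by
    intro p _
    rw [s1, s2, ← c2 p]
    exact (ya_sum_ge _).1
  have tot : ∑ p ∈ univ.image f, ∑ x ∈ R p, κ x = ∑ p ∈ univ.image f, ∑ x ∈ R p, κ (g x) := by
    rw [sum_fiberwise_of_maps_to (fun x _ => mem_image_of_mem f (mem_univ x)) κ,
      sum_fiberwise_of_maps_to (fun x _ => mem_image_of_mem f (mem_univ x)) (fun x => κ (g x))]
    exact (Equiv.sum_comp g κ).symm
  have hall := (sum_eq_sum_iff_of_le hle).1 tot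
  have im2 : ∀ p ∈ univ.image f, (R p).image (fun x => κ (g x)) = range (R p).card := by
    intro p hp
    have e := hall p hp
    rw [s1, s2, ← c2 p] at e
    rw [← c2 p]
    exact (ya_sum_ge _).2 e
  -- existence
  have ex : ∀ x, ∃ y, f y = f x ∧ κ (g y) = κ x := by
    intro x
    have hp : f x ∈ univ.image f := mem_image_of_mem f (mem_univ x)
    have h1 : κ x ∈ (R (f x)).image κ := mem_image_of_mem κ ((hmemR _ _).2 rfl)
    rw [im1, ← im2 _ hp, mem_image] at h1
    obtain ⟨y, hy, hy2⟩ := h1
    exact ⟨y, (hmemR _ _).1 hy, hy2⟩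
  choose r hr1 hr2 using ex
  have rinj : Function.Injective r := by
    intro x y hxy
    have e1 : f x = f y := by rw [← hr1 x, ← hr1 y, hxy]
    have e2 : κ x = κ y := by rw [← hr2 x, ← hr2 y, hxy]
    simp only [hf, Prod.mk.injEq] at e1
    exact h.inj (by simp only [e1.1, e1.2, e2])
  refine ⟨Equiv.ofBijective r (Finite.injective_iff_bijective.1 rinj), ?_, ?_, ?_⟩
  · funext x
    exact congrArg Prod.fst (hr1 x)
  · funext x
    exact congrArg Prod.snd (hr1 x)
  · funext x
    exact hr2 x

end Crest.Agent.Saxl
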