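import Crest.Agent.Saxl.Defs

/-!
CHUNK SHAPES (medium).
-/

set_option autoImplicit false

namespace Crest.Agent.Saxl

open Finset Equiv

variable {X : Type} [Fintype X] [DecidableEq X]

theorem sh_lower_eq_range (s : Finset ℕ) (h : ∀ k ∈ s, ∀ j ≤ k, j ∈ s) : s = range s.card := by
  have hsub : range s.card ⊆ s := by
    intro j hj
    by_contra hjs
    have h1 : s ⊆ range j := by
      intro k hk
      rw [mem_range]
      by_contra hkj
      exact hjs (h k hk j (by omega))
    have h2 := card_le_card h1
    rw [card_range] at h2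
    rw [mem_range] at hj
    omega
  exact (eq_of_subset_of_card_le hsub (by rw [card_range])).symm

theorem sh_sum_getD (l : List ℕ) : ∑ i ∈ range l.length, l.getD i 0 = l.sum := by
  induction l with
  | nil => simp
  | cons a l ih =>
    rw [List.length_cons, Finset.sum_range_succ']
    simp only [List.getD_cons_succ, List.getD_cons_zero, List.sum_cons, ih]
    omega

theorem sh_getD_anti {l : List ℕ} (hl : l.Pairwise (· ≥ ·)) {i j : ℕ} (hij : i ≤ j) :
    l.getD j 0 ≤ l.getD i 0 := by
  by_cases hj : j < l.length
  · have hi : i < l.length := by omega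
    rw [List.getD_eq_getElem _ _ hj, List.getD_eq_getElem _ _ hi]
    rcases Nat.lt_or_eq_of_le hij with h | h
    · exact List.pairwise_iff_getElem.1 hl i j hi hj h
    · subst h; exact le_rfl
  · rw [List.getD_eq_default _ _ (by omega)]
    exact Nat.zero_le _

/-- Every partition of `card X` is the shape of some tableau on `X`. -/
theorem exists_tab_of_partition (P : (Fintype.card X).Partition) :
    ∃ ρ κ : Word X, IsTab (fun _ => 0) ρ κ ∧
      ∀ i, (univ.filter (fun x => ρ x = i)).card = (P.parts.sort (· ≥ ·)).getD i 0 := by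
  classical
  set l : List ℕ := P.parts.sort (· ≥ ·) with hl
  have hpw : l.Pairwise (· ≥ ·) := Multiset.pairwise_sort _ _
  have hsum : l.sum = Fintype.card X := by
    rw [← P.parts_sum, ← Multiset.sum_coe, hl, Multiset.sort_eq]
  set C : Finset (Σ _ : ℕ, ℕ) := (range l.length).sigma (fun i => range (l.getD i 0)) with hC
  have hCmem : ∀ c : Σ _ : ℕ, ℕ, c ∈ C ↔ c.2 < l.getD c.1 0 := by
    intro c
    rw [hC, mem_sigma, mem_range, mem_range]
    constructor
    · exact fun h => h.2
    · intro h
      refine ⟨?_, h⟩
      by_contra h'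
      rw [List.getD_eq_default _ _ (by omega)] at h
      omega
  have hCcard : C.card = Fintype.card X := by
    rw [hC, card_sigma, ← hsum, ← sh_sum_getD]
    exact sum_congr rfl fun i _ => card_range _
  have e : X ≃ C := Fintype.equivOfCardEq (by rw [Fintype.card_coe, hCcard])
  refine ⟨fun x => (e x).1.1, fun x => (e x).1.2, ⟨?_, ?_⟩, ?_⟩
  · intro x y hxy
    simp only [Prod.mk.injEq, true_and] at hxy
    apply e.injective
    apply Subtype.ext
    exact Sigma.ext hxy.1 (heq_of_eq hxy.2)
  · intro x i j hi hj
    have hx := (hCmem _).1 (e x).2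
    have hc : (⟨i, j⟩ : Σ _ : ℕ, ℕ) ∈ C := by
      rw [hCmem]
      have := sh_getD_anti hpw hi
      simp only at this ⊢
      omega
    refine ⟨e.symm ⟨⟨i, j⟩, hc⟩, rfl, ?_, ?_⟩ <;> simp
  · intro i
    have h1 : (univ.filter (fun x => (e x).1.1 = i)).card = (C.filter (fun c => c.1 = i)).card := by
      refine card_bij (fun x _ => (e x).1) ?_ ?_ ?_
      · intro x hx
        rw [mem_filter] at hx ⊢
        exact ⟨(e x).2, hx.2⟩
      · intro x _ y _ h
        exact e.injective (Subtype.ext h)
      · intro c hc
        rw [mem_filter] at hc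
        refine ⟨e.symm ⟨c, hc.1⟩, ?_, ?_⟩ <;> simp [hc.2]
    rw [h1]
    have h2 : (C.filter (fun c => c.1 = i)).card = (range (l.getD i 0)).card := by
      refine card_bij (fun c _ => c.2) ?_ ?_ ?_
      · rintro ⟨a, b⟩ hc
        rw [mem_filter, hCmem] at hc
        obtain ⟨h3, h4⟩ := hc
        simp only at h3 h4 ⊢
        subst h4
        rw [mem_range]
        exact h3
      · rintro ⟨a, b⟩ hc ⟨a', b'⟩ hc' h
        rw [mem_filter] at hc hc'
        simp only at h hc hc'
        rw [h, hc.2, hc'.2]
      · intro b hb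
        rw [mem_range] at hb
        exact ⟨⟨i, b⟩, by rw [mem_filter, hCmem]; exact ⟨hb, rfl⟩, rfl⟩
    rw [h2, card_range]

/-- rows of a tableau: the columns are an initial segment -/
theorem sh_row_image {ρ κ : Word X} (h : IsTab (fun _ => 0) ρ κ) (i : ℕ) :
    (univ.filter (fun x => ρ x = i)).image κ = range (univ.filter (fun x => ρ x = i)).card := by
  have hinj : Set.InjOn κ ((univ.filter (fun x => ρ x = i) : Finset X) : Set X) := by
    intro x hx y hy hxy
    rw [mem_coe, mem_filter] at hx hy
    exact h.inj (by simp only [hx.2, hy.2, hxy])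
  rw [← card_image_of_injOn hinj]
  apply sh_lower_eq_range
  intro k hk j hj
  rw [mem_image] at hk ⊢
  obtain ⟨x, hx, rfl⟩ := hk
  rw [mem_filter] at hx
  obtain ⟨y, _, hy2, hy3⟩ := h.lower x (ρ x) j le_rfl hj
  exact ⟨y, by rw [mem_filter]; exact ⟨mem_univ _, hy2.trans hx.2⟩, hy3⟩

/-- columns of a tableau: the rows are an initial segment -/
theorem sh_col_image {ρ κ : Word X} (h : IsTab (fun _ => 0) ρ κ) (j : ℕ) :
    (univ.filter (fun x => κ x = j)).image ρ = range (univ.filter (fun x => κ x = j)).card := by
  have hinj : Set.InjOn ρ ((univ.filter (fun x => κ x = j) : Finset X) : Set X) := by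
    intro x hx y hy hxy
    rw [mem_coe, mem_filter] at hx hy
    exact h.inj (by simp only [hx.2, hy.2, hxy])
  rw [← card_image_of_injOn hinj]
  apply sh_lower_eq_range
  intro k hk i hi
  rw [mem_image] at hk ⊢
  obtain ⟨x, hx, rfl⟩ := hk
  rw [mem_filter] at hx
  obtain ⟨y, _, hy2, hy3⟩ := h.lower x i (κ x) hi le_rfl
  exact ⟨y, by rw [mem_filter]; exact ⟨mem_univ _, hy3.trans hx.2⟩, hy2⟩

/-- PROOF: the set of letters with `ρ' (g x) < t` meets column `j` (`κ = j`, `c_j` letters) in at
most `min c_j t` letters, and `∑_j min c_j t = #{ρ < t}`. -/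
theorem shape_dom {ρ κ ρ' κ' : Word X} (h : IsTab (fun _ => 0) ρ κ)
    (h' : IsTab (fun _ => 0) ρ' κ') (g : Perm X)
    (hinj : Function.Injective (fun x => (κ x, ρ' (g x)))) (t : ℕ) :
    (univ.filter (fun x => ρ' x < t)).card ≤ (univ.filter (fun x => ρ x < t)).card := by
  classical
  have h1 : (univ.filter (fun x => ρ' x < t)).card = (univ.filter (fun x => ρ' (g x) < t)).card := by
    symm
    refine card_bij (fun x _ => g x) ?_ ?_ ?_
    · intro x hx
      rw [mem_filter] at hx ⊢
      exact ⟨mem_univ _, hx.2⟩
    · intro x _ y _ hxy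
      exact g.injective hxy
    · intro y hy
      rw [mem_filter] at hy
      exact ⟨g.symm y, by rw [mem_filter]; simpa using hy.2, by simp⟩
  rw [h1]
  rw [card_eq_sum_card_fiberwise (f := κ) (t := univ.image κ)
      (fun x _ => mem_coe.2 (mem_image_of_mem κ (mem_univ x))),
    card_eq_sum_card_fiberwise (s := univ.filter (fun x => ρ x < t)) (f := κ) (t := univ.image κ)
      (fun x _ => mem_coe.2 (mem_image_of_mem κ (mem_univ x)))]
  refine sum_le_sum fun j _ => ?_
  set K : Finset X := univ.filter (fun x => κ x = j) with hK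
  -- the second set has `min c_j t` elements
  have hr : ((univ.filter (fun x => ρ x < t)).filter (fun x => κ x = j)).card = min K.card t := by
    have hinj2 : Set.InjOn ρ (((univ.filter (fun x => ρ x < t)).filter (fun x => κ x = j) :
        Finset X) : Set X) := by
      intro x hx y hy hxy
      rw [mem_coe, mem_filter, mem_filter] at hx hy
      exact h.inj (by simp only [hx.2, hy.2, hxy])
    rw [← card_image_of_injOn hinj2]
    have : ((univ.filter (fun x => ρ x < t)).filter (fun x => κ x = j)).image ρ =
        range (min K.card t) := by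
      ext i
      rw [mem_image, mem_range, lt_min_iff]
      constructor
      · rintro ⟨x, hx, rfl⟩
        rw [mem_filter, mem_filter] at hx
        have : ρ x ∈ K.image ρ := mem_image_of_mem ρ (by rw [hK, mem_filter]; exact ⟨mem_univ _, hx.2⟩)
        rw [hK, sh_col_image h j, mem_range] at this
        exact ⟨this, hx.1.2⟩
      · rintro ⟨h2, h3⟩
        have : i ∈ K.image ρ := by rw [hK, sh_col_image h j, mem_range]; exact h2
        rw [mem_image] at this
        obtain ⟨x, hx, rfl⟩ := this
        rw [hK, mem_filter] at hx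
        exact ⟨x, by rw [mem_filter, mem_filter]; exact ⟨⟨mem_univ _, h3⟩, hx.2⟩, rfl⟩
    rw [this, card_range]
  rw [hr, le_min_iff]
  constructor
  · apply card_le_card
    intro x hx
    rw [mem_filter] at hx
    rw [hK, mem_filter]
    exact ⟨mem_univ _, hx.2⟩
  · have hinj3 : Set.InjOn (fun x => ρ' (g x))
        (((univ.filter (fun x => ρ' (g x) < t)).filter (fun x => κ x = j) : Finset X) : Set X) := by
      intro x hx y hy hxy
      rw [mem_coe, mem_filter, mem_filter] at hx hy
      exact hinj (by simp only [hx.2, hy.2] at hxy ⊢; rw [hxy])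
    rw [← card_image_of_injOn hinj3]
    calc _ ≤ (range t).card := by
          apply card_le_card
          intro i hi
          rw [mem_image] at hi
          obtain ⟨x, hx, rfl⟩ := hi
          rw [mem_filter, mem_filter] at hx
          rw [mem_range]
          exact hx.1.2
      _ = t := card_range _

/-- two tableaux with the same row sizes differ by a permutation -/
theorem tab_conj {ρ κ ρ' κ' : Word X} (h : IsTab (fun _ => 0) ρ κ)
    (h' : IsTab (fun _ => 0) ρ' κ')
    (heq : ∀ t, (univ.filter (fun x => ρ' x < t)).card = (univ.filter (fun x => ρ x < t)).card) :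
    ∃ g : Perm X, ρ' ∘ g = ρ ∧ κ' ∘ g = κ := by
  classical
  have hsplit : ∀ (f : Word X) (i : ℕ), (univ.filter (fun x => f x < i + 1)).card =
      (univ.filter (fun x => f x < i)).card + (univ.filter (fun x => f x = i)).card := by
    intro f i
    rw [← card_union_of_disjoint]
    · congr 1
      ext x
      simp only [mem_filter, mem_univ, true_and, mem_union]
      omega
    · rw [disjoint_left]
      intro x hx hy
      rw [mem_filter] at hx hy
      omega
  have hrow : ∀ i, (univ.filter (fun x => ρ' x = i)).card = (univ.filter (fun x => ρ x = i)).card := by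
    intro i
    have h1 := hsplit ρ i
    have h2 := hsplit ρ' i
    have h3 := heq i
    have h4 := heq (i + 1)
    omega
  have ex : ∀ x, ∃ y, ρ' y = ρ x ∧ κ' y = κ x := by
    intro x
    have h1 : κ x ∈ (univ.filter (fun y => ρ y = ρ x)).image κ :=
      mem_image_of_mem κ (by rw [mem_filter]; exact ⟨mem_univ _, rfl⟩)
    rw [sh_row_image h, ← hrow, ← sh_row_image h', mem_image] at h1
    obtain ⟨y, hy, hy2⟩ := h1
    rw [mem_filter] at hy
    exact ⟨y, hy.2, hy2⟩
  choose r hr1 hr2 using ex
  have rinj : Function.Injective r := by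
    intro x y hxy
    exact h.inj (by simp only [← hr1 x, ← hr1 y, ← hr2 x, ← hr2 y, hxy])
  refine ⟨Equiv.ofBijective r (Finite.injective_iff_bijective.1 rinj), ?_, ?_⟩
  · funext x
    exact hr1 x
  · funext x
    exact hr2 x

end Crest.Agent.Saxl
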