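import Crest.Agent.Saxl.Defs

/-!
CHUNK CENTER (medium).
-/

set_option autoImplicit false

namespace Crest.Agent.Saxl

open Finset Equiv

variable {X : Type} [Fintype X] [DecidableEq X]

private noncomputable def cenL (X : Type) [Fintype X] [DecidableEq X] :
    ((Fintype.card X).Partition → ℂ) →ₗ[ℂ] MonoidAlgebra ℂ (Perm X) :=
  ∑ g : Perm X, (LinearMap.proj (R := ℂ) (φ := fun _ : (Fintype.card X).Partition => ℂ)
    g.partition).smulRight (MonoidAlgebra.of ℂ (Perm X) g)

private lemma cenL_coeff (F : (Fintype.card X).Partition → ℂ) (h : Perm X) :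
    (cenL X F).coeff h = F h.partition := by
  classical
  unfold cenL
  rw [LinearMap.sum_apply, MonoidAlgebra.coeff_sum, Finsupp.finsetSum_apply,
    Finset.sum_eq_single h]
  · simp
  · intro g _ hg
    simp [hg]
  · intro hh
    exact absurd (Finset.mem_univ h) hh

private lemma central_mem (a : MonoidAlgebra ℂ (Perm X))
    (ha : ∀ g, MonoidAlgebra.of ℂ (Perm X) g * a = a * MonoidAlgebra.of ℂ (Perm X) g) :
    a ∈ LinearMap.range (cenL X) := by
  classical
  have hconj : ∀ g h : Perm X, a.coeff (g * h * g⁻¹) = a.coeff h := by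
    intro g h
    have h1 := congrArg (fun b => MonoidAlgebra.coeff b (g * h)) (ha g)
    simp only [MonoidAlgebra.of_apply, MonoidAlgebra.coeff_single_mul_apply,
      MonoidAlgebra.coeff_mul_single_apply] at h1
    simpa using h1.symm
  have hpart : ∀ g h : Perm X, g.partition = h.partition → a.coeff g = a.coeff h := by
    intro g h hgh
    have h2 := Equiv.Perm.partition_eq_of_isConj.2 hgh
    rw [isConj_iff] at h2
    obtain ⟨c, hc⟩ := h2
    rw [← hc, hconj]
  refine ⟨fun p => if hp : ∃ g : Perm X, g.partition = p then a.coeff hp.choose else 0, ?_⟩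
  rw [← MonoidAlgebra.coeff_inj]
  ext h
  rw [cenL_coeff]
  have hp : ∃ g : Perm X, g.partition = h.partition := ⟨h, rfl⟩
  rw [dif_pos hp]
  exact hpart _ _ hp.choose_spec

/-- A linearly independent family of central elements of `ℂ[Perm X]` with at least as many members as there
are partitions of `card X` spans `1`.
PROOF: central elements are class functions (`a (g x g⁻¹) = a x`), i.e. factor through
`ConjClasses (Perm X)`, and `ConjClasses (Perm X)` injects into partitions
(`Equiv.Perm.partition_eq_of_isConj`), so the space of central elements has dimension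
`≤ card Partition`; `1` is central. -/
theorem one_mem_span_of_central {ι : Type} [Fintype ι]
    (hι : Fintype.card (Fintype.card X).Partition ≤ Fintype.card ι)
    (z : ι → MonoidAlgebra ℂ (Perm X))
    (hz : ∀ i g, MonoidAlgebra.of ℂ (Perm X) g * z i = z i * MonoidAlgebra.of ℂ (Perm X) g)
    (hli : LinearIndependent ℂ z) :
    (1 : MonoidAlgebra ℂ (Perm X)) ∈ Submodule.span ℂ (Set.range z) := by
  have h1 : (1 : MonoidAlgebra ℂ (Perm X)) ∈ LinearMap.range (cenL X) :=
    central_mem 1 fun g => by rw [mul_one, one_mul]
  have h2 : Submodule.span ℂ (Set.range z) ≤ LinearMap.range (cenL X) := by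
    rw [Submodule.span_le]
    rintro _ ⟨i, rfl⟩
    exact central_mem (z i) (hz i)
  have h3 : Module.finrank ℂ (LinearMap.range (cenL X)) ≤
      Module.finrank ℂ (Submodule.span ℂ (Set.range z)) := by
    rw [finrank_span_eq_card hli]
    refine le_trans (LinearMap.finrank_range_le _) ?_
    rw [Module.finrank_fintype_fun_eq_card]
    exact hι
  rw [Submodule.eq_of_le_of_finrank_le h2 h3]
  exact h1

end Crest.Agent.Saxl
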