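import Crest.Agent.Saxl.PathConj

/-!
CHUNK CLIFF-A (medium/hard).
-/

set_option autoImplicit false

namespace Crest.Agent.Saxl

open Finset Equiv

variable {X : Type} [Fintype X] [DecidableEq X]

namespace CliffA

/-- integer value of a bit -/
abbrev iv (t : Fin 2) : ℤ := ((t : ℕ) : ℤ)

/-- the couplings of a block at the positions satisfying `pr` -/
def Kn (pr : ℕ → Prop) [DecidablePred pr] (n : ℕ) (b : Fin n → Fin 2) : ℤ :=
  ∏ j : Fin n, ∏ j' : Fin n, if (j' : ℕ) = j + 1 ∧ pr j then (iv (b j') - iv (b j)) else 1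

def Ln (n : ℕ) (b : Fin n → Fin 2) : ℤ :=
  ∏ j : Fin n, if (j : ℕ) + 1 = n then (1 - iv (b j)) else 1

def Fn (n : ℕ) (v : Fin 2 → ℤ) (b : Fin n → Fin 2) : ℤ :=
  ∏ j : Fin n, if (j : ℕ) = 0 then v (b j) else 1

/-- the block sum -/
def Zb (n : ℕ) (v : Fin 2 → ℤ) (c : Fin n → Fin 4) : ℤ :=
  ∑ b : Fin n → Fin 2, ∑ b' : Fin n → Fin 2,
    Kn Even n b * Ln n b * (Kn Odd n b' * Fn n v b') * ∏ j, Mq (c j) (b j) (b' j)

theorem sum_cons {n : ℕ} (f : (Fin (n + 1) → Fin 2) → ℤ) :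
    ∑ b, f b = ∑ b0 : Fin 2, ∑ b : Fin n → Fin 2, f (Fin.cons b0 b) := by
  rw [← (Fin.consEquiv (fun _ => Fin 2)).sum_comp, Fintype.sum_prod_type]
  rfl

theorem Kn_cons (pr : ℕ → Prop) [DecidablePred pr] (n : ℕ) (b0 : Fin 2) (b : Fin n → Fin 2) :
    Kn pr (n + 1) (Fin.cons b0 b) =
      (∏ j' : Fin n, if (j' : ℕ) = 0 ∧ pr 0 then (iv (b j') - iv b0) else 1) *
        Kn (fun i => pr (i + 1)) n b := by
  unfold Kn
  rw [Fin.prod_univ_succ]
  congr 1
  · rw [Fin.prod_univ_succ]; simp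
  · refine prod_congr rfl fun j _ => ?_
    rw [Fin.prod_univ_succ]; simp [Fin.cons_succ]

theorem first_prod (n : ℕ) (P : Prop) [Decidable P] (f : Fin (n + 1) → ℤ) :
    (∏ j' : Fin (n + 1), if (j' : ℕ) = 0 ∧ P then f j' else 1) = if P then f 0 else 1 := by
  rw [Fin.prod_univ_succ]; simp

theorem Kn_even (n : ℕ) (b0 b1 : Fin 2) (b : Fin (n + 1) → Fin 2) :
    Kn Even (n + 1 + 2) (Fin.cons b0 (Fin.cons b1 b : Fin (n + 2) → Fin 2)) =
      (iv b1 - iv b0) * Kn Even (n + 1) b := by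
  rw [Kn_cons, Kn_cons, first_prod, first_prod]
  have h1 : ¬ Even (0 + 1) := by decide
  have h2 : Even 0 := by decide
  rw [if_pos h2, if_neg h1, one_mul, Fin.cons_zero]
  congr 1
  unfold Kn
  refine prod_congr rfl fun j _ => prod_congr rfl fun j' _ => ?_
  have h3 : Even ((j : ℕ) + 1 + 1) ↔ Even (j : ℕ) := by
    constructor <;> intro h <;> [exact (Nat.even_add' .. |>.1 h |> fun _ => by
      rcases h with ⟨k, hk⟩; exact ⟨k - 1, by omega⟩); exact h.add_one.add_one]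
  simp only [h3]

theorem Kn_odd (n : ℕ) (b0 b1 : Fin 2) (b : Fin (n + 1) → Fin 2) :
    Kn Odd (n + 1 + 2) (Fin.cons b0 (Fin.cons b1 b : Fin (n + 2) → Fin 2)) =
      (iv (b 0) - iv b1) * Kn Odd (n + 1) b := by
  rw [Kn_cons, Kn_cons, first_prod, first_prod]
  have h1 : Odd (0 + 1) := by decide
  have h2 : ¬ Odd 0 := by decide
  rw [if_neg h2, if_pos h1, one_mul]
  congr 1
  unfold Kn
  refine prod_congr rfl fun j _ => prod_congr rfl fun j' _ => ?_
  have h3 : Odd ((j : ℕ) + 1 + 1) ↔ Odd (j : ℕ) := by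
    constructor
    · rintro ⟨k, hk⟩; exact ⟨k - 1, by omega⟩
    · rintro ⟨k, hk⟩; exact ⟨k + 1, by omega⟩
  simp only [h3]

theorem Ln_cons (n : ℕ) (b0 : Fin 2) (b : Fin (n + 1) → Fin 2) :
    Ln (n + 2) (Fin.cons b0 b) = Ln (n + 1) b := by
  unfold Ln
  rw [Fin.prod_univ_succ]
  simp

theorem Fn_succ (n : ℕ) (v : Fin 2 → ℤ) (b : Fin (n + 1) → Fin 2) :
    Fn (n + 1) v b = v (b 0) := by
  unfold Fn
  rw [Fin.prod_univ_succ]
  simp

/-- the transfer step -/
def step (v : Fin 2 → ℤ) (c0 c1 : Fin 4) (t : Fin 2) : ℤ :=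
  ∑ b0 : Fin 2, ∑ b1 : Fin 2, ∑ d0 : Fin 2, ∑ d1 : Fin 2,
    (iv b1 - iv b0) * v d0 * (iv t - iv d1) * Mq c0 b0 d0 * Mq c1 b1 d1

theorem Zb_step (n : ℕ) (v : Fin 2 → ℤ) (c : Fin (n + 1 + 2) → Fin 4) :
    Zb (n + 1 + 2) v c = Zb (n + 1) (step v (c 0) (c 1)) (fun j => c j.succ.succ) := by
  unfold Zb
  simp only [sum_cons (n := n + 1 + 1), sum_cons (n := n + 1)]
  have key : ∀ (b0 b1 d0 d1 : Fin 2) (b d : Fin (n + 1) → Fin 2),
      Kn Even (n + 1 + 2) (Fin.cons b0 (Fin.cons b1 b : Fin (n + 2) → Fin 2)) *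
        Ln (n + 1 + 2) (Fin.cons b0 (Fin.cons b1 b : Fin (n + 2) → Fin 2)) *
        (Kn Odd (n + 1 + 2) (Fin.cons d0 (Fin.cons d1 d : Fin (n + 2) → Fin 2)) *
          Fn (n + 1 + 2) v (Fin.cons d0 (Fin.cons d1 d : Fin (n + 2) → Fin 2))) *
        ∏ j, Mq (c j) ((Fin.cons b0 (Fin.cons b1 b : Fin (n + 2) → Fin 2) : Fin (n + 3) → Fin 2) j)
          ((Fin.cons d0 (Fin.cons d1 d : Fin (n + 2) → Fin 2) : Fin (n + 3) → Fin 2) j) =
      ((iv b1 - iv b0) * v d0 * (iv (d 0) - iv d1) * Mq (c 0) b0 d0 * Mq (c 1) b1 d1) *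
        (Kn Even (n + 1) b * Ln (n + 1) b * Kn Odd (n + 1) d *
          ∏ j : Fin (n + 1), Mq (c j.succ.succ) (b j) (d j)) := by
    intro b0 b1 d0 d1 b d
    rw [Kn_even, Kn_odd, Ln_cons, Ln_cons, Fn_succ, Fin.prod_univ_succ, Fin.prod_univ_succ]
    simp only [Fin.cons_zero, Fin.cons_succ]
    have e : c (Fin.succ 0) = c 1 := rfl
    rw [e]
    ring
  simp only [key]
  simp only [Fin.sum_univ_two, ← Finset.sum_add_distrib]
  refine sum_congr rfl fun b _ => sum_congr rfl fun d _ => ?_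
  rw [Fn_succ]
  simp only [step, Fin.sum_univ_two]
  ring

/-- the finite set of reachable vectors -/
def vset : Finset (Fin 2 → ℤ) :=
  {![1, 0], ![-1, 0], ![1, -4], ![-1, 4], ![2, -3], ![-2, 3], ![2, -5], ![-2, 5]}

theorem step_mem : ∀ v ∈ vset, ∀ c0 c1 : Fin 4, step v c0 c1 ∈ vset := by
  decide

theorem Zb_one (v : Fin 2 → ℤ) (c : Fin 1 → Fin 4) :
    Zb 1 v c = ∑ d : Fin 2, v d * Mq (c 0) 0 d := by
  unfold Zb
  simp only [sum_cons (n := 0), Finset.univ_unique, Finset.sum_singleton]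
  simp only [Fin.sum_univ_two, Kn, Ln, Fn, Fin.prod_univ_one]
  simp [iv]

theorem Zb_one_ne : ∀ v ∈ vset, ∀ c : Fin 4, ∑ d : Fin 2, v d * Mq c 0 d ≠ 0 := by
  decide

theorem Zb_ne_zero (m : ℕ) : ∀ v ∈ vset, ∀ c : Fin (2 * m + 1) → Fin 4,
    Zb (2 * m + 1) v c ≠ 0 := by
  induction m with
  | zero =>
    intro v hv c
    have := Zb_one_ne v hv (c 0)
    rw [← Zb_one v c] at this
    exact this
  | succ m ih =>
    intro v hv c
    have h := Zb_step (2 * m) v c
    have h2 := ih (step v (c 0) (c 1)) (step_mem v hv _ _) (fun j => c j.succ.succ)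
    exact fun h0 => h2 (h ▸ h0)

/-! ### factorisation over the blocks -/

/-- the blocks -/
abbrev S (u : Word X) : Type := {i : ℕ // i ∈ univ.image u}

/-- size of a block -/
abbrev sz (u : Word X) (i : S u) : ℕ := (univ.filter (fun y => u y = (i : ℕ))).card

/-- coordinates of a letter -/
def co {u p : Word X} (hp : IsPath u p) (x : X) : Σ i : S u, Fin (sz u i) :=
  ⟨⟨u x, mem_image_of_mem u (mem_univ x)⟩, ⟨p x, hp.2 x⟩⟩

theorem co_inj {u p : Word X} (hp : IsPath u p) : Function.Injective (co hp) := by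
  intro x y h
  apply hp.1
  unfold co at h
  rw [Sigma.mk.injEq] at h
  obtain ⟨h1, h2⟩ := h
  have h1' : u x = u y := congrArg Subtype.val h1
  have h3 : p x = p y := by
    have : ∀ (i j : S u) (a : Fin (sz u i)) (b : Fin (sz u j)), i = j → HEq a b →
        (a : ℕ) = (b : ℕ) := by
      intro i j a b hij hab
      subst hij
      rw [eq_of_heq hab]
    exact this _ _ _ _ h1 h2
  simp [h1', h3]

theorem co_bij {u p : Word X} (hp : IsPath u p) : Function.Bijective (co hp) := by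
  rw [Fintype.bijective_iff_injective_and_card]
  refine ⟨co_inj hp, ?_⟩
  rw [Fintype.card_sigma]
  simp only [Fintype.card_fin]
  have h1 : ∑ i : S u, sz u i = ∑ i ∈ univ.image u, (univ.filter (fun y => u y = i)).card := by
    rw [← Finset.sum_coe_sort (univ.image u)]
  rw [h1, ← Finset.card_univ]
  exact Finset.card_eq_sum_card_image u univ

/-- the equivalence -/
noncomputable def ce {u p : Word X} (hp : IsPath u p) : X ≃ Σ i : S u, Fin (sz u i) :=
  Equiv.ofBijective _ (co_bij hp)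

theorem u_symm {u p : Word X} (hp : IsPath u p) (z : Σ i : S u, Fin (sz u i)) :
    u ((ce hp).symm z) = z.1 := by
  have h : co hp ((ce hp).symm z) = z := (ce hp).apply_symm_apply z
  conv_rhs => rw [← h]
  rfl

theorem p_symm {u p : Word X} (hp : IsPath u p) (z : Σ i : S u, Fin (sz u i)) :
    p ((ce hp).symm z) = z.2 := by
  have h : co hp ((ce hp).symm z) = z := (ce hp).apply_symm_apply z
  conv_rhs => rw [← h]
  rfl

/-- words as families of block words -/
noncomputable def we {u p : Word X} (hp : IsPath u p) :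
    (X → Fin 2) ≃ ((i : S u) → Fin (sz u i) → Fin 2) :=
  (Equiv.arrowCongr (ce hp) (Equiv.refl (Fin 2))).trans (Equiv.piCurry (fun _ _ => Fin 2))

theorem we_symm_apply {u p : Word X} (hp : IsPath u p)
    (β : (i : S u) → Fin (sz u i) → Fin 2) (x : X) :
    (we hp).symm β x = β (ce hp x).1 (ce hp x).2 := rfl

theorem we_symm_symm {u p : Word X} (hp : IsPath u p)
    (β : (i : S u) → Fin (sz u i) → Fin 2) (i : S u) (j : Fin (sz u i)) :
    (we hp).symm β ((ce hp).symm ⟨i, j⟩) = β i j := by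
  rw [we_symm_apply, (ce hp).apply_symm_apply]

theorem prod_pairs {u p : Word X} (hp : IsPath u p) (pr : ℕ → Prop) [DecidablePred pr]
    (β : (i : S u) → Fin (sz u i) → Fin 2) :
    (∏ q ∈ (univ : Finset (X × X)).filter
      (fun q => u q.1 = u q.2 ∧ p q.2 = p q.1 + 1 ∧ pr (p q.1)),
      (((((we hp).symm β q.2 : Fin 2) : ℕ) : ℤ) - ((((we hp).symm β q.1 : Fin 2) : ℕ) : ℤ))) =
    ∏ i : S u, Kn pr (sz u i) (β i) := by
  rw [Finset.prod_filter, Fintype.prod_prod_type, ← (ce hp).symm.prod_comp, Fintype.prod_sigma]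
  refine prod_congr rfl fun i _ => ?_
  unfold Kn
  refine prod_congr rfl fun j _ => ?_
  rw [← (ce hp).symm.prod_comp, Fintype.prod_sigma, Finset.prod_eq_single i]
  · refine prod_congr rfl fun j' _ => ?_
    rw [u_symm hp, u_symm hp, p_symm hp, p_symm hp, we_symm_symm, we_symm_symm]
    simp
  · intro i' _ hne
    refine prod_eq_one fun j' _ => ?_
    rw [u_symm hp, u_symm hp]
    have : ¬ ((i : ℕ) = (i' : ℕ)) := fun h => hne (Subtype.ext h.symm)
    simp [this]
  · intro h; exact absurd (mem_univ i) h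

theorem prod_last {u p : Word X} (hp : IsPath u p) (β : (i : S u) → Fin (sz u i) → Fin 2) :
    (∏ x ∈ univ.filter (fun x => p x + 1 = bsize u x),
      (1 - ((((we hp).symm β x : Fin 2) : ℕ) : ℤ))) = ∏ i : S u, Ln (sz u i) (β i) := by
  rw [Finset.prod_filter, ← (ce hp).symm.prod_comp, Fintype.prod_sigma]
  refine prod_congr rfl fun i _ => ?_
  unfold Ln
  refine prod_congr rfl fun j _ => ?_
  unfold bsize
  rw [u_symm hp, p_symm hp, we_symm_symm]

theorem prod_first {u p : Word X} (hp : IsPath u p) (β : (i : S u) → Fin (sz u i) → Fin 2) :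
    (∏ x ∈ univ.filter (fun x => p x = 0),
      (1 - ((((we hp).symm β x : Fin 2) : ℕ) : ℤ))) =
    ∏ i : S u, Fn (sz u i) (fun t => 1 - iv t) (β i) := by
  rw [Finset.prod_filter, ← (ce hp).symm.prod_comp, Fintype.prod_sigma]
  refine prod_congr rfl fun i _ => ?_
  unfold Fn
  refine prod_congr rfl fun j _ => ?_
  rw [p_symm hp, we_symm_symm]

theorem prod_M {u p : Word X} (hp : IsPath u p) (ρ : X → Fin 4)
    (β β' : (i : S u) → Fin (sz u i) → Fin 2) :
    ∏ x, Mq (ρ x) ((we hp).symm β x) ((we hp).symm β' x) =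
      ∏ i : S u, ∏ j, Mq (ρ ((ce hp).symm ⟨i, j⟩)) (β i j) (β' i j) := by
  rw [← (ce hp).symm.prod_comp, Fintype.prod_sigma]
  refine prod_congr rfl fun i _ => prod_congr rfl fun j _ => ?_
  rw [we_symm_symm, we_symm_symm]

theorem Phi_eq_prod {u p : Word X} (hp : IsPath u p) (ρ : X → Fin 4) :
    Phi u p ρ = ∏ i : S u, Zb (sz u i) (fun t => 1 - iv t)
      (fun j => ρ ((ce hp).symm ⟨i, j⟩)) := by
  unfold Phi Zb
  rw [← (we hp).symm.sum_comp]
  have h1 : ∀ β : (i : S u) → Fin (sz u i) → Fin 2,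
      (∑ b' : X → Fin 2, zp u p ((we hp).symm β) b' * ∏ x, Mq (ρ x) ((we hp).symm β x) (b' x)) =
      ∏ i : S u, ∑ b' : Fin (sz u i) → Fin 2, Kn Even (sz u i) (β i) * Ln (sz u i) (β i) *
        (Kn Odd (sz u i) b' * Fn (sz u i) (fun t => 1 - iv t) b') *
        ∏ j, Mq (ρ ((ce hp).symm ⟨i, j⟩)) (β i j) (b' j) := by
    intro β
    rw [← (we hp).symm.sum_comp, Finset.prod_univ_sum, Fintype.piFinset_univ]
    refine sum_congr rfl fun β' _ => ?_
    unfold zp
    rw [prod_pairs hp Even β, prod_pairs hp Odd β', prod_last hp β, prod_first hp β',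
      prod_M hp ρ β β']
    simp only [← Finset.prod_mul_distrib]
  simp only [h1]
  rw [Finset.prod_univ_sum, Fintype.piFinset_univ]

end CliffA

/-- Values of the path element on words of the four matrices. The matrices are `Mq c = g ε_c h` with
`ε = I, diag(1,-1), [[0,1],[1,0]], J = [[0,1],[-1,0]]`, `g = [[1,1],[0,1]]`, `h = [[1,0],[2,1]]`.
PROOF. The sum factorises over the blocks of `u`; in a block of size `n = 2m+1` with letters
`x_0, .., x_{2m}` (`p x_i = i`), summing over `b, b'` gives the `(0,0)` entry of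
`M_0ᵀ J M_1 J M_2ᵀ J M_3 J ... J M_{2m}ᵀ`, `M_i = Mq (ρ x_i)`
(`∑ (b_1 - b_0) M_0(b_0,·) M_1(b_1,·) = (M_0ᵀ J M_1)(·,·)` etc., `b_{2m} = 0`, `b'_0 = 0`).
As `gᵀ J g = J`, `h J hᵀ = J` this is `vᵀ P w`, `v = h e_0 = (1,2)`, `w = gᵀ e_0 = (1,1)`,
`P = ε_0ᵀ J ε_1 J ε_2ᵀ ..` a product of elements of the finite group generated by the `ε_c` (all products
are `± ε_c`), and `vᵀ ε_c w ∈ {3, -1, 3, -1} ≠ 0`. (An induction on the block size / a transfer-matrix
formulation on `Fin n` may be the cleanest: prove it first for `X = Fin (2m+1)`, `u = 0`, `p = id`, by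
induction on `m`, for arbitrary start row vectors; then transport.) -/
theorem Phi_ne_zero {u p : Word X} (hodd : ∀ x, Odd (bsize u x)) (hp : IsPath u p)
    (ρ : X → Fin 4) : Phi u p ρ ≠ 0 := by
  rw [CliffA.Phi_eq_prod hp ρ]
  refine prod_ne_zero_iff.2 fun i _ => ?_
  obtain ⟨x, -, hx⟩ := mem_image.1 i.2
  have hodd' : Odd (CliffA.sz u i) := by
    have := hodd x
    unfold bsize at this
    rwa [hx] at this
  obtain ⟨m, hm⟩ := hodd'
  have hv : (fun t : Fin 2 => 1 - CliffA.iv t) ∈ CliffA.vset := by decide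
  have key : ∀ (n : ℕ) (c : Fin n → Fin 4), n = 2 * m + 1 →
      CliffA.Zb n (fun t => 1 - CliffA.iv t) c ≠ 0 := by
    intro n c hn
    subst hn
    exact CliffA.Zb_ne_zero m _ hv c
  exact key _ _ hm

end Crest.Agent.Saxl
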