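import Crest.Agent.Saxl.PathConj

/-!
CHUNK CLIFF-B (medium/hard).
-/

set_option autoImplicit false

namespace Crest.Agent.Saxl

open Finset Equiv

variable {X : Type} [Fintype X] [DecidableEq X]

/-- averaging over one coordinate -/
theorem sum_update_one (H : (X → Fin 2) → ℤ) (x : X) :
    ∑ b : X → Fin 2, ∑ i : Fin 2, H (Function.update b x i) = 2 * ∑ b : X → Fin 2, H b := by
  have h1 : ∑ q : (X → Fin 2) × Fin 2, H (Function.update q.1 x q.2) =
      ∑ q : (X → Fin 2) × Fin 2, H q.1 := by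
    refine Finset.sum_nbij' (fun q => (Function.update q.1 x q.2, q.1 x))
      (fun q => (Function.update q.1 x q.2, q.1 x)) ?_ ?_ ?_ ?_ ?_
    · intro q _; exact Finset.mem_univ _
    · intro q _; exact Finset.mem_univ _
    · intro q _; simp
    · intro q _; simp
    · intro q _; rfl
  rw [Fintype.sum_prod_type, Fintype.sum_prod_type] at h1
  rw [h1, Finset.mul_sum]
  refine Finset.sum_congr rfl fun b _ => ?_
  simp

theorem sum_update_two (H : (X → Fin 2) → ℤ) (x y : X)
    (h : ∀ b : X → Fin 2, ∑ j : Fin 2, ∑ i : Fin 2,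
      H (Function.update (Function.update b y j) x i) = 0) :
    ∑ b : X → Fin 2, H b = 0 := by
  have h1 := sum_update_one H x
  have h2 := sum_update_one (fun b => ∑ i : Fin 2, H (Function.update b x i)) y
  simp only [h, Finset.sum_const_zero] at h2
  rw [h1] at h2
  omega

/-- the local sign change -/
theorem swap_core {E : Finset (X × X)} {S : Finset X} {x y : X} (hxy : x ≠ y)
    (hE : (x, y) ∈ E) (hE' : ∀ q ∈ E, q ≠ (x, y) → q.1 ≠ x ∧ q.1 ≠ y ∧ q.2 ≠ x ∧ q.2 ≠ y)
    (hS : x ∉ S ∧ y ∉ S) (m m' : X → Fin 2 → ℤ) (hm : ∀ z, z ≠ x → z ≠ y → m z = m' z)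
    (hloc : ∑ j : Fin 2, ∑ i : Fin 2, (((j : ℕ) : ℤ) - ((i : ℕ) : ℤ)) *
      (m x i * m y j + m' x i * m' y j) = 0) :
    ∑ b : X → Fin 2, ((∏ q ∈ E, ((((b q.2 : Fin 2) : ℕ) : ℤ) - (((b q.1 : Fin 2) : ℕ) : ℤ))) *
      ∏ z ∈ S, (1 - (((b z : Fin 2) : ℕ) : ℤ))) * (∏ z, m z (b z) + ∏ z, m' z (b z)) = 0 := by
  refine sum_update_two _ x y fun b => ?_
  set bb : Fin 2 → Fin 2 → X → Fin 2 := fun j i => Function.update (Function.update b y j) x i
    with hbb
  have bx : ∀ j i, bb j i x = i := fun j i => by simp [hbb]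
  have bY : ∀ j i, bb j i y = j := fun j i => by simp [hbb, hxy.symm]
  have bz : ∀ j i z, z ≠ x → z ≠ y → bb j i z = b z := fun j i z h1 h2 => by
    simp [hbb, h1, h2]
  set C := (∏ q ∈ E.erase (x, y), ((((b q.2 : Fin 2) : ℕ) : ℤ) - (((b q.1 : Fin 2) : ℕ) : ℤ))) *
      ∏ z ∈ S, (1 - (((b z : Fin 2) : ℕ) : ℤ)) with hC
  set D := ∏ z ∈ (univ.erase x).erase y, m z (b z) with hD
  have e1 : ∀ j i, (∏ q ∈ E, ((((bb j i q.2 : Fin 2) : ℕ) : ℤ) -
      (((bb j i q.1 : Fin 2) : ℕ) : ℤ))) * ∏ z ∈ S, (1 - (((bb j i z : Fin 2) : ℕ) : ℤ)) =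
      (((j : ℕ) : ℤ) - ((i : ℕ) : ℤ)) * C := by
    intro j i
    rw [← Finset.mul_prod_erase E _ hE, hC]
    simp only [bx, bY]
    rw [mul_assoc]
    congr 1
    congr 1
    · refine Finset.prod_congr rfl fun q hq => ?_
      obtain ⟨h1, h2⟩ := Finset.mem_erase.mp hq
      obtain ⟨h3, h4, h5, h6⟩ := hE' q h2 h1
      rw [bz j i _ h5 h6, bz j i _ h3 h4]
    · refine Finset.prod_congr rfl fun z hz => ?_
      have h1 : z ≠ x := fun h => hS.1 (h ▸ hz)
      have h2 : z ≠ y := fun h => hS.2 (h ▸ hz)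
      rw [bz j i _ h1 h2]
  have hy : y ∈ (univ : Finset X).erase x := by simp [hxy.symm]
  have e2 : ∀ j i, ∏ z, m z (bb j i z) = m x i * m y j * D := by
    intro j i
    rw [← Finset.mul_prod_erase univ _ (Finset.mem_univ x), ← Finset.mul_prod_erase _ _ hy, bx, bY,
      mul_assoc]
    congr 2
    refine Finset.prod_congr rfl fun z hz => ?_
    obtain ⟨h1, h2⟩ := Finset.mem_erase.mp hz
    rw [bz j i _ (Finset.mem_erase.mp h2).1 h1]
  have e3 : ∀ j i, ∏ z, m' z (bb j i z) = m' x i * m' y j * D := by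
    intro j i
    rw [← Finset.mul_prod_erase univ _ (Finset.mem_univ x), ← Finset.mul_prod_erase _ _ hy, bx, bY,
      mul_assoc]
    congr 2
    refine Finset.prod_congr rfl fun z hz => ?_
    obtain ⟨h1, h2⟩ := Finset.mem_erase.mp hz
    rw [bz j i _ (Finset.mem_erase.mp h2).1 h1, hm z (Finset.mem_erase.mp h2).1 h1]
  have e4 : ∀ j i, ((∏ q ∈ E, ((((bb j i q.2 : Fin 2) : ℕ) : ℤ) -
      (((bb j i q.1 : Fin 2) : ℕ) : ℤ))) * ∏ z ∈ S, (1 - (((bb j i z : Fin 2) : ℕ) : ℤ))) *
        (∏ z, m z (bb j i z) + ∏ z, m' z (bb j i z)) =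
      C * D * ((((j : ℕ) : ℤ) - ((i : ℕ) : ℤ)) * (m x i * m y j + m' x i * m' y j)) := by
    intro j i
    rw [e1, e2, e3]
    ring
  calc _ = ∑ j : Fin 2, ∑ i : Fin 2, C * D * ((((j : ℕ) : ℤ) - ((i : ℕ) : ℤ)) *
        (m x i * m y j + m' x i * m' y j)) :=
        Finset.sum_congr rfl fun j _ => Finset.sum_congr rfl fun i _ => e4 j i
    _ = C * D * ∑ j : Fin 2, ∑ i : Fin 2, (((j : ℕ) : ℤ) - ((i : ℕ) : ℤ)) *
        (m x i * m y j + m' x i * m' y j) := by
        rw [Finset.mul_sum]
        exact Finset.sum_congr rfl fun j _ => by rw [Finset.mul_sum]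
    _ = 0 := by rw [hloc, mul_zero]

theorem Mq_left (c d : Fin 4) (h : c ≠ d) (s t : Fin 2) :
    ∑ j : Fin 2, ∑ i : Fin 2, (((j : ℕ) : ℤ) - ((i : ℕ) : ℤ)) *
      (Mq c i s * Mq d j t + Mq d i s * Mq c j t) = 0 := by
  revert c d s t
  decide

theorem Mq_right (c d : Fin 4) (h : c ≠ d) (s t : Fin 2) :
    ∑ j : Fin 2, ∑ i : Fin 2, (((j : ℕ) : ℤ) - ((i : ℕ) : ℤ)) *
      (Mq c s i * Mq d t j + Mq d s i * Mq c t j) = 0 := by
  revert c d s t
  decide

/-- Exchanging two different matrices at neighbouring positions changes the sign, because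
`Mᵀ J N + Nᵀ J M = 0 = M J Nᵀ + N J Mᵀ` for `M ≠ N` among the four matrices. -/
theorem Phi_swap {u p : Word X} (hodd : ∀ x, Odd (bsize u x)) (hp : IsPath u p)
    (ρ : X → Fin 4) (x y : X) (hu : u x = u y) (hxy : p y = p x + 1) (hne : ρ x ≠ ρ y) :
    Phi u p (ρ ∘ (swap x y : Perm X)) = - Phi u p ρ := by
  have hne' : x ≠ y := by rintro rfl; omega
  have hinj : ∀ z z' : X, u z = u z' → p z = p z' → z = z' := fun z z' h1 h2 =>
    hp.1 (Prod.ext h1 h2)
  have hbs : bsize u x = bsize u y := by unfold bsize; rw [hu]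
  have hsx : (ρ ∘ (swap x y : Perm X)) x = ρ y := by simp
  have hsy : (ρ ∘ (swap x y : Perm X)) y = ρ x := by simp
  have hsz : ∀ z, z ≠ x → z ≠ y → (ρ ∘ (swap x y : Perm X)) z = ρ z := fun z h1 h2 => by
    simp [Equiv.swap_apply_of_ne_of_ne h1 h2]
  suffices h : Phi u p ρ + Phi u p (ρ ∘ (swap x y : Perm X)) = 0 by linarith
  unfold Phi
  rw [← Finset.sum_add_distrib]
  simp only [← Finset.sum_add_distrib, ← mul_add]
  rcases Nat.even_or_odd (p x) with hpar | hpar
  · -- sum over `b`
    rw [Finset.sum_comm]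
    refine Finset.sum_eq_zero fun b' _ => ?_
    have hcore := swap_core (E := (univ : Finset (X × X)).filter
      (fun q => u q.1 = u q.2 ∧ p q.2 = p q.1 + 1 ∧ Even (p q.1)))
      (S := univ.filter (fun x => p x + 1 = bsize u x)) hne'
      (by simp [hu, hxy, hpar])
      (by
        intro q hq hq'
        simp only [Finset.mem_filter, Finset.mem_univ, true_and] at hq
        obtain ⟨h1, h2, h3⟩ := hq
        refine ⟨?_, ?_, ?_, ?_⟩
        · intro h
          refine hq' (Prod.ext h (hinj _ _ ?_ ?_))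
          · rw [← h1, h, hu]
          · rw [h2, h, hxy]
        · intro h
          rw [h, hxy] at h3
          exact (Nat.not_even_iff_odd.mpr (Even.add_one hpar)) h3
        · intro h
          rw [h] at h2
          rw [h2] at hpar
          exact (Nat.not_even_iff_odd.mpr (Even.add_one h3)) hpar
        · intro h
          refine hq' (Prod.ext (hinj _ _ ?_ ?_) h)
          · rw [h1, h, hu]
          · rw [h] at h2
            simp only
            omega)
      (by
        simp only [Finset.mem_filter, Finset.mem_univ, true_and]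
        constructor
        · intro h
          have := hp.2 y
          omega
        · intro h
          have h1 := hodd y
          rw [← h, hxy] at h1
          exact (Nat.not_odd_iff_even.mpr (by
            obtain ⟨r, hr⟩ := hpar
            exact ⟨r + 1, by omega⟩)) h1)
      (fun z i => Mq (ρ z) i (b' z))
      (fun z i => Mq ((ρ ∘ (swap x y : Perm X)) z) i (b' z))
      (fun z h1 h2 => by simp only [hsz z h1 h2])
      (by
        simp only [hsx, hsy]
        exact Mq_left _ _ hne _ _)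
    set T := ((∏ q ∈ (univ : Finset (X × X)).filter
      (fun q => u q.1 = u q.2 ∧ p q.2 = p q.1 + 1 ∧ Odd (p q.1)),
      ((((b' q.2 : Fin 2) : ℕ) : ℤ) - (((b' q.1 : Fin 2) : ℕ) : ℤ))) *
    (∏ x ∈ univ.filter (fun x => p x = 0), (1 - (((b' x : Fin 2) : ℕ) : ℤ)))) with hT
    have h0 := congrArg (fun t => T * t) hcore
    simp only [mul_zero, Finset.mul_sum] at h0
    rw [← h0]
    refine Finset.sum_congr rfl fun b _ => ?_
    unfold zp
    rw [← hT]
    ring
  · -- sum over `b'`
    refine Finset.sum_eq_zero fun b _ => ?_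
    have hcore := swap_core (E := (univ : Finset (X × X)).filter
      (fun q => u q.1 = u q.2 ∧ p q.2 = p q.1 + 1 ∧ Odd (p q.1)))
      (S := univ.filter (fun x => p x = 0)) hne'
      (by simp [hu, hxy, hpar])
      (by
        intro q hq hq'
        simp only [Finset.mem_filter, Finset.mem_univ, true_and] at hq
        obtain ⟨h1, h2, h3⟩ := hq
        refine ⟨?_, ?_, ?_, ?_⟩
        · intro h
          refine hq' (Prod.ext h (hinj _ _ ?_ ?_))
          · rw [← h1, h, hu]
          · rw [h2, h, hxy]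
        · intro h
          rw [h, hxy] at h3
          exact (Nat.not_odd_iff_even.mpr (Odd.add_one hpar)) h3
        · intro h
          rw [h] at h2
          rw [h2] at hpar
          exact (Nat.not_odd_iff_even.mpr (Odd.add_one h3)) hpar
        · intro h
          refine hq' (Prod.ext (hinj _ _ ?_ ?_) h)
          · rw [h1, h, hu]
          · rw [h] at h2
            simp only
            omega)
      (by
        simp only [Finset.mem_filter, Finset.mem_univ, true_and]
        constructor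
        · intro h
          rw [h] at hpar
          simp at hpar
        · intro h
          omega)
      (fun z i => Mq (ρ z) (b z) i)
      (fun z i => Mq ((ρ ∘ (swap x y : Perm X)) z) (b z) i)
      (fun z h1 h2 => by simp only [hsz z h1 h2])
      (by
        simp only [hsx, hsy]
        exact Mq_right _ _ hne _ _)
    set T := ((∏ q ∈ (univ : Finset (X × X)).filter
      (fun q => u q.1 = u q.2 ∧ p q.2 = p q.1 + 1 ∧ Even (p q.1)),
      ((((b q.2 : Fin 2) : ℕ) : ℤ) - (((b q.1 : Fin 2) : ℕ) : ℤ))) *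
    (∏ x ∈ univ.filter (fun x => p x + 1 = bsize u x), (1 - (((b x : Fin 2) : ℕ) : ℤ)))) with hT
    have h0 := congrArg (fun t => T * t) hcore
    simp only [mul_zero, Finset.mul_sum] at h0
    rw [← h0]
    refine Finset.sum_congr rfl fun b' _ => ?_
    unfold zp
    rw [← hT]
    ring

end Crest.Agent.Saxl
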