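import Crest.Agent.Saxl.Parity

/-!
CHUNK CODD (medium).  Uses Pt.lean and Parity.lean as black boxes.
-/

set_option autoImplicit false

namespace Crest.Agent.Saxl

open Finset Equiv

variable {X : Type} [Fintype X] [DecidableEq X]

omit [DecidableEq X] in
private theorem isType_comp {k : ℕ} {A : Word X} (g : Perm X) :
    IsType k (A ∘ g) ↔ IsType k A := by
  unfold IsType
  refine forall_congr' fun j => ?_
  have : (univ.filter (fun x => (A ∘ g) x = j)).card = (univ.filter (fun x => A x = j)).card := by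
    refine card_bij (fun x _ => g x) ?_ ?_ ?_
    · intro x hx
      simpa using hx
    · intro x _ y _ hxy
      exact g.injective hxy
    · intro b hb
      exact ⟨g⁻¹ b, by simpa using hb, by simp⟩
  rw [this]

private theorem Perp.mem_Wd_left {k : ℕ} {A B : Word X} (h : Perp k A B) : A ∈ Wd k X :=
  mem_Wd.2 fun x => (Nat.le_add_right _ _).trans_lt (h.2 x)

private theorem Perp.mem_Wd_right {k : ℕ} {A B : Word X} (h : Perp k A B) : B ∈ Wd k X :=
  h.symm.mem_Wd_left

private theorem pair_act {k : ℕ} (g : Perm X) (f h : Word X → ℤ) :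
    pair k (act g f) (act g h) = pair k f h := by
  unfold pair
  refine sum_bij (fun Y _ => Y ∘ g) ?_ ?_ ?_ ?_
  · intro Y hY
    rw [mem_Wd] at hY ⊢
    exact fun x => hY (g x)
  · intro Y _ Y' _ hYY
    funext x
    have := congrFun hYY (g⁻¹ x)
    simpa using this
  · intro Y hY
    refine ⟨Y ∘ (g⁻¹ : Perm X), ?_, ?_⟩
    · rw [mem_Wd] at hY ⊢
      exact fun x => hY (g⁻¹ x)
    · funext x
      simp
  · intro Y _
    rfl

private theorem cast_pt {k : ℕ} (hX : Fintype.card X = k * (k + 1) / 2) {A B : Word X}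
    (h : Perp k A B) (Y : Word X) :
    ((pt A B Y : ℤ) : ZMod 2) = if Perp k A Y then 1 else 0 := by
  split_ifs with hY
  · rcases pt_perp hX h hY with h1 | h1
    · rw [h1]; simp
    · rw [h1]; decide
  · rw [pt_not_perp h hY]; simp

private theorem count_mod {k : ℕ} (hX : Fintype.card X = k * (k + 1) / 2) {A Y : Word X}
    (hA : IsType k A) (hY : IsType k Y) :
    ∑ T ∈ Wd k X, (if Perp k A T then (1 : ZMod 2) else 0) * (if Perp k Y T then 1 else 0) =
      if Perp k A Y then 1 else 0 := by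
  have h1 : ∑ T ∈ Wd k X, (if Perp k A T then (1 : ZMod 2) else 0) *
      (if Perp k Y T then 1 else 0) =
      ((((Wd k X).filter (fun T => Perp k A T ∧ Perp k Y T)).card : ℕ) : ZMod 2) := by
    rw [card_filter]
    push_cast
    refine sum_congr rfl fun T _ => ?_
    by_cases h1 : Perp k A T <;> by_cases h2 : Perp k Y T <;> simp [h1, h2]
  rw [h1]
  have h2 := odd_common_iff hX hA hY
  by_cases h3 : Perp k A Y
  · rw [if_pos h3]
    exact (ZMod.natCast_eq_one_iff_odd).2 (h2.2 h3)
  · rw [if_neg h3]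
    have h4 : ¬ Odd ((Wd k X).filter (fun T => Perp k A T ∧ Perp k Y T)).card :=
      fun h => h3 (h2.1 h)
    rw [Nat.not_odd_iff_even] at h4
    exact (ZMod.natCast_eq_zero_iff_even).2 h4

/-- `∑_g <g e_B, e_A> g e_A = c e_A` with `c` odd.

PROOF. Let `T = ∑_g <g e_B, e_A> g e_A` (`e_A = pt A B`, `e_B = pt B A`). For `s ∈ Rs A`:
`s T = ∑_g <g e_B, e_A> (s g) e_A = ∑_g <s⁻¹ g e_B, e_A> g e_A = ∑_g <g e_B, s e_A> g e_A = sgn(s) T`
(`pair` is invariant: `Wd k X` is stable under `Y ↦ Y ∘ g`). `T` is supported on words of type `k`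
(each `g e_A` is). If `T Y ≠ 0` then `(A, Y)` is injective (otherwise a transposition `s = swap x y`
with `A x = A y`, `Y x = Y y` gives `T Y = T (Y ∘ s) = - T Y`), so `Perp k A Y`
(`perp_of_injective`) and `Y = B ∘ σ⁻¹` with `σ ∈ Rs A` (`perp_conj`), hence
`T Y = sgn(σ) T B = T B * pt A B Y`. So `c = T B`.
PARITY of `T B = ∑_g <g e_B, e_A> (g e_A)(B)`: mod 2, `(g e_A)(B) ≡ [A ∘ g⁻¹ ⊥ B]` and
`<g e_B, e_A> ≡ #{Y ∈ Wd : Y ⊥ B ∘ g⁻¹, Y ⊥ A} ≡ [B ∘ g⁻¹ ⊥ A]` (`odd_common_iff`).
By `perp_conj`, `g ↦ (A'', B'') = (A ∘ g⁻¹, B ∘ g⁻¹)` is a bijection from `Perm X` onto the set of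
perpendicular pairs. So `T B ≡ #{(A'',B'') : A''⊥B'', B''⊥A, A''⊥B}
= ∑_{B''⊥A} #{A'' : A''⊥B'', A''⊥B} ≡ ∑_{B''⊥A} [B''⊥B] = #{B'' : B''⊥A, B''⊥B} ≡ [A⊥B] = 1`. -/
theorem exists_odd_coeff {k : ℕ} (hX : Fintype.card X = k * (k + 1) / 2) {A B : Word X}
    (h : Perp k A B) :
    ∃ c : ℤ, Odd c ∧ ∀ Y : Word X,
      ∑ g : Perm X, pair k (act g (pt B A)) (pt A B) * act g (pt A B) Y = c * pt A B Y := by
  classical
  set T : Word X → ℤ := fun Y =>
    ∑ g : Perm X, pair k (act g (pt B A)) (pt A B) * act g (pt A B) Y with hT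
  have hAt : IsType k A := h.isType hX
  have hBt : IsType k B := h.symm.isType hX
  -- `T` alternates
  have halt : ∀ s ∈ Rs A, ∀ Y, T (Y ∘ s) = ((Perm.sign s : ℤˣ) : ℤ) * T Y := by
    intro s hs Y
    have h1 : ∀ F : Word X → ℤ, pair k (act (s⁻¹ : Perm X) F) (pt A B) =
        ((Perm.sign s : ℤˣ) : ℤ) * pair k F (pt A B) := by
      intro F
      rw [← pair_act s]
      have h2 : act s (act (s⁻¹ : Perm X) F) = F := by
        rw [← act_mul, mul_inv_cancel, act_one]
      rw [h2]
      unfold pair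
      rw [mul_sum]
      refine sum_congr rfl fun Z _ => ?_
      rw [pt_alt A B s hs Z]
      ring
    have h3 : T (Y ∘ s) = ∑ g : Perm X, pair k (act g (pt B A)) (pt A B) *
        act (s * g) (pt A B) Y := rfl
    rw [h3, ← Equiv.sum_comp (Equiv.mulLeft (s⁻¹ : Perm X))]
    simp only [Equiv.coe_mulLeft, mul_inv_cancel_left, act_mul, h1]
    rw [hT]
    simp only [mul_sum, mul_assoc]
  -- values of `T`
  have hval : ∀ Y, Perp k A Y → T Y = T B * pt A B Y := by
    intro Y hY
    obtain ⟨g, ⟨hg1, hg2⟩, -⟩ := perp_conj hX h hY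
    have hg : g ∈ Rs A := by
      simp only [Rs, mem_filter, mem_univ, true_and]
      exact hg1.symm
    have h1 := halt g hg B
    have h2 := pt_alt A B g hg B
    have h3 : act g (pt A B) B = pt A B Y := by rw [hg2]; rfl
    rw [h3, pt_self h, mul_one] at h2
    rw [← hg2] at h1
    rw [h1, h2, mul_comm]
  have hsupp : ∀ Y, T Y ≠ 0 → Perp k A Y := by
    intro Y hY
    have hYt : IsType k Y := by
      by_contra hcon
      apply hY
      refine sum_eq_zero fun g _ => ?_
      have : act g (pt A B) Y = 0 := by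
        refine pt_not_perp h fun h1 => hcon ?_
        exact (isType_comp g).1 (h1.symm.isType hX)
      rw [this, mul_zero]
    refine perp_of_injective hX hAt hYt fun x y hxy => ?_
    by_contra hne
    simp only [Prod.mk.injEq] at hxy
    have hswap : ∀ Z : Word X, Z x = Z y → Z ∘ (Equiv.swap x y) = Z := by
      intro Z hZ
      funext z
      simp only [Function.comp_apply, Equiv.swap_apply_def]
      split_ifs with h1 h2
      · rw [h1, hZ]
      · rw [h2, hZ]
      · rfl
    have hs : Equiv.swap x y ∈ Rs A := by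
      simp only [Rs, mem_filter, mem_univ, true_and]
      exact hswap A hxy.1
    have h1 := halt _ hs Y
    rw [hswap Y hxy.2, Perm.sign_swap hne] at h1
    simp only [Units.val_neg, Units.val_one] at h1
    apply hY
    linarith
  refine ⟨T B, ?_, fun Y => ?_⟩
  · -- parity
    rw [← ZMod.intCast_eq_one_iff_odd]
    have hg : ∀ g : Perm X, (((pair k (act g (pt B A)) (pt A B) * act g (pt A B) B : ℤ)) : ZMod 2) =
        (if Perp k A (B ∘ (g⁻¹ : Perm X)) then 1 else 0) *
          (if Perp k (A ∘ (g⁻¹ : Perm X)) B then 1 else 0) := by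
      intro g
      have e1 : ((act g (pt A B) B : ℤ) : ZMod 2) =
          (if Perp k (A ∘ (g⁻¹ : Perm X)) B then 1 else 0) := by
        rw [act_pt, cast_pt hX (h.comp g⁻¹)]
      have e2 : ((pair k (act g (pt B A)) (pt A B) : ℤ) : ZMod 2) =
          (if Perp k A (B ∘ (g⁻¹ : Perm X)) then 1 else 0) := by
        rw [← count_mod hX hAt ((isType_comp (g⁻¹ : Perm X)).2 hBt)]
        unfold pair
        push_cast
        refine sum_congr rfl fun Y _ => ?_
        rw [act_pt, cast_pt hX (h.symm.comp g⁻¹), cast_pt hX h, mul_comm]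
      rw [Int.cast_mul, e1, e2]
    have h1 : ((T B : ℤ) : ZMod 2) = ∑ g : Perm X,
        (if Perp k A (B ∘ (g⁻¹ : Perm X)) then (1 : ZMod 2) else 0) *
          (if Perp k (A ∘ (g⁻¹ : Perm X)) B then 1 else 0) := by
      rw [hT]
      push_cast
      refine sum_congr rfl fun g _ => ?_
      rw [← hg g]
      push_cast
      rfl
    have h2 : ∑ g : Perm X,
        (if Perp k A (B ∘ (g⁻¹ : Perm X)) then (1 : ZMod 2) else 0) *
          (if Perp k (A ∘ (g⁻¹ : Perm X)) B then 1 else 0) =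
        ∑ q ∈ (Wd k X ×ˢ Wd k X).filter (fun q => Perp k q.2 q.1),
          (if Perp k A q.1 then (1 : ZMod 2) else 0) * (if Perp k q.2 B then 1 else 0) := by
      refine sum_bij (fun g _ => (B ∘ (g⁻¹ : Perm X), A ∘ (g⁻¹ : Perm X))) ?_ ?_ ?_ ?_
      · intro g _
        have hp := h.comp g⁻¹
        rw [mem_filter, mem_product]
        exact ⟨⟨hp.mem_Wd_right, hp.mem_Wd_left⟩, hp⟩
      · intro g _ g' _ hgg
        simp only [Prod.mk.injEq] at hgg
        obtain ⟨u, -, hu⟩ := perp_conj hX h (h.comp g⁻¹)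
        have e1 := hu g⁻¹ ⟨rfl, rfl⟩
        have e2 := hu g'⁻¹ ⟨hgg.2, hgg.1⟩
        exact inv_injective (e1.trans e2.symm)
      · rintro ⟨B', A'⟩ hq
        rw [mem_filter] at hq
        obtain ⟨g, ⟨hg1, hg2⟩, -⟩ := perp_conj hX h hq.2
        refine ⟨g⁻¹, mem_univ _, ?_⟩
        simp only [inv_inv, Prod.mk.injEq]
        exact ⟨hg2.symm, hg1.symm⟩
      · intro g _
        rfl
    rw [h1, h2, sum_filter, sum_product]
    have h3 : ∀ B' ∈ Wd k X, ∑ A' ∈ Wd k X, (if Perp k A' B' then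
        (if Perp k A B' then (1 : ZMod 2) else 0) * (if Perp k A' B then 1 else 0) else 0) =
        (if Perp k A B' then (1 : ZMod 2) else 0) * (if Perp k B B' then 1 else 0) := by
      intro B' _
      by_cases hAB : Perp k A B'
      · simp only [if_pos hAB, one_mul]
        have h4 := count_mod hX hBt (hAB.symm.isType hX)
        rw [← h4]
        refine sum_congr rfl fun A' _ => ?_
        have e1 : Perp k A' B' ↔ Perp k B' A' := ⟨fun h => h.symm, fun h => h.symm⟩
        have e2 : Perp k A' B ↔ Perp k B A' := ⟨fun h => h.symm, fun h => h.symm⟩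
        by_cases h5 : Perp k B' A' <;> by_cases h6 : Perp k B A' <;> simp [e1, e2, h5, h6]
      · simp [hAB]
    rw [sum_congr rfl h3, count_mod hX hAt hBt, if_pos h]
  · by_cases hY : Perp k A Y
    · exact hval Y hY
    · rw [pt_not_perp h hY, mul_zero]
      by_contra hne
      exact hY (hsupp Y hne)

end Crest.Agent.Saxl
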