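import Crest.Agent.Saxl.Defs

/-!
CHUNK DICHO (medium, pure combinatorics of Young diagrams).
-/

set_option autoImplicit false

namespace Crest.Agent.Saxl

open Finset Equiv

variable {X : Type} [Fintype X] [DecidableEq X]

theorem dicho_arith1 (k : ℕ) : 16 * k ≤ 2 * (k * (k + 1)) + 24 := by
  by_cases h : k ≤ 3
  · interval_cases k <;> norm_num
  · obtain ⟨c, rfl⟩ : ∃ c, k = c + 4 := ⟨k - 4, by omega⟩
    nlinarith [Nat.zero_le (c * c)]

theorem dicho_arith2 (k : ℕ) : 2 * (2 * k) ≤ k * (k + 1) + 2 := by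
  by_cases h : k ≤ 3
  · interval_cases k <;> norm_num
  · obtain ⟨c, rfl⟩ : ∃ c, k = c + 4 := ⟨k - 4, by omega⟩
    nlinarith [Nat.zero_le (c * c)]

theorem dicho_arith3 (c a b N R C : ℕ) (ha : 2 * a ≤ c) (hb : 2 * b ≤ c)
    (h : N + 16 ≤ R + C + a * b) (hR : R < 2 * (c + 9) - 1) (hC : C < 2 * (c + 9) - 1)
    (hN : 2 * N = (c + 9) * (c + 9 + 1)) : False := by
  have hab : 4 * (a * b) ≤ c * c := by
    have := Nat.mul_le_mul ha hb
    nlinarith
  have hR' : R + 2 ≤ 2 * c + 18 := by omega
  have hC' : C + 2 ≤ 2 * c + 18 := by omega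
  have hN' : 2 * N = c * c + 19 * c + 90 := by rw [hN]; ring
  generalize a * b = ab at *
  generalize c * c = cc at *
  omega

theorem dicho_ie (ρ κ : Word X) :
    Fintype.card X + (univ.filter (fun x : X => ρ x < 4 ∧ κ x < 4)).card =
      (univ.filter (fun x : X => ρ x < 4)).card + (univ.filter (fun x : X => κ x < 4)).card +
        (univ.filter (fun x : X => ¬ ρ x < 4 ∧ ¬ κ x < 4)).card := by
  have h1 : Fintype.card X = ∑ _x : X, 1 := by simp
  rw [h1]
  simp only [card_filter]
  rw [← sum_add_distrib, ← sum_add_distrib, ← sum_add_distrib]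
  refine sum_congr rfl (fun x _ => ?_)
  by_cases ha : ρ x < 4 <;> by_cases hb : κ x < 4 <;> simp [ha, hb]

/-- PROOF. Let `λ` be the Young diagram (rows `ρ = i` of size `λ_i`, decreasing; `IsTab`). Suppose
both `R = #{ρ < 4} ≤ 2k-2` and `C = #{κ < 4} ≤ 2k-2`.
* If no letter has `ρ ≥ 4`, `card X = R ≤ 2k-2 < k(k+1)/2` (as `(k²-3k+4)/2 > 0`). Same for `κ`.
* So there are letters with `ρ = 4, κ = 0` and `ρ = 0, κ = 4`. If no letter has `ρ ≥ 4` and `κ ≥ 4`:
  `card X = R + C - #{ρ<4, κ<4} ≤ 4k-4-7` (the cells `(0,0..3)`, `(1..3,0)` are present), and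
  `4k-11 < k(k+1)/2`.
* Otherwise cell `(4,4)` is present, all 16 cells `ρ,κ<4` are present and the cells with `ρ ≥ 4, κ ≥ 4`
  form a diagram inside an `a × b` box with `4 (a+4) ≤ C`, `4 (b+4) ≤ R` (columns `0..3` have at least
  `a+4` letters, rows `0..3` at least `b+4`). So
  `card X ≤ R + C - 16 + a b ≤ 4k-4-16 + ((k-9)/2)^2 `, i.e.
  `4 card X ≤ 16k - 80 + (k-9)² = (k-1)²  < 2k(k+1)`. (note `4a ≤ 2k-18`, `4b ≤ 2k-18`) -/
theorem dichotomy {k : ℕ} (hk : 1 ≤ k) (hX : Fintype.card X = k * (k + 1) / 2)
    {ρ κ : Word X} (h : IsTab (fun _ => 0) ρ κ) :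
    2 * k - 1 ≤ (univ.filter (fun x => ρ x < 4)).card ∨
      2 * k - 1 ≤ (univ.filter (fun x => κ x < 4)).card := by
  classical
  by_contra hcon
  push Not at hcon
  obtain ⟨hR, hC⟩ := hcon
  have hinj : ∀ x y, ρ x = ρ y → κ x = κ y → x = y := fun x y h1 h2 => h.inj (by simp [h1, h2])
  have hlow : ∀ x i j, i ≤ ρ x → j ≤ κ x → ∃ y, ρ y = i ∧ κ y = j := by
    intro x i j hi hj
    obtain ⟨y, -, h1, h2⟩ := h.lower x i j hi hj
    exact ⟨y, h1, h2⟩
  have hN : 2 * Fintype.card X = k * (k + 1) := by
    rw [hX]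
    exact Nat.two_mul_div_two_of_even (Nat.even_mul_succ_self k)
  have hIE := dicho_ie ρ κ
  set N := Fintype.card X with hNdef
  set R := (univ.filter (fun x : X => ρ x < 4)).card with hRdef
  set C := (univ.filter (fun x : X => κ x < 4)).card with hCdef
  set S := (univ.filter (fun x : X => ρ x < 4 ∧ κ x < 4)).card with hSdef
  set E := (univ.filter (fun x : X => ¬ ρ x < 4 ∧ ¬ κ x < 4)).card with hEdef
  have hNlt : 2 * k - 1 ≤ N := by
    have h2 := dicho_arith2 k
    omega
  -- there is a letter with `ρ ≥ 1`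
  have hrow : ∃ x, 1 ≤ ρ x := by
    by_contra hno
    push Not at hno
    have : R = N := by
      rw [hRdef, hNdef, ← Finset.card_univ]
      congr 1
      refine Finset.filter_true_of_mem (fun x _ => ?_)
      have := hno x
      omega
    omega
  have hcol : ∃ x, 1 ≤ κ x := by
    by_contra hno
    push Not at hno
    have : C = N := by
      rw [hCdef, hNdef, ← Finset.card_univ]
      congr 1
      refine Finset.filter_true_of_mem (fun x _ => ?_)
      have := hno x
      omega
    omega
  obtain ⟨x1, hx1⟩ := hrow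
  obtain ⟨x2, hx2⟩ := hcol
  obtain ⟨y0, hy0, hy0'⟩ := hlow x1 0 0 (Nat.zero_le _) (Nat.zero_le _)
  obtain ⟨y1, hy1, hy1'⟩ := hlow x1 1 0 hx1 (Nat.zero_le _)
  obtain ⟨y2, hy2, hy2'⟩ := hlow x2 0 1 (Nat.zero_le _) hx2
  have hS3 : 3 ≤ S := by
    have hsub : ({y0, y1, y2} : Finset X) ⊆ univ.filter (fun x : X => ρ x < 4 ∧ κ x < 4) := by
      intro z hz
      simp only [Finset.mem_insert, Finset.mem_singleton] at hz
      rw [Finset.mem_filter]
      refine ⟨Finset.mem_univ _, ?_⟩
      rcases hz with rfl | rfl | rfl <;> omega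
    have h01 : y0 ≠ y1 := by
      rintro rfl
      omega
    have h02 : y0 ≠ y2 := by
      rintro rfl
      omega
    have h12 : y1 ≠ y2 := by
      rintro rfl
      omega
    have hcard : ({y0, y1, y2} : Finset X).card = 3 := by
      rw [Finset.card_insert_of_notMem (by simp [h01, h02]),
        Finset.card_insert_of_notMem (by simp [h12]), Finset.card_singleton]
    rw [← hcard]
    exact Finset.card_le_card hsub
  by_cases hE : E = 0
  · have h2 := dicho_arith1 k
    omega
  · obtain ⟨z, hz⟩ := Finset.card_pos.mp (Nat.pos_of_ne_zero hE)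
    rw [Finset.mem_filter] at hz
    have hzρ : 4 ≤ ρ z := by omega
    have hzκ : 4 ≤ κ z := by omega
    set A : Finset ℕ := (univ.filter (fun x : X => 4 ≤ ρ x ∧ κ x = 4)).image ρ with hA
    set B : Finset ℕ := (univ.filter (fun x : X => ρ x = 4 ∧ 4 ≤ κ x)).image κ with hB
    have hA4 : ∀ i ∈ A, 4 ≤ i := by
      intro i hi
      rw [hA, Finset.mem_image] at hi
      obtain ⟨x, hx, rfl⟩ := hi
      rw [Finset.mem_filter] at hx
      exact hx.2.1
    have hB4 : ∀ i ∈ B, 4 ≤ i := by
      intro i hi
      rw [hB, Finset.mem_image] at hi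
      obtain ⟨x, hx, rfl⟩ := hi
      rw [Finset.mem_filter] at hx
      exact hx.2.2
    have hEab : E ≤ A.card * B.card := by
      rw [← Finset.card_product, hEdef]
      refine Finset.card_le_card_of_injOn (fun x => (ρ x, κ x)) ?_ ?_
      · intro x hx
        have hx' := (Finset.mem_filter.mp hx).2
        rw [Finset.mem_coe, Finset.mem_product, hA, hB, Finset.mem_image, Finset.mem_image]
        refine ⟨?_, ?_⟩
        · obtain ⟨y, hy, hy'⟩ := hlow x (ρ x) 4 le_rfl (by omega)
          exact ⟨y, by rw [Finset.mem_filter]; exact ⟨Finset.mem_univ _, by omega, hy'⟩, hy⟩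
        · obtain ⟨y, hy, hy'⟩ := hlow x 4 (κ x) (by omega) le_rfl
          exact ⟨y, by rw [Finset.mem_filter]; exact ⟨Finset.mem_univ _, hy, by omega⟩, hy'⟩
      · intro x _ y _ hxy
        simp only [Prod.mk.injEq] at hxy
        exact hinj x y hxy.1 hxy.2
    have hdA : Disjoint A (Finset.range 4) := by
      rw [Finset.disjoint_left]
      intro i hi hi'
      have := hA4 i hi
      rw [Finset.mem_range] at hi'
      omega
    have hdB : Disjoint B (Finset.range 4) := by
      rw [Finset.disjoint_left]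
      intro i hi hi'
      have := hB4 i hi
      rw [Finset.mem_range] at hi'
      omega
    have hCA : (A.card + 4) * 4 ≤ C := by
      have hsub : (A ∪ Finset.range 4) ×ˢ Finset.range 4 ⊆
          (univ.filter (fun x : X => κ x < 4)).image (fun x => (ρ x, κ x)) := by
        rintro ⟨i, j⟩ hij
        rw [Finset.mem_product, Finset.mem_union, Finset.mem_range, Finset.mem_range] at hij
        obtain ⟨hi, hj⟩ := hij
        simp only at hi hj
        obtain ⟨y, hy, hy'⟩ : ∃ y, ρ y = i ∧ κ y = j := by
          rcases hi with hi | hi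
          · rw [hA, Finset.mem_image] at hi
            obtain ⟨x, hx, rfl⟩ := hi
            rw [Finset.mem_filter] at hx
            exact hlow x _ j le_rfl (by omega)
          · exact hlow z i j (by omega) (by omega)
        rw [Finset.mem_image]
        exact ⟨y, by rw [Finset.mem_filter]; exact ⟨Finset.mem_univ _, by omega⟩, by rw [hy, hy']⟩
      have h1 := (Finset.card_le_card hsub).trans Finset.card_image_le
      rwa [Finset.card_product, Finset.card_union_of_disjoint hdA, Finset.card_range] at h1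
    have hRB : 4 * (B.card + 4) ≤ R := by
      have hsub : Finset.range 4 ×ˢ (B ∪ Finset.range 4) ⊆
          (univ.filter (fun x : X => ρ x < 4)).image (fun x => (ρ x, κ x)) := by
        rintro ⟨i, j⟩ hij
        rw [Finset.mem_product, Finset.mem_union, Finset.mem_range, Finset.mem_range] at hij
        obtain ⟨hi, hj⟩ := hij
        simp only at hi hj
        obtain ⟨y, hy, hy'⟩ : ∃ y, ρ y = i ∧ κ y = j := by
          rcases hj with hj | hj
          · rw [hB, Finset.mem_image] at hj
            obtain ⟨x, hx, rfl⟩ := hj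
            rw [Finset.mem_filter] at hx
            exact hlow x i _ (by omega) le_rfl
          · exact hlow z i j (by omega) (by omega)
        rw [Finset.mem_image]
        exact ⟨y, by rw [Finset.mem_filter]; exact ⟨Finset.mem_univ _, by omega⟩, by rw [hy, hy']⟩
      have h1 := (Finset.card_le_card hsub).trans Finset.card_image_le
      rwa [Finset.card_product, Finset.card_union_of_disjoint hdB, Finset.card_range] at h1
    have hS16 : 16 ≤ S := by
      have hsub : Finset.range 4 ×ˢ Finset.range 4 ⊆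
          (univ.filter (fun x : X => ρ x < 4 ∧ κ x < 4)).image (fun x => (ρ x, κ x)) := by
        rintro ⟨i, j⟩ hij
        rw [Finset.mem_product, Finset.mem_range, Finset.mem_range] at hij
        obtain ⟨hi, hj⟩ := hij
        simp only at hi hj
        obtain ⟨y, hy, hy'⟩ : ∃ y, ρ y = i ∧ κ y = j := hlow z i j (by omega) (by omega)
        rw [Finset.mem_image]
        exact ⟨y, by rw [Finset.mem_filter]; exact ⟨Finset.mem_univ _, by omega, by omega⟩,
          by rw [hy, hy']⟩
      have h1 := (Finset.card_le_card hsub).trans Finset.card_image_le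
      rwa [Finset.card_product, Finset.card_range] at h1
    generalize A.card = a at *
    generalize B.card = b at *
    have ha : 2 * a + 9 ≤ k := by omega
    have hb : 2 * b + 9 ≤ k := by omega
    obtain ⟨c, rfl⟩ : ∃ c, k = c + 9 := ⟨k - 9, by omega⟩
    exact dicho_arith3 c a b N R C (by omega) (by omega) (by omega) hR hC hN

end Crest.Agent.Saxl
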