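import Crest.Agent.Saxl.DkA

/-!
CHUNK DK-B (hard: the induction over strips; only `strip_step` of DkA is used).
-/

set_option autoImplicit false

namespace Crest.Agent.Saxl

open Finset Equiv

section glue

set_option linter.unusedSectionVars false

variable {X : Type} [Fintype X] [DecidableEq X]

/-- gluing of words along the outer strip -/
private def gl (u : Word X) (a : Word {x // u x = 0}) (b : Word {x // ¬ u x = 0}) : Word X :=
  fun x => if h : u x = 0 then a ⟨x, h⟩ else b ⟨x, h⟩

private theorem gl_of_eq {u : Word X} (a : Word {x // u x = 0}) (b : Word {x // ¬ u x = 0})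
    {x : X} (h : u x = 0) : gl u a b x = a ⟨x, h⟩ := by
  simp [gl, h]

private theorem gl_of_ne {u : Word X} (a : Word {x // u x = 0}) (b : Word {x // ¬ u x = 0})
    {x : X} (h : ¬ u x = 0) : gl u a b x = b ⟨x, h⟩ := by
  simp [gl, h]

private theorem gl_inj {u : Word X} {a a' : Word {x // u x = 0}} {b b' : Word {x // ¬ u x = 0}} :
    gl u a b = gl u a' b' ↔ a = a' ∧ b = b' := by
  constructor
  · intro h
    constructor
    · funext x
      have := congrFun h x.1
      rwa [gl_of_eq a b x.2, gl_of_eq a' b' x.2] at this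
    · funext x
      have := congrFun h x.1
      rwa [gl_of_ne a b x.2, gl_of_ne a' b' x.2] at this
  · rintro ⟨rfl, rfl⟩
    rfl

/-- the strips of the remaining part -/
private def um (u : Word X) : Word {x // ¬ u x = 0} := fun x => u x.1 - 1

private theorem gl_comp (u : Word X) (a : Word {x // u x = 0}) (b : Word {x // ¬ u x = 0})
    (g : Perm {x // u x = 0}) (h : Perm {x // ¬ u x = 0}) :
    gl u a b ∘ (Perm.subtypeCongr g h : Perm X) = gl u (a ∘ g) (b ∘ h) := by
  funext x
  by_cases hx : u x = 0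
  · rw [Function.comp_apply, Perm.subtypeCongr.left_apply g h hx,
      gl_of_eq a b (g ⟨x, hx⟩).2, gl_of_eq (a ∘ g) (b ∘ h) hx]
    rfl
  · rw [Function.comp_apply, Perm.subtypeCongr.right_apply g h hx,
      gl_of_ne a b (h ⟨x, hx⟩).2, gl_of_ne (a ∘ g) (b ∘ h) hx]
    rfl

private theorem sc_mem (u : Word X) (g : Perm {x // u x = 0}) (h : Perm {x // ¬ u x = 0})
    (hh : h ∈ Hs (um u)) : (Perm.subtypeCongr g h : Perm X) ∈ Hs u := by
  rw [mem_Hs] at hh ⊢
  funext x
  by_cases hx : u x = 0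
  · rw [Function.comp_apply, Perm.subtypeCongr.left_apply g h hx, (g ⟨x, hx⟩).2, hx]
  · rw [Function.comp_apply, Perm.subtypeCongr.right_apply g h hx]
    have h1 := congrFun hh ⟨x, hx⟩
    have h2 := (h ⟨x, hx⟩).2
    simp only [Function.comp_apply, um] at h1
    omega

/-- the group isomorphism `Perm S × Hs u' ≃ Hs u`, as a homomorphism -/
private def glHom (u : Word X) : Perm {x // u x = 0} × Hs (um u) →* Hs u where
  toFun p := ⟨Perm.subtypeCongr p.1 (p.2 : Perm _), sc_mem u p.1 _ p.2.2⟩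
  map_one' := by
    apply Subtype.ext
    exact (Perm.subtypeCongrHom (fun x => u x = 0)).map_one
  map_mul' p q := by
    apply Subtype.ext
    exact (Perm.subtypeCongrHom (fun x => u x = 0)).map_mul
      (p.1, (p.2 : Perm _)) (q.1, (q.2 : Perm _))

private theorem glHom_coe (u : Word X) (p : Perm {x // u x = 0} × Hs (um u)) :
    ((glHom u p : Hs u) : Perm X) = Perm.subtypeCongr p.1 (p.2 : Perm _) := rfl

private theorem glHom_bij (u : Word X) : Function.Bijective (glHom u) := by
  constructor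
  · rintro ⟨a, b⟩ ⟨a', b'⟩ h
    have h1 : (Perm.subtypeCongr a (b : Perm _) : Perm X) = Perm.subtypeCongr a' (b' : Perm _) :=
      congrArg Subtype.val h
    have h2 : (a, (b : Perm {x // ¬ u x = 0})) = (a', (b' : Perm {x // ¬ u x = 0})) :=
      Perm.subtypeCongrHom_injective (fun x => u x = 0) h1
    rw [Prod.mk.injEq] at h2 ⊢
    exact ⟨h2.1, Subtype.ext h2.2⟩
  · rintro ⟨g, hg⟩
    have hg' : ∀ x, u (g x) = u x := fun x => congrFun hg x
    have h0 : ∀ x, u (g x) = 0 ↔ u x = 0 := fun x => by rw [hg']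
    have h1 : ∀ x, ¬ u (g x) = 0 ↔ ¬ u x = 0 := fun x => by rw [hg']
    have hm : g.subtypePerm h1 ∈ Hs (um u) := by
      rw [mem_Hs]
      funext x
      change u (g x) - 1 = u x - 1
      rw [hg']
    refine ⟨(g.subtypePerm h0, ⟨g.subtypePerm h1, hm⟩), ?_⟩
    apply Subtype.ext
    rw [glHom_coe]
    change (g.subtypePerm h0).subtypeCongr (g.subtypePerm h1) = g
    ext x
    by_cases hx : u x = 0
    · rw [Perm.subtypeCongr.left_apply (p := fun x => u x = 0) (a := x) _ _ hx]
      rfl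
    · rw [Perm.subtypeCongr.right_apply (p := fun x => u x = 0) (a := x) _ _ hx]
      rfl

private noncomputable def glEquiv (u : Word X) : Perm {x // u x = 0} × Hs (um u) ≃* Hs u :=
  MulEquiv.ofBijective (glHom u) (glHom_bij u)

private theorem sum_gl {M : Type*} [AddCommMonoid M] (u : Word X) (a : Word {x // u x = 0})
    (b : Word {x // ¬ u x = 0}) (F : Hs u → M) :
    ∑ r ∈ (univ : Finset (Hs u)).filter (fun r : Hs u => gl u a b ∘ (r : Perm X) = gl u a b), F r =
      ∑ g ∈ Rs a, ∑ h ∈ (univ : Finset (Hs (um u))).filter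
        (fun h : Hs (um u) => b ∘ (h : Perm _) = b), F (glHom u (g, h)) := by
  rw [← Finset.sum_product']
  symm
  refine Finset.sum_equiv (glEquiv u).toEquiv ?_ ?_
  · rintro ⟨g, h⟩
    have e : ((glEquiv u).toEquiv (g, h) : Hs u) = glHom u (g, h) := rfl
    rw [e]
    simp only [mem_product, mem_filter, mem_univ, true_and, Rs, glHom_coe, gl_comp, gl_inj]
  · rintro ⟨g, h⟩ _
    rfl

private theorem subtypeCongr_eq (u : Word X) (g : Perm {x // u x = 0})
    (h : Perm {x // ¬ u x = 0}) :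
    (Perm.subtypeCongr g h : Perm X) = Perm.ofSubtype h * Perm.ofSubtype g := by
  ext x
  by_cases hx : u x = 0
  · rw [Perm.subtypeCongr.left_apply (p := fun x => u x = 0) (a := x) _ _ hx, Perm.mul_apply, Perm.ofSubtype_apply_of_mem g hx,
      Perm.ofSubtype_apply_of_not_mem h (not_not.2 (g ⟨x, hx⟩).2)]
  · rw [Perm.subtypeCongr.right_apply (p := fun x => u x = 0) (a := x) _ _ hx, Perm.mul_apply,
      Perm.ofSubtype_apply_of_not_mem g hx, Perm.ofSubtype_apply_of_mem h hx]

private theorem ofSubtype_comm (u : Word X) (g : Perm {x // u x = 0})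
    (h : Perm {x // ¬ u x = 0}) :
    (Perm.ofSubtype h * Perm.ofSubtype g : Perm X) = Perm.ofSubtype g * Perm.ofSubtype h := by
  ext x
  by_cases hx : u x = 0
  · rw [Perm.mul_apply, Perm.mul_apply, Perm.ofSubtype_apply_of_mem g hx,
      Perm.ofSubtype_apply_of_not_mem h (not_not.2 (g ⟨x, hx⟩).2),
      Perm.ofSubtype_apply_of_not_mem h (not_not.2 hx), Perm.ofSubtype_apply_of_mem g hx]
  · rw [Perm.mul_apply, Perm.mul_apply, Perm.ofSubtype_apply_of_not_mem g hx,
      Perm.ofSubtype_apply_of_mem h hx, Perm.ofSubtype_apply_of_not_mem g (h ⟨x, hx⟩).2]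

/-- the twisted Young symmetriser acting in a representation -/
private theorem asAlg_YE {W : Type} [AddCommGroup W] [Module ℂ W]
    (σ : Representation ℂ (Perm X) W) (u : Word X) (ε : Hs u →* ℤˣ) (ρ κ : Word X) (w : W) :
    (twist σ u ε).asAlgebraHom (YE u ρ κ) w =
      ∑ r ∈ (univ : Finset (Hs u)).filter (fun r : Hs u => ρ ∘ (r : Perm X) = ρ),
        ∑ c ∈ (univ : Finset (Hs u)).filter (fun c : Hs u => κ ∘ (c : Perm X) = κ),
          (((Perm.sign (c : Perm X) : ℤˣ) : ℤ) : ℂ) •
            ((((ε (r * c) : ℤˣ) : ℤ) : ℂ) • σ ((r * c : Hs u) : Perm X) w) := by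
  unfold YE
  simp only [map_sum, map_smul, Representation.asAlgebraHom_of, LinearMap.sum_apply,
    LinearMap.smul_apply]
  rfl

/-- the sign character of the glued system -/
private noncomputable def glEps (u : Word X) (tw : Bool) (ε' : Hs (um u) →* ℤˣ) : Hs u →* ℤˣ :=
  ((if tw then (Perm.sign : Perm {x // u x = 0} →* ℤˣ) else 1).coprod ε').comp
    (glEquiv u).symm.toMonoidHom

private theorem glEps_apply (u : Word X) (tw : Bool) (ε' : Hs (um u) →* ℤˣ)
    (g : Perm {x // u x = 0}) (h : Hs (um u)) :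
    glEps u tw ε' (glHom u (g, h)) = (if tw then Perm.sign g else 1) * ε' h := by
  have e : (glEquiv u).symm (glHom u (g, h)) = (g, h) := (glEquiv u).symm_apply_apply (g, h)
  unfold glEps
  rw [MonoidHom.comp_apply]
  change (MonoidHom.coprod _ ε') ((glEquiv u).symm (glHom u (g, h))) = _
  rw [e, MonoidHom.coprod_apply]
  cases tw <;> rfl

/-- the twisted symmetriser of the glued system -/
private theorem glue_step {W : Type} [AddCommGroup W] [Module ℂ W]
    (σ : Representation ℂ (Perm X) W) (u : Word X) (tw : Bool)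
    (ρ₀ κ₀ : Word {x // u x = 0}) (ρ' κ' : Word {x // ¬ u x = 0}) (ε' : Hs (um u) →* ℤˣ) (w : W) :
    (twist σ u (glEps u tw ε')).asAlgebraHom (YE u (gl u ρ₀ ρ') (gl u κ₀ κ')) w =
      ∑ r ∈ (univ : Finset (Hs (um u))).filter
          (fun r : Hs (um u) => ρ' ∘ (r : Perm {x // ¬ u x = 0}) = ρ'),
        ∑ c ∈ (univ : Finset (Hs (um u))).filter
            (fun c : Hs (um u) => κ' ∘ (c : Perm {x // ¬ u x = 0}) = κ'),
          (((Perm.sign (c : Perm {x // ¬ u x = 0}) : ℤˣ) : ℤ) : ℂ) •
            ((((ε' (r * c) : ℤˣ) : ℤ) : ℂ) •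
              σ (Perm.ofSubtype ((r * c : Hs (um u)) : Perm {x // ¬ u x = 0}))
                (eS (fun x => u x = 0) σ tw ρ₀ κ₀ w)) := by
  rw [asAlg_YE, sum_gl]
  rw [Finset.sum_comm]
  refine Finset.sum_congr rfl fun h _ => ?_
  have e1 : ∀ g : Perm {x // u x = 0},
      (∑ c ∈ (univ : Finset (Hs u)).filter
        (fun c : Hs u => gl u κ₀ κ' ∘ (c : Perm X) = gl u κ₀ κ'),
          (((Perm.sign (c : Perm X) : ℤˣ) : ℤ) : ℂ) •
            ((((glEps u tw ε' (glHom u (g, h) * c) : ℤˣ) : ℤ) : ℂ) •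
              σ ((glHom u (g, h) * c : Hs u) : Perm X) w)) =
      ∑ h' ∈ (univ : Finset (Hs (um u))).filter
          (fun h' : Hs (um u) => κ' ∘ (h' : Perm {x // ¬ u x = 0}) = κ'),
        ∑ g' ∈ Rs κ₀,
          (((Perm.sign (h' : Perm {x // ¬ u x = 0}) : ℤˣ) : ℤ) : ℂ) •
            ((((ε' (h * h') : ℤˣ) : ℤ) : ℂ) •
              σ (Perm.ofSubtype ((h * h' : Hs (um u)) : Perm {x // ¬ u x = 0}))
              ((((Perm.sign g' : ℤˣ) : ℤ) : ℂ) •
                ((if tw then (((Perm.sign (g * g') : ℤˣ) : ℤ) : ℂ) else 1) •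
                  σ (Perm.ofSubtype (g * g')) w))) := by
    intro g
    rw [sum_gl, Finset.sum_comm]
    refine Finset.sum_congr rfl fun h' _ => Finset.sum_congr rfl fun g' _ => ?_
    have e2 : glHom u (g, h) * glHom u (g', h') = glHom u (g * g', h * h') := by
      rw [← map_mul]
      rfl
    have e3 : ((glHom u (g * g', h * h') : Hs u) : Perm X) =
        Perm.ofSubtype ((h * h' : Hs (um u)) : Perm {x // ¬ u x = 0}) *
          Perm.ofSubtype (g * g') := by
      rw [glHom_coe]
      exact subtypeCongr_eq u (g * g') _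
    have e4 : Perm.sign ((glHom u (g', h') : Hs u) : Perm X) =
        Perm.sign g' * Perm.sign (h' : Perm {x // ¬ u x = 0}) := by
      rw [glHom_coe]
      exact Perm.sign_subtypeCongr g' (h' : Perm {x // ¬ u x = 0})
    rw [e2, e3, e4, glEps_apply, map_mul σ, Module.End.mul_apply]
    simp only [map_smul, smul_smul, Units.val_mul, Int.cast_mul]
    congr 1
    cases tw
    · simp
      ring
    · simp
      ring
  rw [Finset.sum_congr rfl fun g _ => e1 g, Finset.sum_comm]
  refine Finset.sum_congr rfl fun h' _ => ?_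
  unfold eS
  simp only [map_sum, Finset.smul_sum]

/-- `eS` as a linear map -/
private noncomputable def eSl (u : Word X) {W : Type} [AddCommGroup W] [Module ℂ W]
    (σ : Representation ℂ (Perm X) W) (tw : Bool) (ρ κ : Word {x // u x = 0}) : W →ₗ[ℂ] W :=
  ∑ r ∈ Rs ρ, ∑ c ∈ Rs κ, (((Perm.sign c : ℤˣ) : ℤ) : ℂ) •
    ((if tw then (((Perm.sign (r * c) : ℤˣ) : ℤ) : ℂ) else 1) • σ (Perm.ofSubtype (r * c)))

private theorem eSl_apply (u : Word X) {W : Type} [AddCommGroup W] [Module ℂ W]
    (σ : Representation ℂ (Perm X) W) (tw : Bool) (ρ κ : Word {x // u x = 0}) (w : W) :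
    eSl u σ tw ρ κ w = eS (fun x => u x = 0) σ tw ρ κ w := by
  simp only [eSl, eS, LinearMap.sum_apply, LinearMap.smul_apply]

private theorem eSl_comm (u : Word X) {W : Type} [AddCommGroup W] [Module ℂ W]
    (σ : Representation ℂ (Perm X) W) (tw : Bool) (ρ κ : Word {x // u x = 0})
    (h : Perm {x // ¬ u x = 0}) (w : W) :
    σ (Perm.ofSubtype h) (eSl u σ tw ρ κ w) = eSl u σ tw ρ κ (σ (Perm.ofSubtype h) w) := by
  simp only [eSl, LinearMap.sum_apply, LinearMap.smul_apply, map_sum, map_smul]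
  refine Finset.sum_congr rfl fun r _ => Finset.sum_congr rfl fun c _ => ?_
  have e : σ (Perm.ofSubtype h) (σ (Perm.ofSubtype (r * c)) w) =
      σ (Perm.ofSubtype (r * c)) (σ (Perm.ofSubtype h) w) := by
    rw [← Module.End.mul_apply, ← map_mul σ, ofSubtype_comm u (r * c) h, map_mul σ,
      Module.End.mul_apply]
  rw [e]

/-- restriction of a representation of `Perm X` to the letters outside the outer strip and to a
stable subspace -/
private noncomputable def subRepDk (u : Word X) {W : Type} [AddCommGroup W] [Module ℂ W]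
    (σ : Representation ℂ (Perm X) W) (W₀ : Submodule ℂ W)
    (hst : ∀ (h : Perm {x // ¬ u x = 0}), ∀ v ∈ W₀, σ (Perm.ofSubtype h) v ∈ W₀) :
    Representation ℂ (Perm {x // ¬ u x = 0}) W₀ where
  toFun h := (σ (Perm.ofSubtype h)).restrict (hst h)
  map_one' := by
    ext v
    simp
  map_mul' g h := by
    ext v
    simp

private theorem subRepDk_coe (u : Word X) {W : Type} [AddCommGroup W] [Module ℂ W]
    (σ : Representation ℂ (Perm X) W) (W₀ : Submodule ℂ W)
    (hst : ∀ (h : Perm {x // ¬ u x = 0}), ∀ v ∈ W₀, σ (Perm.ofSubtype h) v ∈ W₀)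
    (h : Perm {x // ¬ u x = 0}) (v : W₀) :
    ((subRepDk u σ W₀ hst h v : W₀) : W) = σ (Perm.ofSubtype h) (v : W) := rfl

/-- gluing of tableaux -/
private theorem tab_gl (u : Word X) {ρ₀ κ₀ : Word {x // u x = 0}}
    {ρ' κ' : Word {x // ¬ u x = 0}} (h0 : IsTab (fun _ => 0) ρ₀ κ₀) (h' : IsTab (um u) ρ' κ') :
    IsTab u (gl u ρ₀ ρ') (gl u κ₀ κ') := by
  constructor
  · intro x y hxy
    simp only [Prod.mk.injEq] at hxy
    obtain ⟨h1, h2, h3⟩ := hxy
    by_cases hx : u x = 0
    · have hy : u y = 0 := by rw [← h1, hx]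
      rw [gl_of_eq _ _ hx, gl_of_eq _ _ hy] at h2 h3
      have := h0.inj (a₁ := ⟨x, hx⟩) (a₂ := ⟨y, hy⟩) (by simp only [h2, h3])
      exact congrArg Subtype.val this
    · have hy : ¬ u y = 0 := by rw [← h1]; exact hx
      rw [gl_of_ne _ _ hx, gl_of_ne _ _ hy] at h2 h3
      have := h'.inj (a₁ := ⟨x, hx⟩) (a₂ := ⟨y, hy⟩) (by simp only [um, h1, h2, h3])
      exact congrArg Subtype.val this
  · intro x i j hi hj
    by_cases hx : u x = 0
    · rw [gl_of_eq _ _ hx] at hi hj
      obtain ⟨y, _, h2, h3⟩ := h0.lower ⟨x, hx⟩ i j hi hj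
      refine ⟨y.1, by rw [y.2, hx], ?_, ?_⟩
      · rw [gl_of_eq _ _ y.2]; exact h2
      · rw [gl_of_eq _ _ y.2]; exact h3
    · rw [gl_of_ne _ _ hx] at hi hj
      obtain ⟨y, h1, h2, h3⟩ := h'.lower ⟨x, hx⟩ i j hi hj
      have hy := y.2
      refine ⟨y.1, ?_, ?_, ?_⟩
      · simp only [um] at h1
        omega
      · rw [gl_of_ne _ _ y.2]; exact h2
      · rw [gl_of_ne _ _ y.2]; exact h3

end glue

/-- PROOF by strong induction on `k` (`k-2 → k`, for all `X, u, W`).
`k = 0`: `X` empty; `ρ = κ = 0`, `ε = 1`. For `k ≥ 1`: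
let `S x := (u x = 0)` (`2k-1` letters), `X' = {x // ¬ S x}`, `u' = u - 1` on `X'`, an
`IsStrip (k-2)` word (if `k = 1`, `X'` is empty; `k-2 = 0` works), `card X' = (k-2)(k-1)/2`.
`strip_step` gives `tw, ρ₀, κ₀` and the linear map `e₀ = eS S σ tw ρ₀ κ₀` is nonzero, `W₀ := range e₀ ≠ 0` is stable
under `Perm X'` (`Perm.ofSubtype`; disjoint permutations commute). Apply the induction hypothesis to `W₀` as a
representation of `Perm X'`: `ε', ρ', κ'`, `w'' = e₀ w ∈ W₀` with `e' w'' ≠ 0`. Glue: `ρ = ρ₀` on `S`, `ρ'` on `X'`,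
same for `κ`; an element `h ∈ Hs u` preserves `S`, so `h = ofSubtype h₀ * ofSubtype h'`
(`Equiv.Perm.subtypePerm`), and `ε h = (sign h₀ if tw, else 1) * ε' h'`. The twisted symmetriser of the glued system
is `e' e₀ = e₀ e'` (reindex the sums over `r` and `c` as sums over pairs), and `e' e₀ w ≠ 0`. -/
theorem exists_twisted (k : ℕ) : ∀ (X : Type) [Fintype X] [DecidableEq X]
    (_ : Fintype.card X = k * (k + 1) / 2) (u : Word X) (_ : IsStrip k u)
    (W : Type) [AddCommGroup W] [Module ℂ W] [Nontrivial W]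
    (σ : Representation ℂ (Perm X) W),
    ∃ (ε : Hs u →* ℤˣ) (ρ κ : Word X), IsTab u ρ κ ∧ (∀ x, ρ x < 4) ∧
      ∃ w : W, (twist σ u ε).asAlgebraHom (YE u ρ κ) w ≠ 0 := by
  induction k using Nat.strong_induction_on with
  | _ k ih =>
  intro X _ _ hX u hu W _ _ _ σ
  rcases Nat.eq_zero_or_pos k with rfl | hk
  · have hE : IsEmpty X := Fintype.card_eq_zero_iff.1 (by simpa using hX)
    refine ⟨1, fun _ => 0, fun _ => 0, ⟨fun x => (hE.false x).elim, fun x => (hE.false x).elim⟩,
      fun x => (hE.false x).elim, ?_⟩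
    obtain ⟨w, hw⟩ := exists_ne (0 : W)
    refine ⟨w, ?_⟩
    rw [asAlg_YE]
    have h1 : ∀ r : Hs u, r = 1 := fun r => Subtype.ext (Equiv.ext fun x => (hE.false x).elim)
    have hu1 : (univ : Finset (Hs u)) = {1} := by
      ext r
      simp [h1 r]
    rw [hu1]
    have hf : ({1} : Finset (Hs u)).filter
        (fun r : Hs u => (fun _ : X => 0) ∘ (r : Perm X) = fun _ => 0) = {1} := by
      ext r
      simp only [mem_filter, mem_singleton, and_iff_left_iff_imp]
      intro _
      rfl
    rw [hf, Finset.sum_singleton, Finset.sum_singleton]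
    simpa using hw
  · have hS : Fintype.card {x // u x = 0} = 2 * k - 1 := by
      rw [Fintype.card_subtype]
      have := hu 0
      simpa [hk] using this
    obtain ⟨tw, ρ₀, κ₀, htab, hρ4, w, hw⟩ := strip_step hk hX (fun x => u x = 0) hS σ
    set W₀ : Submodule ℂ W := LinearMap.range (eSl u σ tw ρ₀ κ₀) with hW₀
    have hst : ∀ (h : Perm {x // ¬ u x = 0}), ∀ v ∈ W₀, σ (Perm.ofSubtype h) v ∈ W₀ := by
      rintro h v ⟨v', rfl⟩
      rw [eSl_comm]
      exact LinearMap.mem_range_self _ _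
    have hnt : Nontrivial W₀ := by
      refine ⟨⟨⟨eSl u σ tw ρ₀ κ₀ w, LinearMap.mem_range_self _ _⟩, 0, ?_⟩⟩
      intro h
      apply hw
      rw [← eSl_apply]
      exact congrArg Subtype.val h
    have hcard : Fintype.card {x // ¬ u x = 0} = (k - 2) * (k - 2 + 1) / 2 := by
      rw [Fintype.card_subtype_compl, hX, hS]
      obtain ⟨j, rfl⟩ : ∃ j, k = j + 1 := ⟨k - 1, by omega⟩
      rcases Nat.eq_zero_or_pos j with rfl | hj
      · norm_num
      · obtain ⟨l, rfl⟩ : ∃ l, j = l + 1 := ⟨j - 1, by omega⟩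
        have e1 : (l + 1 + 1) * (l + 1 + 1 + 1) = l * (l + 1) + 2 * (2 * l + 3) := by ring
        have e2 : l + 1 + 1 - 2 = l := by omega
        rw [e1, e2, Nat.add_mul_div_left _ _ (by norm_num)]
        omega
    have hstrip : IsStrip (k - 2) (um u) := by
      intro i
      have h1 : ((univ : Finset {x // ¬ u x = 0}).filter (fun x => um u x = i)).card =
          ((univ : Finset X).filter (fun x => u x = i + 1)).card := by
        refine Finset.card_bij (fun x _ => x.1) ?_ ?_ ?_
        · intro x hx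
          rw [mem_filter] at hx ⊢
          have h2 := hx.2
          have h3 := x.2
          unfold um at h2
          refine ⟨mem_univ _, ?_⟩
          omega
        · intro x _ y _ h
          exact Subtype.ext h
        · intro y hy
          simp only [mem_filter, mem_univ, true_and] at hy
          refine ⟨⟨y, by omega⟩, ?_, rfl⟩
          rw [mem_filter]
          refine ⟨mem_univ _, ?_⟩
          change u y - 1 = i
          omega
      rw [h1, hu (i + 1)]
      by_cases h : 2 * (i + 1) < k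
      · rw [if_pos h, if_pos (by omega)]
        omega
      · rw [if_neg h, if_neg (by omega)]
    obtain ⟨ε', ρ', κ', htab', h4', v, hv⟩ :=
      ih (k - 2) (by omega) {x // ¬ u x = 0} hcard (um u) hstrip W₀ (subRepDk u σ W₀ hst)
    obtain ⟨w', hw'⟩ := v.2
    refine ⟨glEps u tw ε', gl u ρ₀ ρ', gl u κ₀ κ', tab_gl u htab htab', ?_, w', ?_⟩
    · intro x
      by_cases hx : u x = 0
      · rw [gl_of_eq _ _ hx]; exact hρ4 _
      · rw [gl_of_ne _ _ hx]; exact h4' _
    · rw [glue_step, ← eSl_apply, hw']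
      intro h
      apply hv
      apply Subtype.ext
      rw [asAlg_YE]
      simp only [Submodule.coe_sum, Submodule.coe_smul, subRepDk_coe, ZeroMemClass.coe_zero]
      exact h

end Crest.Agent.Saxl
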