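import Crest.Agent.Saxl.RowFour
import Crest.Agent.Saxl.Dicho

/-!
CHUNK DK-A (medium/hard; Irr, RowFour, Dicho are black boxes).
-/

set_option autoImplicit false

namespace Crest.Agent.Saxl

open Finset Equiv

/-- The Young symmetriser of a tableau on the subset `S` of `X` acting on `W`, twisted by the sign if `tw`. -/
noncomputable def eS {X : Type} [Fintype X] [DecidableEq X] (S : X → Prop) [DecidablePred S]
    {W : Type} [AddCommGroup W] [Module ℂ W] (σ : Representation ℂ (Perm X) W) (tw : Bool)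
    (ρ κ : Word {x // S x}) (w : W) : W :=
  ∑ r ∈ Rs ρ, ∑ c ∈ Rs κ, (((Perm.sign c : ℤˣ) : ℤ) : ℂ) •
    ((if tw then (((Perm.sign (r * c) : ℤˣ) : ℤ) : ℂ) else 1) • σ (Perm.ofSubtype (r * c)) w)

/-- An extension of an injection to a permutation. -/
private theorem exists_perm_ext {X : Type} [Fintype X] [DecidableEq X] (S T : X → Prop)
    [DecidablePred S] [DecidablePred T]
    (h : Fintype.card {x // S x} ≤ (univ.filter T).card) :
    ∃ g : Perm X, ∀ x, S x → T (g x) := by
  obtain ⟨T', hT', hcard⟩ := Finset.exists_subset_card_eq h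
  have e : {x // S x} ≃ {x // x ∈ T'} := Fintype.equivOfCardEq (by
    rw [Fintype.card_coe, hcard])
  refine ⟨e.extendSubtype, fun x hx => ?_⟩
  have h1 := e.extendSubtype_mem x hx
  have h2 := hT' h1
  exact (Finset.mem_filter.1 h2).2

/-- The twisted restriction to `Perm S`. -/
private noncomputable def twr {X : Type} [Fintype X] [DecidableEq X] (S : X → Prop)
    [DecidablePred S] {W : Type} [AddCommGroup W] [Module ℂ W]
    (σ : Representation ℂ (Perm X) W) (ε : Perm X →* ℤˣ) :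
    Representation ℂ (Perm {x // S x}) W where
  toFun h := (((ε (Perm.ofSubtype h) : ℤˣ) : ℤ) : ℂ) • σ (Perm.ofSubtype h)
  map_one' := by simp
  map_mul' g h := by
    ext w
    simp only [map_mul, Units.val_mul, Int.cast_mul, LinearMap.smul_apply,
      Module.End.mul_apply, map_smul, smul_smul]
    rw [mul_comm]

private theorem unit_sq (e : ℤˣ) : (((e : ℤˣ) : ℤ) : ℂ) * (((e : ℤˣ) : ℤ) : ℂ) = 1 := by
  rcases Int.units_eq_one_or e with h | h <;> simp [h]

private theorem strip_core {X : Type} [Fintype X] [DecidableEq X] (S : X → Prop)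
    [DecidablePred S] {W : Type} [AddCommGroup W] [Module ℂ W]
    (σ : Representation ℂ (Perm X) W) (ε : Perm X →* ℤˣ) (f : Word X) (v : W) (hv : v ≠ 0)
    (hinv : ∀ c ∈ Rs f, σ c v = (((ε c : ℤˣ) : ℤ) : ℂ) • v)
    (hcard : Fintype.card {x // S x} ≤ (univ.filter (fun x => f x < 4)).card) :
    ∃ ρ κ : Word {x // S x}, IsTab (fun _ => 0) ρ κ ∧ (∀ x, ρ x < 4) ∧
      ∃ w : W, yact (twr S σ ε) ρ κ w ≠ 0 := by
  obtain ⟨g, hg⟩ := exists_perm_ext S (fun x => f x < 4) hcard
  refine exists_four_rows (twr S σ ε) (fun x => ⟨f (g x), hg x x.2⟩) (σ g⁻¹ v) ?_ ?_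
  · intro h0
    apply hv
    have : σ g (σ g⁻¹ v) = v := by
      rw [← Module.End.mul_apply, ← map_mul, mul_inv_cancel, map_one, Module.End.one_apply]
    rw [← this, h0, map_zero]
  · intro h hh
    have hh' : ∀ x : {x // S x}, f (g (h x)) = f (g x) := by
      intro x
      have h1 := (Finset.mem_filter.1 hh).2
      have h2 := congrFun h1 x
      simpa [Fin.ext_iff] using h2
    have hmem : g * Perm.ofSubtype h * g⁻¹ ∈ Rs f := by
      refine Finset.mem_filter.2 ⟨Finset.mem_univ _, ?_⟩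
      funext x
      simp only [Function.comp_apply, Perm.mul_apply]
      by_cases hz : S (g⁻¹ x)
      · rw [Perm.ofSubtype_apply_of_mem h hz]
        have h3 := hh' ⟨g⁻¹ x, hz⟩
        rw [h3]
        simp
      · rw [Perm.ofSubtype_apply_of_not_mem h hz]
        simp
    have h4 := hinv _ hmem
    have h5 : ε (g * Perm.ofSubtype h * g⁻¹) = ε (Perm.ofSubtype h) := by
      rw [map_mul, map_mul, map_inv, mul_comm (ε g), mul_inv_cancel_right]
    rw [h5] at h4
    show (((ε (Perm.ofSubtype h) : ℤˣ) : ℤ) : ℂ) • σ (Perm.ofSubtype h) (σ g⁻¹ v) = σ g⁻¹ v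
    have h6 : σ (Perm.ofSubtype h) (σ g⁻¹ v) = σ g⁻¹ (σ (g * Perm.ofSubtype h * g⁻¹) v) := by
      rw [← Module.End.mul_apply, ← Module.End.mul_apply, ← map_mul, ← map_mul]
      congr 2
      group
    rw [h6, h4, map_smul, smul_smul, unit_sq, one_smul]

/-- PROOF. By `exists_yact_ne_zero` on `X` there is a tableau `(ρ₁, κ₁)` with `R^+ C^- w ≠ 0`; so there are a
nonzero vector fixed by `Rs ρ₁` and (`C^- w ≠ 0`) a nonzero vector on which `Rs κ₁` acts by the sign. By
`dichotomy` one of `{ρ₁ < 4}`, `{κ₁ < 4}` has at least `2k-1` letters. In the first case choose a permutation `g`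
with `g S ⊆ {ρ₁ < 4}`: translating by `σ g⁻¹`, `W` has a nonzero vector fixed by all permutations supported in `S`
preserving `q = ρ₁ ∘ g : S → Fin 4`; in the second case the same holds for `W ⊗ sign` (`tw = true`). Apply
`exists_four_rows` to `W` (or `W ⊗ sign`) as a representation of `Perm S` (via `Equiv.Perm.ofSubtype`). -/
theorem strip_step {k : ℕ} (hk : 1 ≤ k) {X : Type} [Fintype X] [DecidableEq X]
    (hX : Fintype.card X = k * (k + 1) / 2) (S : X → Prop) [DecidablePred S]
    (hS : Fintype.card {x // S x} = 2 * k - 1)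
    {W : Type} [AddCommGroup W] [Module ℂ W] [Nontrivial W] (σ : Representation ℂ (Perm X) W) :
    ∃ (tw : Bool) (ρ κ : Word {x // S x}), IsTab (fun _ => 0) ρ κ ∧ (∀ x, ρ x < 4) ∧
      ∃ w : W, eS S σ tw ρ κ w ≠ 0 := by
  obtain ⟨ρ₁, κ₁, htab, w, hw⟩ := exists_yact_ne_zero σ
  set v : W := ∑ c ∈ Rs κ₁, (((Perm.sign c : ℤˣ) : ℤ) : ℂ) • σ c w with hv
  have hy : yact σ ρ₁ κ₁ w = ∑ r ∈ Rs ρ₁, σ r v := by
    unfold yact
    refine Finset.sum_congr rfl fun r _ => ?_
    rw [hv, map_sum]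
    refine Finset.sum_congr rfl fun c _ => ?_
    rw [map_smul, map_mul, Module.End.mul_apply]
  have hv0 : v ≠ 0 := by
    intro h0
    apply hw
    rw [hy, h0]
    simp
  have hmulmem : ∀ {f : Word X} {a b : Perm X}, a ∈ Rs f → b ∈ Rs f → a * b ∈ Rs f := by
    intro f a b ha hb
    have ha' := (Finset.mem_filter.1 ha).2
    have hb' := (Finset.mem_filter.1 hb).2
    refine Finset.mem_filter.2 ⟨Finset.mem_univ _, ?_⟩
    funext x
    have h1 := congrFun ha' (b x)
    have h2 := congrFun hb' x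
    simp only [Function.comp_apply] at h1 h2
    simp [h1, h2]
  have hinvmem : ∀ {f : Word X} {a : Perm X}, a ∈ Rs f → a⁻¹ ∈ Rs f := by
    intro f a ha
    have ha' := (Finset.mem_filter.1 ha).2
    refine Finset.mem_filter.2 ⟨Finset.mem_univ _, ?_⟩
    funext x
    have h1 := congrFun ha' (a⁻¹ x)
    simp only [Function.comp_apply] at h1 ⊢
    rw [← h1]
    simp
  have hfix : ∀ a ∈ Rs ρ₁, σ a (yact σ ρ₁ κ₁ w) = yact σ ρ₁ κ₁ w := by
    intro a ha
    rw [hy, map_sum]
    refine Finset.sum_bij (fun r _ => a * r) (fun r hr => hmulmem ha hr)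
      (fun r _ r' _ h => mul_left_cancel h) (fun r hr => ⟨a⁻¹ * r, hmulmem (hinvmem ha) hr, ?_⟩) ?_
    · simp
    · intro r _
      rw [map_mul, Module.End.mul_apply]
  have halt : ∀ a ∈ Rs κ₁, σ a v = (((Perm.sign a : ℤˣ) : ℤ) : ℂ) • v := by
    intro a ha
    rw [hv, map_sum, Finset.smul_sum]
    refine Finset.sum_bij (fun r _ => a * r) (fun r hr => hmulmem ha hr)
      (fun r _ r' _ h => mul_left_cancel h) (fun r hr => ⟨a⁻¹ * r, hmulmem (hinvmem ha) hr, ?_⟩) ?_
    · simp
    · intro r _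
      rw [map_smul, ← Module.End.mul_apply, ← map_mul, smul_smul, Perm.sign_mul, Units.val_mul,
        Int.cast_mul, ← mul_assoc, unit_sq, one_mul]
  rcases dichotomy hk hX htab with h1 | h1
  · obtain ⟨ρ, κ, ht, hρ, w', hw'⟩ := strip_core S σ 1 ρ₁ (yact σ ρ₁ κ₁ w) hw
      (fun c hc => by rw [hfix c hc]; simp) (by rw [hS]; exact h1)
    refine ⟨false, ρ, κ, ht, hρ, w', ?_⟩
    convert hw' using 1
    unfold eS yact
    refine Finset.sum_congr rfl fun r _ => Finset.sum_congr rfl fun c _ => ?_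
    simp [twr]
  · obtain ⟨ρ, κ, ht, hρ, w', hw'⟩ := strip_core S σ Perm.sign κ₁ v hv0 halt
      (by rw [hS]; exact h1)
    refine ⟨true, ρ, κ, ht, hρ, w', ?_⟩
    convert hw' using 1
    unfold eS yact
    refine Finset.sum_congr rfl fun r _ => Finset.sum_congr rfl fun c _ => ?_
    simp [twr, Perm.sign_ofSubtype]

end Crest.Agent.Saxl
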