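import Crest.Agent.Saxl.Cliff

/-!
CHUNK EVZ (medium).
-/

set_option autoImplicit false

namespace Crest.Agent.Saxl

open Finset Equiv

variable {X : Type} [Fintype X] [DecidableEq X]

namespace Evz

/-- Lexicographic order by `(κ, ρ)`. -/
def Lx {X : Type} (ρ κ : Word X) (a b : X) : Prop := κ a < κ b ∨ (κ a = κ b ∧ ρ a < ρ b)

instance decLx {X : Type} (ρ κ : Word X) (a b : X) : Decidable (Lx ρ κ a b) :=
  inferInstanceAs (Decidable (κ a < κ b ∨ (κ a = κ b ∧ ρ a < ρ b)))

/-- The position function. -/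
def pos (u ρ κ : Word X) : Word X := fun x => (univ.filter (fun y => u y = u x ∧ Lx ρ κ y x)).card

theorem Lx_irrefl {X : Type} (ρ κ : Word X) (a : X) : ¬ Lx ρ κ a a := by
  unfold Lx; omega

theorem Lx_trans {X : Type} {ρ κ : Word X} {a b c : X} (h : Lx ρ κ a b) (h' : Lx ρ κ b c) :
    Lx ρ κ a c := by
  unfold Lx at *; omega

theorem Lx_total {X : Type} {u ρ κ : Word X} (hT : IsTab u ρ κ) {a b : X} (hu : u a = u b)
    (hne : a ≠ b) : Lx ρ κ a b ∨ Lx ρ κ b a := by
  unfold Lx
  by_contra h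
  have h1 : κ a = κ b := by omega
  have h2 : ρ a = ρ b := by omega
  exact hne (hT.inj (by simp [hu, h1, h2]))

theorem pos_lt_of_Lx {u ρ κ : Word X} {a b : X} (hu : u a = u b) (h : Lx ρ κ a b) :
    pos u ρ κ a < pos u ρ κ b := by
  unfold pos
  apply Finset.card_lt_card
  rw [Finset.ssubset_iff_of_subset]
  · refine ⟨a, ?_, ?_⟩
    · simp [hu, h]
    · simp [Lx_irrefl]
  · intro y hy
    rw [Finset.mem_filter] at hy ⊢
    exact ⟨hy.1, hy.2.1.trans hu, Lx_trans hy.2.2 h⟩

theorem Lx_of_pos_lt {u ρ κ : Word X} (hT : IsTab u ρ κ) {a b : X} (hu : u a = u b)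
    (h : pos u ρ κ a < pos u ρ κ b) : Lx ρ κ a b := by
  rcases eq_or_ne a b with rfl | hne
  · exact absurd h (lt_irrefl _)
  · rcases Lx_total hT hu hne with h1 | h1
    · exact h1
    · have := pos_lt_of_Lx hu.symm h1
      omega

theorem isPath_pos {u ρ κ : Word X} (hT : IsTab u ρ κ) : IsPath u (pos u ρ κ) := by
  constructor
  · intro a b h
    simp only [Prod.mk.injEq] at h
    by_contra hne
    rcases Lx_total hT h.1 hne with h1 | h1
    · have := pos_lt_of_Lx h.1 h1
      omega
    · have := pos_lt_of_Lx h.1.symm h1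
      omega
  · intro x
    unfold pos bsize
    apply Finset.card_lt_card
    rw [Finset.ssubset_iff_of_subset]
    · exact ⟨x, by simp, by simp [Lx_irrefl]⟩
    · intro y hy
      rw [Finset.mem_filter] at hy ⊢
      exact ⟨hy.1, hy.2.1⟩

theorem exists_pos {u p : Word X} (hp : IsPath u p) (x : X) {i : ℕ} (hi : i < bsize u x) :
    ∃ z, u z = u x ∧ p z = i := by
  have hb : ∀ y, u y = u x → bsize u y = bsize u x := by
    intro y hy
    unfold bsize
    rw [hy]
  have hsub : (univ.filter (fun y => u y = u x)).image p ⊆ Finset.range (bsize u x) := by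
    intro j hj
    rw [Finset.mem_image] at hj
    obtain ⟨y, hy, rfl⟩ := hj
    rw [Finset.mem_filter] at hy
    rw [Finset.mem_range, ← hb y hy.2]
    exact hp.2 y
  have hcard : (Finset.range (bsize u x)).card ≤ ((univ.filter (fun y => u y = u x)).image p).card := by
    rw [Finset.card_range, Finset.card_image_of_injOn]
    · exact le_rfl
    · intro a ha b hb h
      simp only [Finset.coe_filter, Finset.mem_univ, true_and, Set.mem_ofPred_eq] at ha hb
      exact hp.1 (by simp [ha, hb, h])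
  have heq := Finset.eq_of_subset_of_card_le hsub hcard
  have : i ∈ (univ.filter (fun y => u y = u x)).image p := by
    rw [heq]; exact Finset.mem_range.2 hi
  rw [Finset.mem_image] at this
  obtain ⟨z, hz, h⟩ := this
  rw [Finset.mem_filter] at hz
  exact ⟨z, hz.2, h⟩

/-- Column group. -/
def InC {X : Type} (u κ : Word X) (c : Perm X) : Prop := u ∘ c = u ∧ κ ∘ c = κ

theorem InC_mul {X : Type} {u κ : Word X} {a b : Perm X} (ha : InC u κ a) (hb : InC u κ b) :
    InC u κ (a * b) := by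
  obtain ⟨h1, h2⟩ := ha
  obtain ⟨h3, h4⟩ := hb
  constructor
  · rw [Perm.coe_mul, ← Function.comp_assoc, h1, h3]
  · rw [Perm.coe_mul, ← Function.comp_assoc, h2, h4]

theorem InC_swap {u κ : Word X} {x y : X} (hu : u x = u y) (hκ : κ x = κ y) :
    InC u κ (swap x y) := by
  constructor
  · funext z
    simp only [Function.comp_apply]
    rcases eq_or_ne z x with rfl | h1
    · rw [swap_apply_left, hu]
    · rcases eq_or_ne z y with rfl | h2
      · rw [swap_apply_right, hu]
      · rw [swap_apply_of_ne_of_ne h1 h2]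
  · funext z
    simp only [Function.comp_apply]
    rcases eq_or_ne z x with rfl | h1
    · rw [swap_apply_left, hκ]
    · rcases eq_or_ne z y with rfl | h2
      · rw [swap_apply_right, hκ]
      · rw [swap_apply_of_ne_of_ne h1 h2]

/-- Sign rule. -/
def SR (u κ p : Word X) (ρ₄ : X → Fin 4) (c : Perm X) : Prop :=
  ∀ d : Perm X, InC u κ d → Phi u p (ρ₄ ∘ d ∘ c) = ((Perm.sign c : ℤˣ) : ℤ) * Phi u p (ρ₄ ∘ d)

theorem SR_mul {u κ p : Word X} {ρ₄ : X → Fin 4} {a b : Perm X} (hC : InC u κ a)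
    (ha : SR u κ p ρ₄ a) (hb : SR u κ p ρ₄ b) : SR u κ p ρ₄ (a * b) := by
  intro d hd
  have h1 := hb (d * a) (InC_mul hd hC)
  have h2 := ha d hd
  rw [Perm.coe_mul] at h1 ⊢
  rw [← Function.comp_assoc d, h1, h2]
  rw [Perm.sign_mul]
  push_cast
  ring

theorem SR_swap {u ρ κ : Word X} (hodd : ∀ x, Odd (bsize u x)) (hT : IsTab u ρ κ)
    (hρ : ∀ x, ρ x < 4) :
    ∀ (k : ℕ) (x y : X), u x = u y → κ x = κ y → pos u ρ κ x < pos u ρ κ y →
      pos u ρ κ y ≤ pos u ρ κ x + k →
      SR u κ (pos u ρ κ) (fun x => (⟨ρ x, hρ x⟩ : Fin 4)) (swap x y) := by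
  intro k
  induction k with
  | zero => intro x y _ _ h1 h2; omega
  | succ k ih =>
    intro x y hu hκ h1 h2
    have hp := isPath_pos hT
    have hxy : x ≠ y := by rintro rfl; omega
    rcases Nat.lt_or_ge (pos u ρ κ x + 1) (pos u ρ κ y) with h3 | h3
    · obtain ⟨z, hz1, hz2⟩ := exists_pos hp x (i := pos u ρ κ x + 1)
        (by
          have := hp.2 y
          have h4 : bsize u y = bsize u x := by unfold bsize; rw [hu]
          omega)
      have hzκ : κ z = κ x := by
        have a1 : Lx ρ κ x z := Lx_of_pos_lt hT hz1.symm (by omega)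
        have a2 : Lx ρ κ z y := Lx_of_pos_lt hT (hz1.trans hu) (by omega)
        unfold Lx at a1 a2
        omega
      have hxz : x ≠ z := by rintro rfl; omega
      have hyz : y ≠ z := by rintro rfl; omega
      have e : swap x y = swap x z * (swap z y * swap x z) := by
        rw [← mul_assoc]
        rw [swap_comm x z, swap_comm z y, swap_mul_swap_mul_swap hyz hxy.symm]
      have s1 := ih x z hz1.symm hzκ.symm (by omega) (by omega)
      have s2 := ih z y (hz1.trans hu) (hzκ.trans hκ) (by omega) (by omega)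
      rw [e]
      exact SR_mul (InC_swap hz1.symm hzκ.symm) s1
        (SR_mul (InC_swap (hz1.trans hu) (hzκ.trans hκ)) s2 s1)
    · have h4 : pos u ρ κ y = pos u ρ κ x + 1 := by omega
      intro d hd
      rw [Perm.sign_swap hxy]
      have hne : ((fun x => (⟨ρ x, hρ x⟩ : Fin 4)) ∘ d) x ≠
          ((fun x => (⟨ρ x, hρ x⟩ : Fin 4)) ∘ d) y := by
        simp only [Function.comp_apply, ne_eq, Fin.mk.injEq]
        intro h5
        have h6 : u (d x) = u (d y) := by
          have := congrFun hd.1 x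
          have := congrFun hd.1 y
          simp only [Function.comp_apply] at *
          omega
        have h7 : κ (d x) = κ (d y) := by
          have := congrFun hd.2 x
          have := congrFun hd.2 y
          simp only [Function.comp_apply] at *
          omega
        exact hxy (d.injective (hT.inj (by simp [h5, h6, h7])))
      have := Phi_swap hodd hp ((fun x => (⟨ρ x, hρ x⟩ : Fin 4)) ∘ d) x y hu h4 hne
      rw [Function.comp_assoc] at this
      rw [this]
      simp

theorem SR_swap' {u ρ κ : Word X} (hodd : ∀ x, Odd (bsize u x)) (hT : IsTab u ρ κ)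
    (hρ : ∀ x, ρ x < 4) (x y : X) (hu : u x = u y) (hκ : κ x = κ y) (hxy : x ≠ y) :
    SR u κ (pos u ρ κ) (fun x => (⟨ρ x, hρ x⟩ : Fin 4)) (swap x y) := by
  rcases lt_trichotomy (pos u ρ κ x) (pos u ρ κ y) with h | h | h
  · exact SR_swap hodd hT hρ (pos u ρ κ y) x y hu hκ h (by omega)
  · exact absurd ((isPath_pos hT).1 (by simp [hu, h])) hxy
  · rw [swap_comm]
    exact SR_swap hodd hT hρ (pos u ρ κ x) y x hu.symm hκ.symm h (by omega)

theorem SR_all {u ρ κ : Word X} (hodd : ∀ x, Odd (bsize u x)) (hT : IsTab u ρ κ)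
    (hρ : ∀ x, ρ x < 4) : ∀ (k : ℕ) (c : Perm X), c.support.card ≤ k → InC u κ c →
      SR u κ (pos u ρ κ) (fun x => (⟨ρ x, hρ x⟩ : Fin 4)) c := by
  intro k
  induction k with
  | zero =>
    intro c hc _ d _
    have : c = 1 := by
      rw [Nat.le_zero, Finset.card_eq_zero, Perm.support_eq_empty_iff] at hc
      exact hc
    subst this
    simp
  | succ k ih =>
    intro c hc hC
    by_cases h1 : c = 1
    · subst h1
      intro d _
      simp
    · obtain ⟨x, hx⟩ : ∃ x, c x ≠ x := by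
        by_contra hcon
        push Not at hcon
        exact h1 (Perm.ext hcon)
      have hu : u x = u (c x) := (congrFun hC.1 x).symm
      have hκ : κ x = κ (c x) := (congrFun hC.2 x).symm
      have hlt := Perm.card_support_swap_mul hx
      have hC' : InC u κ (swap x (c x) * c) := InC_mul (InC_swap hu hκ) hC
      have s1 := ih (swap x (c x) * c) (by omega) hC'
      have s2 := SR_swap' hodd hT hρ x (c x) hu hκ (Ne.symm hx)
      have e : c = swap x (c x) * (swap x (c x) * c) := by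
        rw [← mul_assoc, swap_mul_self, one_mul]
      rw [e]
      exact SR_mul (InC_swap hu hκ) s2 s1

/-- Evaluation functional. -/
noncomputable def om (ρ₄ : X → Fin 4) : FF X →ₗ[ℂ] ℂ where
  toFun F := ∑ b : X → Fin 2, ∑ b' : X → Fin 2, F b b' * ∏ x, ((Mq (ρ₄ x) (b x) (b' x) : ℤ) : ℂ)
  map_add' F G := by
    simp only [Pi.add_apply, add_mul, Finset.sum_add_distrib]
  map_smul' a F := by
    simp only [Pi.smul_apply, smul_eq_mul, Finset.mul_sum, mul_assoc, RingHom.id_apply]

theorem om_frep (ρ₄ : X → Fin 4) (h : Perm X) (F : FF X) :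
    om ρ₄ (frep X h F) = om (ρ₄ ∘ h) F := by
  simp only [om, LinearMap.coe_mk, AddHom.coe_mk, frep_apply]
  refine Fintype.sum_equiv (Equiv.arrowCongr h⁻¹ (Equiv.refl (Fin 2))) _ _ fun b => ?_
  refine Fintype.sum_equiv (Equiv.arrowCongr h⁻¹ (Equiv.refl (Fin 2))) _ _ fun b' => ?_
  have e : ∀ b : X → Fin 2, (Equiv.arrowCongr h⁻¹ (Equiv.refl (Fin 2))) b = b ∘ h := by
    intro b
    funext x
    simp [Equiv.arrowCongr, Perm.inv_def]
  rw [e, e]
  congr 1
  refine (Fintype.prod_equiv h _ _ fun x => ?_).symm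
  simp

theorem om_zpC (u p : Word X) (ρ₄ : X → Fin 4) :
    om ρ₄ (zpC u p) = ((Phi u p ρ₄ : ℤ) : ℂ) := by
  simp only [om, LinearMap.coe_mk, AddHom.coe_mk, zpC, Phi]
  push_cast
  rfl

end Evz

/-- PROOF. Number each block of `u` lexicographically by `(κ, ρ)`: `p x` = number of `y` in the block of `x`
with `(κ y, ρ y) < (κ x, ρ x)`; the columns are intervals. Let `ρ₄ : X → Fin 4` be `ρ`.
The linear functional `ω(F) = ∑_{b,b'} F b b' ∏_x Mq (ρ₄ x) (b x) (b' x)` satisfies
`ω(h F) = ω_{ρ₄ ∘ h}(F)` [with the convention of `frep`; check `h` vs `h⁻¹`], so it is fixed by row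
preserving permutations, and `ω(E z) = |R| ∑_{c} sgn(c) Phi u p (ρ₄ ∘ c^{±1}) = |R| |C| Phi u p ρ₄ ≠ 0`,
because `Phi u p (ρ₄ ∘ c) = sgn(c) Phi u p ρ₄` for column preserving `c`: `c` is a product of swaps of letters of
neighbouring positions inside a column, and `ρ₄` is injective on columns (`Phi_swap`; induct e.g. with
`Equiv.Perm` generated by adjacent transpositions, or on the number of inversions). -/
theorem exists_path_YE_ne {u ρ κ : Word X} (hodd : ∀ x, Odd (bsize u x))
    (hT : IsTab u ρ κ) (hρ : ∀ x, ρ x < 4) :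
    ∃ p, IsPath u p ∧ (frepH u).asAlgebraHom (YE u ρ κ) (zpC u p) ≠ 0 := by
  refine ⟨Evz.pos u ρ κ, Evz.isPath_pos hT, ?_⟩
  intro h0
  set ρ₄ : X → Fin 4 := fun x => (⟨ρ x, hρ x⟩ : Fin 4) with hρ₄
  have h1 := congrArg (Evz.om ρ₄) h0
  rw [map_zero] at h1
  unfold YE at h1
  simp only [map_sum, map_smul, Representation.asAlgebraHom_of, LinearMap.sum_apply,
    LinearMap.smul_apply, smul_eq_mul] at h1
  have hterm : ∀ r ∈ (univ : Finset (Hs u)).filter (fun r : Hs u => ρ ∘ (r : Perm X) = ρ),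
      ∀ c ∈ (univ : Finset (Hs u)).filter (fun c : Hs u => κ ∘ (c : Perm X) = κ),
      (((Perm.sign (c : Perm X) : ℤˣ) : ℤ) : ℂ) *
        Evz.om ρ₄ ((frepH u) (r * c) (zpC u (Evz.pos u ρ κ))) =
      ((Phi u (Evz.pos u ρ κ) ρ₄ : ℤ) : ℂ) := by
    intro r hr c hc
    rw [Finset.mem_filter] at hr hc
    have e1 : (frepH u) (r * c) (zpC u (Evz.pos u ρ κ)) =
        frep X ((r : Perm X) * (c : Perm X)) (zpC u (Evz.pos u ρ κ)) := rfl
    rw [e1, Evz.om_frep, Evz.om_zpC]
    have e2 : ρ₄ ∘ ((r : Perm X) * (c : Perm X) : Perm X) = ρ₄ ∘ (c : Perm X) := by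
      funext x
      simp only [Function.comp_apply, Perm.mul_apply, hρ₄, Fin.mk.injEq]
      exact congrFun hr.2 ((c : Perm X) x)
    rw [e2]
    have hInC : Evz.InC u κ (c : Perm X) := ⟨c.2, hc.2⟩
    have h2 := Evz.SR_all hodd hT hρ _ (c : Perm X) le_rfl hInC 1 ⟨rfl, rfl⟩
    simp only [Perm.coe_one, Function.id_comp, Function.comp_id] at h2
    rw [← hρ₄] at h2
    rw [h2]
    push_cast
    rw [← mul_assoc]
    have h3 : (((Perm.sign (c : Perm X) : ℤˣ) : ℤ) : ℂ) *
        (((Perm.sign (c : Perm X) : ℤˣ) : ℤ) : ℂ) = 1 := by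
      have := Int.units_mul_self (Perm.sign (c : Perm X))
      have h4 : ((Perm.sign (c : Perm X) : ℤˣ) : ℤ) * ((Perm.sign (c : Perm X) : ℤˣ) : ℤ) = 1 := by
        rw [← Units.val_mul, this]; rfl
      exact_mod_cast h4
    rw [h3, one_mul]
  rw [Finset.sum_congr rfl fun r hr => Finset.sum_congr rfl fun c hc => hterm r hr c hc] at h1
  simp only [Finset.sum_const, nsmul_eq_mul] at h1
  have hne : Phi u (Evz.pos u ρ κ) ρ₄ ≠ 0 := Phi_ne_zero hodd (Evz.isPath_pos hT) ρ₄
  have hR : ((univ : Finset (Hs u)).filter (fun r : Hs u => ρ ∘ (r : Perm X) = ρ)).card ≠ 0 := by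
    rw [Finset.card_ne_zero]
    exact ⟨1, by simp⟩
  have hC : ((univ : Finset (Hs u)).filter (fun c : Hs u => κ ∘ (c : Perm X) = κ)).card ≠ 0 := by
    rw [Finset.card_ne_zero]
    exact ⟨1, by simp⟩
  rcases mul_eq_zero.1 h1 with h | h
  · exact hR (by exact_mod_cast h)
  · rcases mul_eq_zero.1 h with h | h
    · exact hC (by exact_mod_cast h)
    · exact hne (by exact_mod_cast h)

end Crest.Agent.Saxl
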