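import Crest.Agent.Saxl.Defs

/-!
CHUNK NAKA (easy).
-/

set_option autoImplicit false

namespace Crest.Agent.Saxl

open Finset Equiv

variable {X : Type} [Fintype X] [DecidableEq X]

/-- 2-adic Nakayama for a finite group. PROOF: `S = closure {σ g w}` is a finitely generated torsion-free abelian
group; `w ∈ 2S` gives `S = 2S` (`S` is stable under `σ g`), so `S` is divisible by all `2^n`; a finitely
generated free abelian group `S` with `S = 2S` is zero. -/
theorem naka {G : Type} [Group G] [Finite G] {W : Type} [AddCommGroup W] [Module ℂ W]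
    (σ : Representation ℂ G W) (w : W)
    (h : ∃ s ∈ AddSubgroup.closure (Set.range fun g : G => σ g w), w = s + s) : w = 0 := by
  obtain ⟨s, hs, hw⟩ := h
  set N : Submodule ℤ W := Submodule.span ℤ (Set.range fun g : G => σ g w) with hN
  have hmem : ∀ x, x ∈ N ↔ x ∈ AddSubgroup.closure (Set.range fun g : G => σ g w) := by
    intro x
    rw [hN, ← Submodule.span_int_eq_addSubgroupClosure]
    rfl
  have hstable : ∀ g : G, ∀ x ∈ N, σ g x ∈ N := by
    intro g x hx
    induction hx using Submodule.span_induction with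
    | mem x hx =>
      obtain ⟨g', rfl⟩ := hx
      refine Submodule.subset_span ⟨g * g', ?_⟩
      simp [map_mul]
    | zero => simp
    | add x y _ _ hx hy => rw [map_add]; exact N.add_mem hx hy
    | smul a x _ hx =>
      rw [map_zsmul]
      exact N.smul_mem a hx
  have hfg : N.FG := Submodule.fg_span (Set.finite_range _)
  have hle : N ≤ (Ideal.span {(2 : ℤ)}) • N := by
    rw [hN, Submodule.span_le]
    rintro _ ⟨g, rfl⟩
    have h1 : σ g w = (2 : ℤ) • σ g s := by
      conv_lhs => rw [hw]
      rw [map_add, two_smul]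
    show σ g w ∈ (Ideal.span {(2 : ℤ)}) • N
    rw [h1]
    exact Submodule.smul_mem_smul (Ideal.subset_span rfl) (hstable g s ((hmem s).2 hs))
  obtain ⟨r, hr, hr2⟩ := Submodule.exists_sub_one_mem_and_smul_eq_zero_of_fg_of_le_smul _ _ hfg hle
  have hwN : w ∈ N := Submodule.subset_span ⟨1, by simp⟩
  have h0 := hr2 w hwN
  have hr0 : (r : ℂ) ≠ 0 := by
    intro h00
    have : r = 0 := by exact_mod_cast h00
    subst this
    rw [Ideal.mem_span_singleton] at hr
    omega
  have h1 : (r : ℂ) • w = 0 := by
    rw [Int.cast_smul_eq_zsmul]; exact h0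
  exact (smul_eq_zero.1 h1).resolve_left hr0

end Crest.Agent.Saxl
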