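import Crest.Agent.Saxl.Defs

/-!
CHUNK YS (medium).
-/

set_option autoImplicit false

namespace Crest.Agent.Saxl

open Finset Equiv

variable {X : Type} [Fintype X] [DecidableEq X]

/-- Module version of `exists_intertwiner`. -/
theorem ys_module {A M N : Type} [Ring A] [Algebra ℂ A] [AddCommGroup M] [Module A M] [Module ℂ M]
    [IsScalarTower ℂ A M] [AddCommGroup N] [Module A N] [Module ℂ N] [IsScalarTower ℂ A N]
    [IsSemisimpleModule A M] [IsSemisimpleModule A N]
    (E : A) (hE : ∀ a : A, ∃ z : ℂ, E * a * E = z • E) (γ : ℂ) (hγ : γ ≠ 0) (hE2 : E * E = γ • E)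
    (v : M) (w : N) (hv : E • v ≠ 0) (hw : E • w ≠ 0) :
    ∃ f : M →ₗ[A] N, f v ≠ 0 := by
  set φv : A →ₗ[A] M := LinearMap.toSpanSingleton A M (E • v) with hφv
  set φw : A →ₗ[A] N := LinearMap.toSpanSingleton A N (E • w) with hφw
  have hker : LinearMap.ker φv ≤ LinearMap.ker φw := by
    intro a ha
    rw [LinearMap.mem_ker, hφv, LinearMap.toSpanSingleton_apply] at ha
    rw [LinearMap.mem_ker, hφw, LinearMap.toSpanSingleton_apply]
    by_contra hne
    obtain ⟨q, hq⟩ := exists_isCompl (Submodule.span A {a • (E • w)})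
    have hex : ∃ y ∈ Submodule.span A {a • (E • w)}, E • y ≠ 0 := by
      by_contra hall
      push Not at hall
      have hmem : E • w ∈ Submodule.span A {a • (E • w)} ⊔ q := by
        rw [hq.sup_eq_top]; exact Submodule.mem_top
      obtain ⟨y1, hy1, y2, hy2, h12⟩ := Submodule.mem_sup.1 hmem
      have h1 : E • (E • w) = E • y2 := by rw [← h12, smul_add, hall y1 hy1, zero_add]
      have h2 : γ • (E • w) ∈ q := by
        have e : γ • (E • w) = E • (E • w) := by
          rw [← mul_smul E E w, hE2, smul_assoc]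
        rw [e, h1]
        exact q.smul_mem _ hy2
      have h3 : E • w ∈ q := by
        have e : E • w = (algebraMap ℂ A γ⁻¹) • (γ • (E • w)) := by
          rw [algebraMap_smul, smul_smul, inv_mul_cancel₀ hγ, one_smul]
        rw [e]
        exact q.smul_mem _ h2
      have h4 : a • (E • w) ∈ Submodule.span A {a • (E • w)} ⊓ q :=
        ⟨Submodule.mem_span_singleton_self _, q.smul_mem _ h3⟩
      rw [hq.inf_eq_bot] at h4
      exact hne ((Submodule.mem_bot A).1 h4)
    obtain ⟨y, hy, hy0⟩ := hex
    obtain ⟨b, rfl⟩ := Submodule.mem_span_singleton.1 hy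
    obtain ⟨z, hz⟩ := hE (b * a)
    have e1 : E • (b • (a • (E • w))) = z • (E • w) := by
      rw [← smul_assoc z E w, ← hz]
      simp only [mul_smul]
    have e2 : E • (b • (a • (E • v))) = z • (E • v) := by
      rw [← smul_assoc z E v, ← hz]
      simp only [mul_smul]
    rw [ha, smul_zero, smul_zero] at e2
    have hz0 : z = 0 := by
      rcases smul_eq_zero.1 e2.symm with h | h
      · exact h
      · exact absurd h hv
    apply hy0
    rw [e1, hz0, zero_smul]
  obtain ⟨h, hh⟩ := IsSemisimpleModule.extension_property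
    ((LinearMap.ker φv).liftQ φv le_rfl)
    (LinearMap.ker_eq_bot.1 (Submodule.ker_liftQ_eq_bot _ _ _ le_rfl))
    ((LinearMap.ker φv).liftQ φw hker)
  refine ⟨h, fun h0 => hw ?_⟩
  have e1 : h (E • v) = E • w := by
    have h1 := LinearMap.congr_fun hh (Submodule.Quotient.mk (1 : A))
    simp only [LinearMap.comp_apply, Submodule.liftQ_apply, hφv, hφw,
      LinearMap.toSpanSingleton_apply, one_smul] at h1
    exact h1
  rw [← e1, map_smul, h0, smul_zero]

/-- If `E` is a primitive quasi-idempotent acting nonzero on `v ∈ V` and on `w ∈ W`, there is an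
intertwiner `V → W` not killing `v`.
PROOF. `V₀ := ℂG·Ev ⊆ V`. The annihilators of `E v` and of `E w` in the left ideal `ℂG E` agree: the left ideal
`ℂG E` is simple (a nonzero `x E` has `E a x E ≠ 0` for some `a`: otherwise `(ℂG x E)² = ℂG x (E ℂG x E) = 0`,
a nilpotent left ideal, impossible by Maschke; so `E` is a multiple of `E a x E`). So the maps
`ℂG E → V, x E ↦ x E v` and `ℂG E → W, x E ↦ x E w` are injective (`γ` used to write `E v = γ⁻¹ E (E v)`),
which gives an intertwiner `V₀ → W`, `x E v ↦ x E w`; extend it to `V` by a `G`-equivariant projection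
`V → V₀` (Maschke). Then `f (E v) = E w ≠ 0`, so `f v ≠ 0` because `f (E v) = E (f v)`. -/
theorem exists_intertwiner {G : Type} [Group G] [Finite G] {V W : Type}
    [AddCommGroup V] [Module ℂ V] [AddCommGroup W] [Module ℂ W]
    (E : MonoidAlgebra ℂ G) (hE : ∀ a : MonoidAlgebra ℂ G, ∃ z : ℂ, E * a * E = z • E)
    (γ : ℂ) (hγ : γ ≠ 0) (hE2 : E * E = γ • E)
    (τ : Representation ℂ G V) (σ : Representation ℂ G W) (v : V) (w : W)
    (hv : τ.asAlgebraHom E v ≠ 0) (hw : σ.asAlgebraHom E w ≠ 0) :
    ∃ f : V →ₗ[ℂ] W, (∀ (g : G) (x : V), f (τ g x) = σ g (f x)) ∧ f v ≠ 0 := by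
  have : NeZero (Nat.card G : ℂ) := ⟨by
    rw [Nat.cast_ne_zero]
    exact Nat.card_pos.ne'⟩
  have hv' : E • (τ.asModuleEquiv.symm v) ≠ 0 := by
    intro h
    apply hv
    have h1 := congrArg τ.asModuleEquiv h
    rw [Representation.asModuleEquiv_map_smul, map_zero, LinearEquiv.apply_symm_apply] at h1
    exact h1
  have hw' : E • (σ.asModuleEquiv.symm w) ≠ 0 := by
    intro h
    apply hw
    have h1 := congrArg σ.asModuleEquiv h
    rw [Representation.asModuleEquiv_map_smul, map_zero, LinearEquiv.apply_symm_apply] at h1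
    exact h1
  obtain ⟨f, hf⟩ := ys_module E hE γ hγ hE2 (τ.asModuleEquiv.symm v) (σ.asModuleEquiv.symm w) hv' hw'
  refine ⟨σ.asModuleEquiv.toLinearMap ∘ₗ (f.restrictScalars ℂ) ∘ₗ τ.asModuleEquiv.symm.toLinearMap,
    ?_, ?_⟩
  · intro g x
    simp only [LinearMap.comp_apply, LinearEquiv.coe_coe, LinearMap.restrictScalars_apply]
    rw [Representation.asModuleEquiv_symm_map_rho, map_smul, Representation.asModuleEquiv_map_smul,
      Representation.asAlgebraHom_of]
  · simp only [LinearMap.comp_apply, LinearEquiv.coe_coe, LinearMap.restrictScalars_apply]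
    intro h
    apply hf
    exact (LinearEquiv.map_eq_zero_iff _).1 h

end Crest.Agent.Saxl
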