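import Crest.Agent.Saxl.Dk
import Crest.Agent.Saxl.YS
import Crest.Agent.Saxl.Evz
import Crest.Agent.Saxl.Young

/-!
CHUNK PSI (easy assembly).
-/

set_option autoImplicit false

namespace Crest.Agent.Saxl

open Finset Equiv

variable {X : Type} [Fintype X] [DecidableEq X]

/-- PROOF. `exists_twisted` gives `ε, ρ, κ, w`; `exists_path_YE_ne` gives `p₀` with `E zpC ≠ 0`;
`exists_intertwiner` for `G = Hs u`, `E = YE u ρ κ` (`YE_sandwich`, `YE_sq`), `V = FF X`, `W` twisted gives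
`ψ` with `ψ (h F) = ε(h) σ(h) ψ(F)` and `ψ (zpC u p₀) ≠ 0`. For another `p`: `path_conj`, `zp_comp` give
`zpC u p = frep h (zpC u p₀)` for some `h` preserving `u`, so `ψ (zpC u p) = ± σ(h) ψ(zpC u p₀) ≠ 0`. -/
theorem psi_exists {k : ℕ} (hX : Fintype.card X = k * (k + 1) / 2) {u : Word X}
    (hu : IsStrip k u) {W : Type} [AddCommGroup W] [Module ℂ W] [Nontrivial W]
    (σ : Representation ℂ (Perm X) W) :
    ∃ (ε : Perm X → ℤˣ) (ψ : FF X →ₗ[ℂ] W),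
      (∀ h : Perm X, u ∘ h = u → ∀ F, ψ (frep X h F) = (((ε h : ℤˣ) : ℤ) : ℂ) • σ h (ψ F)) ∧
      ∀ p, IsPath u p → ψ (zpC u p) ≠ 0 := by
  classical
  obtain ⟨ε, ρ, κ, hT, hρ, w, hw⟩ := exists_twisted k X hX u hu W σ
  obtain ⟨p₀, hp₀, hz⟩ := exists_path_YE_ne (fun x => hu.odd x) hT hρ
  obtain ⟨γ, hγ, hE2⟩ := YE_sq hT
  obtain ⟨f, hf, hf0⟩ := exists_intertwiner (YE u ρ κ) (YE_sandwich hT) γ hγ hE2
    (frepH u) (twist σ u ε) (zpC u p₀) w hz hw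
  refine ⟨fun h => if hh : u ∘ h = u then ε ⟨h, hh⟩ else 1, f, ?_, ?_⟩
  · intro h hh F
    have h1 := hf ⟨h, hh⟩ F
    have h2 : frepH u ⟨h, hh⟩ F = frep X h F := rfl
    rw [h2] at h1
    have h3 : (if hh : u ∘ h = u then ε ⟨h, hh⟩ else 1) = ε ⟨h, hh⟩ := dif_pos hh
    show f (frep X h F) =
      ((((if hh : u ∘ h = u then ε ⟨h, hh⟩ else 1 : ℤˣ)) : ℤ) : ℂ) • σ h (f F)
    rw [h3]
    exact h1
  · intro p hp hzero
    obtain ⟨h, hh, hph⟩ := path_conj hp hp₀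
    have hhi : u ∘ (h⁻¹ : Perm X) = u := (Hs u).inv_mem (x := h) hh
    have e1 : zpC u p = frep X h⁻¹ (zpC u p₀) := by
      funext b b'
      rw [frep_apply]
      unfold zpC
      rw [zp_comp h⁻¹ hhi, inv_inv, hph]
    have h1 := hf ⟨h⁻¹, hhi⟩ (zpC u p₀)
    have h2 : frepH u ⟨h⁻¹, hhi⟩ (zpC u p₀) = frep X h⁻¹ (zpC u p₀) := rfl
    rw [h2, ← e1, hzero] at h1
    have h3 : (0 : W) = (((ε ⟨h⁻¹, hhi⟩ : ℤˣ) : ℤ) : ℂ) • σ h⁻¹ (f (zpC u p₀)) := h1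
    have h4 : (((ε ⟨h⁻¹, hhi⟩ : ℤˣ) : ℤ) : ℂ) ≠ 0 := by
      exact_mod_cast (ε ⟨h⁻¹, hhi⟩).ne_zero
    have h5 : σ h⁻¹ (f (zpC u p₀)) = 0 := (smul_eq_zero.1 h3.symm).resolve_left h4
    apply hf0
    have h6 : σ h (σ h⁻¹ (f (zpC u p₀))) = f (zpC u p₀) := by
      rw [← Module.End.mul_apply, ← map_mul, mul_inv_cancel, map_one, Module.End.one_apply]
    rw [← h6, h5, map_zero]

end Crest.Agent.Saxl
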