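import Crest.Agent.Saxl.GlueA
import Crest.Agent.Saxl.Codd
import Crest.Agent.Saxl.Naka
import Crest.Agent.Saxl.Psi

/-!
CHUNK GLUE (medium; final argument of the gluing, everything imported is a black box).
-/

set_option autoImplicit false

namespace Crest.Agent.Saxl

open Finset Equiv

variable {X : Type} [Fintype X] [DecidableEq X]

section aux

variable {W : Type} [AddCommGroup W] [Module ℂ W]

theorem f0_add_left (k : ℕ) (u₀ : Word X) (σ : Representation ℂ (Perm X) W) (ψ : FF X →ₗ[ℂ] W)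
    (x x' y : Word X → ℂ) :
    f0 k u₀ σ ψ (x + x') y = f0 k u₀ σ ψ x y + f0 k u₀ σ ψ x' y := by
  unfold f0
  rw [← Finset.sum_add_distrib]
  refine Finset.sum_congr rfl fun u _ => ?_
  rw [← map_add, ← map_add]
  congr 2
  funext b b'
  simp only [res, act, Pi.add_apply, add_mul]

theorem f0_add_right (k : ℕ) (u₀ : Word X) (σ : Representation ℂ (Perm X) W) (ψ : FF X →ₗ[ℂ] W)
    (x y y' : Word X → ℂ) :
    f0 k u₀ σ ψ x (y + y') = f0 k u₀ σ ψ x y + f0 k u₀ σ ψ x y' := by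
  unfold f0
  rw [← Finset.sum_add_distrib]
  refine Finset.sum_congr rfl fun u _ => ?_
  rw [← map_add, ← map_add]
  congr 2
  funext b b'
  simp only [res, act, Pi.add_apply, mul_add]

theorem f0_smul_left (k : ℕ) (u₀ : Word X) (σ : Representation ℂ (Perm X) W) (ψ : FF X →ₗ[ℂ] W)
    (c : ℂ) (x y : Word X → ℂ) :
    f0 k u₀ σ ψ (c • x) y = c • f0 k u₀ σ ψ x y := by
  unfold f0
  rw [Finset.smul_sum]
  refine Finset.sum_congr rfl fun u _ => ?_
  rw [← map_smul, ← map_smul]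
  congr 2
  funext b b'
  simp only [res, act, Pi.smul_apply, smul_eq_mul, mul_assoc]

theorem f0_smul_right (k : ℕ) (u₀ : Word X) (σ : Representation ℂ (Perm X) W) (ψ : FF X →ₗ[ℂ] W)
    (c : ℂ) (x y : Word X → ℂ) :
    f0 k u₀ σ ψ x (c • y) = c • f0 k u₀ σ ψ x y := by
  unfold f0
  rw [Finset.smul_sum]
  refine Finset.sum_congr rfl fun u _ => ?_
  rw [← map_smul, ← map_smul]
  congr 2
  funext b b'
  simp only [res, act, Pi.smul_apply, smul_eq_mul]
  ring

theorem f0_zero_left (k : ℕ) (u₀ : Word X) (σ : Representation ℂ (Perm X) W) (ψ : FF X →ₗ[ℂ] W)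
    (y : Word X → ℂ) : f0 k u₀ σ ψ 0 y = 0 := by
  have := f0_smul_left k u₀ σ ψ 0 0 y
  simpa using this

theorem f0_sum_left {ι : Type*} (s : Finset ι) (k : ℕ) (u₀ : Word X)
    (σ : Representation ℂ (Perm X) W) (ψ : FF X →ₗ[ℂ] W)
    (c : ι → ℂ) (x : ι → Word X → ℂ) (y : Word X → ℂ) :
    f0 k u₀ σ ψ (∑ i ∈ s, c i • x i) y = ∑ i ∈ s, c i • f0 k u₀ σ ψ (x i) y := by
  classical
  induction s using Finset.induction_on with
  | empty => simp [f0_zero_left]
  | insert a s ha ih =>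
    rw [Finset.sum_insert ha, Finset.sum_insert ha, f0_add_left, f0_smul_left, ih]

theorem pair_add_right {k : ℕ} (f h h' : Word X → ℂ) :
    pair k f (h + h') = pair k f h + pair k f h' := by
  simp only [pair, Pi.add_apply, mul_add, Finset.sum_add_distrib]

theorem pair_smul_right {k : ℕ} (c : ℂ) (f h : Word X → ℂ) :
    pair k f (c • h) = c * pair k f h := by
  simp only [pair, Pi.smul_apply, smul_eq_mul, Finset.mul_sum]
  refine Finset.sum_congr rfl fun Y _ => ?_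
  ring

theorem pair_act {k : ℕ} (g : Perm X) (f h : Word X → ℂ) :
    pair k (act g f) (act g h) = pair k f h := by
  unfold pair act
  refine Finset.sum_bij' (fun Y _ => Y ∘ g) (fun Y _ => Y ∘ (g⁻¹ : Perm X)) ?_ ?_ ?_ ?_ ?_
  · intro Y hY
    rw [mem_Wd] at hY ⊢
    exact fun x => hY _
  · intro Y hY
    rw [mem_Wd] at hY ⊢
    exact fun x => hY _
  · intro Y _
    funext x
    simp
  · intro Y _
    funext x
    simp
  · intro Y _
    rfl

/-- The bilinear map. -/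
noncomputable def glueF (k : ℕ) (u₀ : Word X) (σ : Representation ℂ (Perm X) W)
    (ψ : FF X →ₗ[ℂ] W) (eA eB : Word X → ℂ) :
    (Word X → ℂ) →ₗ[ℂ] (Word X → ℂ) →ₗ[ℂ] W :=
  LinearMap.mk₂ ℂ (fun x y => ∑ g : Perm X,
      pair k (act g eB) x • σ g (f0 k u₀ σ ψ eA (act g⁻¹ y)))
    (by
      intro x x' y
      rw [← Finset.sum_add_distrib]
      refine Finset.sum_congr rfl fun g _ => ?_
      rw [pair_add_right, add_smul])
    (by
      intro c x y
      rw [Finset.smul_sum]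
      refine Finset.sum_congr rfl fun g _ => ?_
      rw [pair_smul_right, mul_smul])
    (by
      intro x y y'
      rw [← Finset.sum_add_distrib]
      refine Finset.sum_congr rfl fun g _ => ?_
      rw [← smul_add, ← map_add, ← f0_add_right]
      rfl)
    (by
      intro c x y
      rw [Finset.smul_sum]
      refine Finset.sum_congr rfl fun g _ => ?_
      have : act g⁻¹ (c • y) = c • act g⁻¹ y := rfl
      rw [this, f0_smul_right, map_smul, smul_comm])

theorem glueF_apply (k : ℕ) (u₀ : Word X) (σ : Representation ℂ (Perm X) W)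
    (ψ : FF X →ₗ[ℂ] W) (eA eB x y : Word X → ℂ) :
    glueF k u₀ σ ψ eA eB x y = ∑ g : Perm X,
      pair k (act g eB) x • σ g (f0 k u₀ σ ψ eA (act g⁻¹ y)) := rfl

theorem glueF_equiv (k : ℕ) (u₀ : Word X) (σ : Representation ℂ (Perm X) W)
    (ψ : FF X →ₗ[ℂ] W) (eA eB : Word X → ℂ) (h : Perm X) (x y : Word X → ℂ) :
    glueF k u₀ σ ψ eA eB (act h x) (act h y) = σ h (glueF k u₀ σ ψ eA eB x y) := by
  rw [glueF_apply, glueF_apply, map_sum, ← Equiv.sum_comp (Equiv.mulLeft h)]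
  refine Finset.sum_congr rfl fun g _ => ?_
  simp only [Equiv.coe_mulLeft]
  rw [act_mul, pair_act, map_smul]
  congr 1
  have h1 : act (h * g)⁻¹ (act h y) = act g⁻¹ y := by
    rw [← act_mul]
    congr 1
    group
  rw [h1, map_mul]
  rfl

end aux

/-- MAIN GLUING THEOREM.
PROOF. `u₀ := uAB k A B` (`isStrip_uAB`), `psi_exists`, `p₀` from `exists_path`, `w₀ = ψ(zpC u₀ p₀) ≠ 0`,
`L = LZ σ w₀`. Define
`F(x,y) = ∑_g <g e_B, x> σ(g) f₀(e_A, g⁻¹ y)` (`pair k (toC ..)`), bilinear, and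
`F(hx,hy) = σ(h) F(x,y)` by reindexing `g ↦ h g`. By `f0_equiv` (with `g e_A`, `e_B`), modulo `2L`:
`F(e_A,e_B) = ∑_g <g e_B, e_A> σ(g) f₀(e_A, g⁻¹ e_B) ≡ ∑_g <g e_B, e_A> f₀(g e_A, e_B)
= f₀(∑_g <g e_B,e_A> g e_A, e_B) = c f₀(e_A,e_B)`, `c` odd (`exists_odd_coeff`), the coefficients
`<g e_B,e_A>` are integers. And `f₀(e_A,e_B) = ± σ(g₁) w₀ =: w₁`, `L = ℤG w₁`. If `F(e_A,e_B) = 0` then
`w₁ ∈ 2L`, so `w₁ = 0` by `naka`, contradiction. -/
theorem exists_bilin {k : ℕ} (hX : Fintype.card X = k * (k + 1) / 2) {A B : Word X}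
    (hAB : Perp k A B) {W : Type} [AddCommGroup W] [Module ℂ W] [Nontrivial W]
    (σ : Representation ℂ (Perm X) W) :
    ∃ F : (Word X → ℂ) →ₗ[ℂ] (Word X → ℂ) →ₗ[ℂ] W,
      (∀ (g : Perm X) (x y : Word X → ℂ), F (act g x) (act g y) = σ g (F x y)) ∧
      F (toC (pt A B)) (toC (pt B A)) ≠ 0 := by
  have hu₀ := isStrip_uAB hX hAB
  set u₀ := uAB k A B with hu₀def
  obtain ⟨ε, ψ, hψ, hne⟩ := psi_exists hX hu₀ σ
  obtain ⟨p₀, hp₀⟩ := exists_path u₀
  have hw₀ := hne p₀ hp₀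
  refine ⟨glueF k u₀ σ ψ (toC (pt A B)) (toC (pt B A)), fun g x y => glueF_equiv _ _ _ _ _ _ _ _ _,
    ?_⟩
  intro hF
  set w₀ := ψ (zpC u₀ p₀) with hw₀def
  have hA : toC (pt A B) ∈ VZ k X := AddSubgroup.subset_closure ⟨A, B, hAB, rfl⟩
  have hB : ∀ g : Perm X, act g⁻¹ (toC (pt B A)) ∈ VZ k X := by
    intro g
    refine AddSubgroup.subset_closure ⟨B ∘ g, A ∘ g, hAB.symm.comp g, ?_⟩
    have := act_pt B A g⁻¹
    rw [inv_inv] at this
    rw [← this]
    rfl
  -- the error terms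
  have hs := fun g : Perm X => f0_equiv hX hu₀ hp₀ σ ψ ε hψ g hA (hB g)
  choose s hsL hs using hs
  obtain ⟨c, hc, hcY⟩ := exists_odd_coeff hX hAB
  set cg : Perm X → ℤ := fun g => pair k (act g (pt B A)) (pt A B) with hcg
  have hcast : ∀ g : Perm X, pair k (act g (toC (pt B A))) (toC (pt A B)) = ((cg g : ℤ) : ℂ) := by
    intro g
    simp only [hcg, pair, act, toC]
    push_cast
    rfl
  set w₁ := f0 k u₀ σ ψ (toC (pt A B)) (toC (pt B A)) with hw₁
  have hsum : (∑ g : Perm X, ((cg g : ℤ) : ℂ) • act g (toC (pt A B))) =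
      ((c : ℤ) : ℂ) • toC (pt A B) := by
    funext Y
    have := hcY Y
    simp only [Finset.sum_apply, Pi.smul_apply, smul_eq_mul, toC, act]
    rw [← Int.cast_mul, ← this]
    push_cast
    rfl
  set S : W := ∑ g : Perm X, cg g • s g with hS
  have hSL : S ∈ LZ σ w₀ := AddSubgroup.sum_mem _ fun g _ => AddSubgroup.zsmul_mem _ (hsL g) _
  have hval : glueF k u₀ σ ψ (toC (pt A B)) (toC (pt B A)) (toC (pt A B)) (toC (pt B A)) =
      c • w₁ - (S + S) := by
    rw [glueF_apply]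
    have h1 : ∀ g : Perm X, pair k (act g (toC (pt B A))) (toC (pt A B)) •
        σ g (f0 k u₀ σ ψ (toC (pt A B)) (act g⁻¹ (toC (pt B A)))) =
        ((cg g : ℤ) : ℂ) • f0 k u₀ σ ψ (act g (toC (pt A B))) (toC (pt B A)) -
          (cg g • s g + cg g • s g) := by
      intro g
      have h2 := hs g
      rw [← act_mul, mul_inv_cancel, act_one] at h2
      rw [hcast, h2, ← Int.cast_smul_eq_zsmul ℂ (cg g) (s g), ← smul_add, ← smul_sub]
      congr 1
      abel
    simp only [h1]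
    rw [Finset.sum_sub_distrib, ← f0_sum_left, hsum, f0_smul_left, Finset.sum_add_distrib,
      Int.cast_smul_eq_zsmul]
  rw [hval] at hF
  have hw₁L : w₁ ∈ LZ σ w₀ := by
    have := f0_mem hX hu₀ hp₀ σ ψ ε hψ hA (by simpa [act_one] using hB 1)
    exact this
  obtain ⟨g₁, hg₁⟩ := f0_value hX hAB hu₀ hp₀ σ ψ ε hψ
  rw [← hw₁, ← hw₀def] at hg₁
  have hLL : LZ σ w₀ ≤ AddSubgroup.closure (Set.range fun g : Perm X => σ g w₁) := by
    refine (AddSubgroup.closure_le _).2 ?_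
    rintro _ ⟨g, rfl⟩
    have hmem : σ (g * g₁⁻¹) w₁ ∈ AddSubgroup.closure (Set.range fun g : Perm X => σ g w₁) :=
      AddSubgroup.subset_closure ⟨_, rfl⟩
    have h3 : σ (g * g₁⁻¹) (σ g₁ w₀) = σ g w₀ := by
      rw [← Module.End.mul_apply, ← map_mul]
      congr 2
      group
    rcases hg₁ with h | h
    · have h7 : σ (g * g₁⁻¹) w₁ = σ g w₀ := by rw [h, h3]
      rw [h7] at hmem
      exact hmem
    · have h7 : σ (g * g₁⁻¹) w₁ = -σ g w₀ := by rw [h, map_neg, h3]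
      rw [h7] at hmem
      exact (AddSubgroup.neg_mem_iff _).1 hmem
  have hzero : w₁ = 0 := by
    refine naka σ w₁ ?_
    obtain ⟨d, hd⟩ := hc
    refine ⟨S - d • w₁, hLL (AddSubgroup.sub_mem _ hSL (AddSubgroup.zsmul_mem _ hw₁L _)), ?_⟩
    have h4 : c • w₁ = S + S := sub_eq_zero.1 hF
    rw [hd, add_smul, one_smul, two_mul, add_smul] at h4
    have h5 : w₁ = (S + S) - (d • w₁ + d • w₁) := by
      rw [← h4]; abel
    calc w₁ = (S + S) - (d • w₁ + d • w₁) := h5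
      _ = _ := by abel
  have hw₀z : σ g₁ w₀ = 0 := by
    rcases hg₁ with h | h
    · rw [← h, hzero]
    · rw [hzero] at h
      exact neg_eq_zero.1 h.symm
  apply hw₀
  have h6 : σ g₁⁻¹ (σ g₁ w₀) = w₀ := by
    rw [← Module.End.mul_apply, ← map_mul]
    simp
  rw [← h6, hw₀z, map_zero]

end Crest.Agent.Saxl
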