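import Crest.Agent.Saxl.PathConj

/-!
CHUNK MERGE (medium/hard).
-/

set_option autoImplicit false

namespace Crest.Agent.Saxl

open Finset Equiv

variable {X : Type} [Fintype X] [DecidableEq X]

/-! ### letters connected to the fixed points of `m'` -/

/-- `x` is connected to a fixed point of `m'` in the graph of `m` and `m'`. -/
inductive MGood {X : Type} (m m' : Perm X) : X → Prop
  | base (y : X) (h : m' y = y) : MGood m m' y
  | stepm (x : X) (h : MGood m m' x) : MGood m m' (m x)
  | stepm' (x : X) (h : MGood m m' x) : MGood m m' (m' x)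

/-- the `m`-fixed point of each block is connected to the `m'`-fixed point (parity) -/
theorem mgood_fixed {u : Word X} {m m' : Perm X} {o o' : X → Bool}
    (h : SM u m o) (h' : SM u m' o') (s : X) (hs : m s = s) : MGood m m' s := by
  classical
  by_contra hbad
  set C : Finset X := univ.filter (fun x => u x = u s ∧ MGood m m' x) with hC
  have hmemC : ∀ x, x ∈ C ↔ u x = u s ∧ MGood m m' x := fun x => by simp [hC]
  obtain ⟨t, ⟨ht1, ht2⟩, ht3⟩ := h'.fix s
  have htC : t ∈ C := (hmemC t).2 ⟨ht1, MGood.base t ht2⟩
  obtain ⟨y0, _, hy0⟩ := h.fix s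
  have huniq : ∀ x, u x = u s → m x = x → x = s := fun x hx hx' =>
    (hy0 x ⟨hx, hx'⟩).trans (hy0 s ⟨rfl, hs⟩).symm
  have e1 : ∑ x ∈ C, (1 : ZMod 2) = 0 := by
    refine Finset.sum_involution (fun x _ => m x) ?_ ?_ ?_ ?_
    · intro x _; decide
    · intro x hx _ hfix
      have := huniq x ((hmemC x).1 hx).1 hfix
      exact hbad (this ▸ ((hmemC x).1 hx).2)
    · intro x hx
      exact (hmemC _).2 ⟨(h.pres x).trans ((hmemC x).1 hx).1, MGood.stepm x ((hmemC x).1 hx).2⟩
    · intro x _; exact h.invol x
  have e2 : ∑ x ∈ C.erase t, (1 : ZMod 2) = 0 := by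
    refine Finset.sum_involution (fun x _ => m' x) ?_ ?_ ?_ ?_
    · intro x _; decide
    · intro x hx _ hfix
      have hx' := Finset.mem_erase.1 hx
      exact hx'.1 (ht3 x ⟨((hmemC x).1 hx'.2).1, hfix⟩)
    · intro x hx
      have hx' := Finset.mem_erase.1 hx
      refine Finset.mem_erase.2 ⟨?_, (hmemC _).2
        ⟨(h'.pres x).trans ((hmemC x).1 hx'.2).1, MGood.stepm' x ((hmemC x).1 hx'.2).2⟩⟩
      intro hc
      have : x = m' t := by rw [← hc, h'.invol]
      exact hx'.1 (this.trans ht2)
    · intro x _; exact h'.invol x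
  rw [← Finset.add_sum_erase _ _ htC, e2] at e1
  exact absurd e1 (by decide)

/-! ### the exchange move -/

section exchange
variable {u : Word X} {m : Perm X} {o : X → Bool} {a c s : X}

theorem exch_off (hac : m a = c) (hca : m c = a) (hs : m s = s) {x : X} (h1 : x ≠ a) (h2 : x ≠ c)
    (h3 : x ≠ s) : (swap c s * m * swap c s) x = m x := by
  rw [Perm.mul_apply, Perm.mul_apply, swap_apply_of_ne_of_ne h2 h3, swap_apply_of_ne_of_ne]
  · intro h; exact h1 (m.injective (h.trans hac.symm))
  · intro h; exact h3 (m.injective (h.trans hs.symm))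

theorem exch_a (hac : m a = c) (hne : a ≠ c) (has : a ≠ s) : (swap c s * m * swap c s) a = s := by
  rw [Perm.mul_apply, Perm.mul_apply, swap_apply_of_ne_of_ne hne has, hac, swap_apply_left]

theorem exch_s (hca : m c = a) (hne : a ≠ c) (has : a ≠ s) : (swap c s * m * swap c s) s = a := by
  rw [Perm.mul_apply, Perm.mul_apply, swap_apply_right, hca, swap_apply_of_ne_of_ne hne has]

theorem exch_c (hs : m s = s) : (swap c s * m * swap c s) c = c := by
  rw [Perm.mul_apply, Perm.mul_apply, swap_apply_left, hs, swap_apply_right]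

theorem exch_SM (h : SM u m o) (hac : m a = c) (hca : m c = a) (hne : a ≠ c) (has : a ≠ s)
    (hcs : c ≠ s) (hs : m s = s) (hu : u s = u a) (β : Bool) (ho : o a = !β) :
    SM u (swap c s * m * swap c s) (Function.update o s β) := by
  have huc : u c = u a := by rw [← hac]; exact h.pres a
  have husw : ∀ x, u (swap c s x) = u x := by
    intro x
    rcases eq_or_ne x c with rfl | h1
    · rw [swap_apply_left, hu, huc]
    · rcases eq_or_ne x s with rfl | h2
      · rw [swap_apply_right, hu, huc]
      · rw [swap_apply_of_ne_of_ne h1 h2]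
  refine ⟨?_, ?_, ?_, ?_⟩
  · intro x
    simp only [Perm.mul_apply, swap_apply_self, h.invol]
  · intro x
    simp only [Perm.mul_apply]
    rw [husw, h.pres, husw]
  · intro x
    obtain ⟨y, ⟨hy1, hy2⟩, hy3⟩ := h.fix x
    refine ⟨swap c s y, ⟨(husw y).trans hy1, ?_⟩, ?_⟩
    · simp only [Perm.mul_apply, swap_apply_self, hy2]
    · rintro z ⟨hz1, hz2⟩
      have : swap c s z = y := by
        refine hy3 _ ⟨(husw z).trans hz1, ?_⟩
        simp only [Perm.mul_apply] at hz2
        have := congrArg (swap c s) hz2
        rwa [swap_apply_self] at this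
      rw [← this, swap_apply_self]
  · intro x hx
    rcases eq_or_ne x a with rfl | h1
    · rw [exch_a hac hne has, Function.update_self, Function.update_of_ne has, ho, Bool.not_not]
    rcases eq_or_ne x c with rfl | h2
    · exact absurd (exch_c hs) hx
    rcases eq_or_ne x s with rfl | h3
    · rw [exch_s hca hne has, Function.update_self, Function.update_of_ne has, ho]
    rw [exch_off hac hca hs h1 h2 h3] at hx ⊢
    have : m x ≠ s := fun hh => h3 (m.injective (hh.trans hs.symm))
    rw [Function.update_of_ne this, Function.update_of_ne h3]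
    exact h.orient x hx

/-- the local factors of `em` -/
def mloc (m : Perm X) (o : X → Bool) (b : X → Fin 2) (x : X) : ℤ :=
  (if m x ≠ x ∧ o x = true then
    ((((b (m x) : Fin 2) : ℕ) : ℤ) - (((b x : Fin 2) : ℕ) : ℤ)) else 1) *
  (if m x = x then (1 - (((b x : Fin 2) : ℕ) : ℤ)) else 1)

theorem em_eq_prod (m : Perm X) (o : X → Bool) (b : X → Fin 2) :
    em m o b = ∏ x, mloc m o b x := by
  unfold em mloc
  rw [Finset.prod_filter, Finset.prod_filter, ← Finset.prod_mul_distrib]

theorem em_exchange (hac : m a = c) (hca : m c = a) (hne : a ≠ c) (has : a ≠ s)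
    (hcs : c ≠ s) (hs : m s = s) (ha : o a = true) (hc : o c = false) (b : X → Fin 2) :
    em m o b = em (swap c s * m * swap c s) (Function.update o s false) b +
      em (swap a s * m * swap a s) (Function.update o s true) b := by
  have hsa := has.symm
  have hsc := hcs.symm
  have hne' := hne.symm
  set T : Finset X := {a, c, s} with hT
  have hprod : ∀ f : X → ℤ, ∏ x, f x = (f a * (f c * f s)) * ∏ x ∈ Tᶜ, f x := by
    intro f
    rw [← Finset.prod_mul_prod_compl T f]
    congr 1
    rw [hT, Finset.prod_insert (by simp [hne, has]), Finset.prod_insert (by simp [hcs]),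
      Finset.prod_singleton]
  have hcompl : ∀ x ∈ Tᶜ, x ≠ a ∧ x ≠ c ∧ x ≠ s := by
    intro x hx
    simpa [hT] using hx
  have e1 : ∏ x ∈ Tᶜ, mloc (swap c s * m * swap c s) (Function.update o s false) b x =
      ∏ x ∈ Tᶜ, mloc m o b x := by
    refine Finset.prod_congr rfl fun x hx => ?_
    obtain ⟨h1, h2, h3⟩ := hcompl x hx
    unfold mloc
    rw [exch_off hac hca hs h1 h2 h3, Function.update_of_ne h3]
  have e2 : ∏ x ∈ Tᶜ, mloc (swap a s * m * swap a s) (Function.update o s true) b x =
      ∏ x ∈ Tᶜ, mloc m o b x := by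
    refine Finset.prod_congr rfl fun x hx => ?_
    obtain ⟨h1, h2, h3⟩ := hcompl x hx
    unfold mloc
    rw [exch_off hca hac hs h2 h1 h3, Function.update_of_ne h3]
  rw [em_eq_prod, em_eq_prod, em_eq_prod, hprod, hprod, hprod, e1, e2, ← add_mul]
  congr 1
  unfold mloc
  rw [exch_a hac hne has, exch_s hca hne has, exch_c hs, exch_a hca hne' hcs, exch_s hac hne' hcs,
    exch_c hs, hac, hca, hs]
  simp only [Function.update_self, Function.update_of_ne has, Function.update_of_ne hcs, ha, hc]
  simp only [ne_eq, hne, hne', has, hsa, hcs, hsc, not_false_eq_true, not_true_eq_false, and_true,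
    and_false, false_and, if_true, if_false, Bool.false_eq_true, mul_one, one_mul]
  ring

theorem exch_good {m' : Perm X} (hac : m a = c) (hca : m c = a) (hne : a ≠ c) (has : a ≠ s)
    (hs : m s = s) (hgs : MGood m m' s) (hba : ¬ MGood m m' a) (hbc : ¬ MGood m m' c) :
    (∀ x, MGood m m' x → MGood (swap c s * m * swap c s) m' x) ∧
      MGood (swap c s * m * swap c s) m' a := by
  have h1 : ∀ x, MGood m m' x → MGood (swap c s * m * swap c s) m' x := by
    intro x hx
    induction hx with
    | base y h => exact MGood.base y h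
    | stepm x hx ih =>
      rcases eq_or_ne x s with rfl | h3
      · rw [hs]; exact ih
      · have h1 : x ≠ a := fun h => hba (h ▸ hx)
        have h2 : x ≠ c := fun h => hbc (h ▸ hx)
        rw [← exch_off hac hca hs h1 h2 h3]
        exact MGood.stepm x ih
    | stepm' x hx ih => exact MGood.stepm' x ih
  refine ⟨h1, ?_⟩
  have := MGood.stepm s (h1 s hgs)
  rwa [exch_s hca hne has] at this

end exchange

/-! ### changing the orientation -/

theorem em_orient {u : Word X} {m : Perm X} {o o₀ : X → Bool} (h : SM u m o) (h₀ : SM u m o₀) :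
    ∃ ε : ℤ, (ε = 1 ∨ ε = -1) ∧ ∀ b, em m o b = ε * em m o₀ b := by
  refine ⟨∏ x : X, (if m x ≠ x ∧ o x = false ∧ o₀ x = true then (-1 : ℤ) else 1), ?_, ?_⟩
  · refine Finset.prod_induction _ (fun z : ℤ => z = 1 ∨ z = -1) ?_ (Or.inl rfl) ?_
    · rintro x y (rfl | rfl) (rfl | rfl) <;> simp
    · intro x _
      split_ifs
      · exact Or.inr rfl
      · exact Or.inl rfl
  · intro b
    set D : X → ℤ := fun x => (((b (m x) : Fin 2) : ℕ) : ℤ) - (((b x : Fin 2) : ℕ) : ℤ) with hD
    have hDm : ∀ x, D (m x) = - D x := by
      intro x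
      simp only [hD, h.invol]
      ring
    have e0 : ∀ o' : X → Bool, em m o' b =
        (∏ x, (if m x ≠ x ∧ o' x = true then D x else 1)) *
          ∏ x ∈ univ.filter (fun x => m x = x), (1 - (((b x : Fin 2) : ℕ) : ℤ)) := by
      intro o'
      unfold em
      rw [Finset.prod_filter (fun x => m x ≠ x ∧ o' x = true)]
    rw [e0 o, e0 o₀, ← mul_assoc]
    congr 1
    have e1 : ∏ x, (if m x ≠ x ∧ o x = true then D x else 1) =
        (∏ x, (if m x ≠ x ∧ o x = true ∧ o₀ x = true then D x else 1)) *
          ∏ x, (if m x ≠ x ∧ o x = true ∧ o₀ x = false then D x else 1) := by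
      rw [← Finset.prod_mul_distrib]
      refine Finset.prod_congr rfl fun x _ => ?_
      by_cases hx : m x = x
      · simp [hx]
      · cases hox : o x <;> cases hox' : o₀ x <;> simp [hx]
    have e2 : ∏ x, (if m x ≠ x ∧ o₀ x = true then D x else 1) =
        (∏ x, (if m x ≠ x ∧ o x = true ∧ o₀ x = true then D x else 1)) *
          ∏ x, (if m x ≠ x ∧ o x = false ∧ o₀ x = true then D x else 1) := by
      rw [← Finset.prod_mul_distrib]
      refine Finset.prod_congr rfl fun x _ => ?_
      by_cases hx : m x = x
      · simp [hx]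
      · cases hox : o x <;> cases hox' : o₀ x <;> simp [hx]
    have e3 : ∏ x, (if m x ≠ x ∧ o x = true ∧ o₀ x = false then D x else 1) =
        (∏ x : X, (if m x ≠ x ∧ o x = false ∧ o₀ x = true then (-1 : ℤ) else 1)) *
          ∏ x, (if m x ≠ x ∧ o x = false ∧ o₀ x = true then D x else 1) := by
      rw [← Finset.prod_mul_distrib, ← Equiv.prod_comp m]
      refine Finset.prod_congr rfl fun x _ => ?_
      by_cases hx : m x = x
      · simp [hx]
      · have hx' : m (m x) ≠ m x := fun hh => hx (m.injective hh)
        have h1 := h.orient x hx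
        have h2 := h₀.orient x hx
        rw [h1, h2, hDm]
        cases hox : o x <;> cases hox' : o₀ x <;> simp [hx, hx']
    rw [e1, e2, e3]
    ring

/-! ### the alternating sequence -/

/-- `y, m y, m' m y, m m' m y, ..` -/
def vseq {X : Type} (m m' : Perm X) (y : X) : ℕ → X
  | 0 => y
  | n + 1 => if Even n then m (vseq m m' y n) else m' (vseq m m' y n)

section vseq
variable {u : Word X} {m m' : Perm X} {o o' : X → Bool}

theorem vseq_m_even (y : X) {n : ℕ} (hn : Even n) :
    m (vseq m m' y n) = vseq m m' y (n + 1) := by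
  simp [vseq, hn]

theorem vseq_m'_odd (y : X) {n : ℕ} (hn : Odd n) :
    m' (vseq m m' y n) = vseq m m' y (n + 1) := by
  simp [vseq, Nat.not_even_iff_odd.2 hn]

theorem vseq_m_odd (hm : ∀ x, m (m x) = x) (y : X) {n : ℕ} (hn : Odd (n + 1)) :
    m (vseq m m' y (n + 1)) = vseq m m' y n := by
  have : Even n := by
    rcases Nat.even_or_odd n with h | h
    · exact h
    · exact absurd hn (Nat.not_odd_iff_even.2 h.add_one)
  rw [← vseq_m_even y this, hm]

theorem vseq_m'_even (hm : ∀ x, m' (m' x) = x) (y : X) {n : ℕ} (hn : Even (n + 1)) :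
    m' (vseq m m' y (n + 1)) = vseq m m' y n := by
  have : Odd n := by
    rcases Nat.even_or_odd n with h | h
    · exact absurd hn (Nat.not_even_iff_odd.2 h.add_one)
    · exact h
  rw [← vseq_m'_odd y this, hm]

end vseq

/-- The case where all letters lie on the paths. -/
theorem merge_all {u : Word X} (hodd : ∀ x, Odd (bsize u x)) {m m' : Perm X} {o o' : X → Bool}
    (h : SM u m o) (h' : SM u m' o') (hall : ∀ x, MGood m m' x) :
    (fun b b' => em m o b * em m' o' b') ∈
      AddSubgroup.closure {f : (X → Fin 2) → (X → Fin 2) → ℤ | ∃ p, IsPath u p ∧ f = zp u p} := by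
  classical
  -- the fixed point of `m'` in the block of `x`
  have hfix' : ∀ x, ∃ y, u y = u x ∧ m' y = y := fun x => (h'.fix x).exists
  choose s' hs'u hs'f using hfix'
  have hs'uniq : ∀ x y, u y = u x → m' y = y → y = s' x := fun x y h1 h2 =>
    (h'.fix x).unique ⟨h1, h2⟩ ⟨hs'u x, hs'f x⟩
  have hs'eq : ∀ x y, u x = u y → s' x = s' y := fun x y hxy =>
    hs'uniq y (s' x) ((hs'u x).trans hxy) (hs'f x)
  have hex : ∀ x, ∃ n, vseq m m' (s' x) n = x := by
    intro x
    induction hall x with
    | base y hy => exact ⟨0, (hs'uniq y y rfl hy).symm⟩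
    | stepm x _ ih =>
      obtain ⟨n, hn⟩ := ih
      rw [hs'eq (m x) x (h.pres x)]
      rcases Nat.even_or_odd n with he | ho
      · exact ⟨n + 1, by rw [← vseq_m_even _ he, hn]⟩
      · obtain ⟨k, rfl⟩ : ∃ k, n = k + 1 := ⟨n - 1, by have := ho.pos; omega⟩
        exact ⟨k, by rw [← vseq_m_odd h.invol _ ho, hn]⟩
    | stepm' x _ ih =>
      obtain ⟨n, hn⟩ := ih
      rw [hs'eq (m' x) x (h'.pres x)]
      rcases Nat.even_or_odd n with he | ho
      · rcases Nat.eq_zero_or_pos n with rfl | hpos
        · refine ⟨0, ?_⟩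
          have hx : s' x = x := hn
          have := hs'f x
          rw [hx] at this
          rw [this]
          exact hx
        · obtain ⟨k, rfl⟩ : ∃ k, n = k + 1 := ⟨n - 1, by omega⟩
          exact ⟨k, by rw [← vseq_m'_even h'.invol _ he, hn]⟩
      · exact ⟨n + 1, by rw [← vseq_m'_odd _ ho, hn]⟩
  set p : Word X := fun x => Nat.find (hex x) with hpdef
  have hp : ∀ x, vseq m m' (s' x) (p x) = x := fun x => Nat.find_spec (hex x)
  have hmin : ∀ x n, vseq m m' (s' x) n = x → p x ≤ n := fun x n hn => Nat.find_min' (hex x) hn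
  -- how `m` and `m'` move the positions
  have P2 : ∀ x, Odd (p x) → p (m x) + 1 = p x := by
    intro x hx
    obtain ⟨k, hk⟩ : ∃ k, p x = k + 1 := ⟨p x - 1, by have := hx.pos; omega⟩
    have e1 : m x = vseq m m' (s' x) k := by
      rw [← vseq_m_odd h.invol _ (hk ▸ hx), ← hk, hp]
    have e2 : p (m x) ≤ k := by
      refine hmin _ _ ?_
      rw [hs'eq (m x) x (h.pres x), e1]
    have hq := hp (m x)
    rw [hs'eq (m x) x (h.pres x)] at hq
    rcases Nat.even_or_odd (p (m x)) with he | ho
    · have e3 : p x ≤ p (m x) + 1 := by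
        refine hmin _ _ ?_
        rw [← vseq_m_even _ he, hq, h.invol]
      omega
    · obtain ⟨j, hj⟩ : ∃ j, p (m x) = j + 1 := ⟨p (m x) - 1, by have := ho.pos; omega⟩
      have e3 : p x ≤ j := by
        refine hmin _ _ ?_
        rw [← vseq_m_odd h.invol _ (hj ▸ ho), ← hj, hq, h.invol]
      omega
  have P1 : ∀ x, Even (p x) → m x = x ∨ p (m x) = p x + 1 := by
    intro x hx
    have e1 : m x = vseq m m' (s' x) (p x + 1) := by
      rw [← vseq_m_even _ hx, hp]
    rcases Nat.even_or_odd (p (m x)) with he | ho
    · left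
      have hq := hp (m x)
      rw [hs'eq (m x) x (h.pres x)] at hq
      have e2 : p (m x) ≤ p x + 1 := by
        refine hmin _ _ ?_
        rw [hs'eq (m x) x (h.pres x), e1]
      have e3 : p x ≤ p (m x) + 1 := by
        refine hmin _ _ ?_
        rw [← vseq_m_even _ he, hq, h.invol]
      have e4 : p (m x) = p x := by
        obtain ⟨i, hi⟩ := he
        obtain ⟨j, hj⟩ := hx
        omega
      rw [← hq, e4, hp]
    · right
      have := P2 (m x) ho
      rw [h.invol] at this
      exact this.symm
  have P5 : ∀ x, p x = 0 ↔ m' x = x := by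
    intro x
    constructor
    · intro h0
      have := hp x
      rw [h0] at this
      have h1 : s' x = x := this
      rw [← h1]
      exact hs'f x
    · intro hx
      have : s' x = x := (hs'uniq x x rfl hx).symm
      exact Nat.le_zero.1 (hmin x 0 this)
  have P4 : ∀ x, Even (p x) → p x ≠ 0 → p (m' x) + 1 = p x := by
    intro x hx h0
    obtain ⟨k, hk⟩ : ∃ k, p x = k + 1 := ⟨p x - 1, by omega⟩
    have e1 : m' x = vseq m m' (s' x) k := by
      rw [← vseq_m'_even h'.invol _ (hk ▸ hx), ← hk, hp]
    have e2 : p (m' x) ≤ k := by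
      refine hmin _ _ ?_
      rw [hs'eq (m' x) x (h'.pres x), e1]
    have hq := hp (m' x)
    rw [hs'eq (m' x) x (h'.pres x)] at hq
    rcases Nat.even_or_odd (p (m' x)) with he | ho
    · rcases Nat.eq_zero_or_pos (p (m' x)) with hz | hpos
      · have := (P5 (m' x)).1 hz
        rw [h'.invol] at this
        exact absurd ((P5 x).2 this.symm) h0
      · obtain ⟨j, hj⟩ : ∃ j, p (m' x) = j + 1 := ⟨p (m' x) - 1, by omega⟩
        have e3 : p x ≤ j := by
          refine hmin _ _ ?_
          rw [← vseq_m'_even h'.invol _ (hj ▸ he), ← hj, hq, h'.invol]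
        omega
    · have e3 : p x ≤ p (m' x) + 1 := by
        refine hmin _ _ ?_
        rw [← vseq_m'_odd _ ho, hq, h'.invol]
      omega
  have P3 : ∀ x, Odd (p x) → p (m' x) = p x + 1 := by
    intro x hx
    have e1 : m' x = vseq m m' (s' x) (p x + 1) := by
      rw [← vseq_m'_odd _ hx, hp]
    have hx0 : m' x ≠ x := fun hh => by
      have := (P5 x).2 hh
      rw [this] at hx
      exact absurd hx (by decide)
    rcases Nat.even_or_odd (p (m' x)) with he | ho
    · have h0 : p (m' x) ≠ 0 := fun hz => by
        have := (P5 (m' x)).1 hz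
        rw [h'.invol] at this
        exact hx0 this.symm
      have := P4 (m' x) he h0
      rw [h'.invol] at this
      exact this.symm
    · exfalso
      have hq := hp (m' x)
      rw [hs'eq (m' x) x (h'.pres x)] at hq
      have e2 : p (m' x) ≤ p x + 1 := by
        refine hmin _ _ ?_
        rw [hs'eq (m' x) x (h'.pres x), e1]
      have e3 : p x ≤ p (m' x) + 1 := by
        refine hmin _ _ ?_
        rw [← vseq_m'_odd _ ho, hq, h'.invol]
      have e4 : p (m' x) = p x := by
        obtain ⟨i, hi⟩ := ho
        obtain ⟨j, hj⟩ := hx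
        omega
      rw [← hq, e4, hp] at hx0
      exact hx0 rfl
  have hinj : ∀ x y, u x = u y → p x = p y → x = y := by
    intro x y h1 h2
    rw [← hp x, ← hp y, hs'eq x y h1, h2]
  have hdown : ∀ x, p x ≠ 0 → ∃ y, u y = u x ∧ p y + 1 = p x := by
    intro x hx
    rcases Nat.even_or_odd (p x) with he | ho
    · exact ⟨m' x, h'.pres x, P4 x he hx⟩
    · exact ⟨m x, h.pres x, P2 x ho⟩
  have hdown' : ∀ j x, j ≤ p x → ∃ y, u y = u x ∧ p y + j = p x := by
    intro j
    induction j with
    | zero => intro x _; exact ⟨x, rfl, rfl⟩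
    | succ j ih =>
      intro x hj
      obtain ⟨y, hy1, hy2⟩ := ih x (by omega)
      obtain ⟨z, hz1, hz2⟩ := hdown y (by omega)
      exact ⟨z, hz1.trans hy1, by omega⟩
  have hblock : ∀ x, ((univ.filter (fun y => u y = u x)).image p).card = bsize u x := by
    intro x
    unfold bsize
    refine Finset.card_image_of_injOn ?_
    intro y hy z hz hyz
    simp only [Finset.coe_filter, Finset.mem_univ, true_and, Set.mem_ofPred_eq] at hy hz
    exact hinj y z (hy.trans hz.symm) hyz
  have hlt : ∀ x, p x < bsize u x := by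
    intro x
    rw [← hblock x, ← Nat.succ_le_iff, ← Finset.card_range (p x).succ]
    refine Finset.card_le_card fun j hj => ?_
    have hj' : j ≤ p x := Nat.lt_succ_iff.1 (Finset.mem_range.1 hj)
    obtain ⟨y, hy1, hy2⟩ := hdown' (p x - j) x (by omega)
    exact Finset.mem_image.2 ⟨y, by simp [hy1], by omega⟩
  have hbs : ∀ x y, u x = u y → bsize u x = bsize u y := by
    intro x y hxy
    unfold bsize
    rw [hxy]
  have hsurj : ∀ x k, k < bsize u x → ∃ y, u y = u x ∧ p y = k := by
    intro x k hk
    have hsub : (univ.filter (fun y => u y = u x)).image p ⊆ Finset.range (bsize u x) := by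
      intro j hj
      obtain ⟨y, hy, rfl⟩ := Finset.mem_image.1 hj
      have hy' : u y = u x := by simpa using hy
      rw [Finset.mem_range, ← hbs y x hy']
      exact hlt y
    have heq := Finset.eq_of_subset_of_card_le hsub (by rw [hblock, Finset.card_range])
    have : k ∈ (univ.filter (fun y => u y = u x)).image p := by
      rw [heq]; exact Finset.mem_range.2 hk
    obtain ⟨y, hy, hyk⟩ := Finset.mem_image.1 this
    exact ⟨y, by simpa using hy, hyk⟩
  have P6' : ∀ x, p x + 1 = bsize u x → m x = x := by
    intro x hx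
    have he : Even (p x) := by
      rcases Nat.even_or_odd (p x) with he | ho
      · exact he
      · exact absurd (hx ▸ ho.add_one) (Nat.not_even_iff_odd.2 (hodd x))
    rcases P1 x he with h1 | h1
    · exact h1
    · have := hlt (m x)
      rw [hbs (m x) x (h.pres x)] at this
      omega
  have P6 : ∀ x, m x = x ↔ p x + 1 = bsize u x := by
    intro x
    refine ⟨fun hx => ?_, P6' x⟩
    have hpos : 0 < bsize u x := (Nat.zero_le _).trans_lt (hlt x)
    obtain ⟨y, hy1, hy2⟩ := hsurj x (bsize u x - 1) (by omega)
    have hy3 : m y = y := P6' y (by rw [hbs y x hy1]; omega)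
    have : y = x := (h.fix x).unique ⟨hy1, hy3⟩ ⟨rfl, hx⟩
    rw [← this, hbs y x hy1]
    omega
  -- the orientations given by the positions
  have hpath : IsPath u p := by
    refine ⟨fun x y hxy => ?_, hlt⟩
    have h1 := congrArg Prod.fst hxy
    have h2 := congrArg Prod.snd hxy
    exact hinj x y h1 h2
  set o₀ : X → Bool := fun x => decide (Even (p x)) with ho₀
  set o₁ : X → Bool := fun x => decide (Odd (p x)) with ho₁
  have h₀ : SM u m o₀ := by
    refine ⟨h.invol, h.pres, h.fix, fun x hx => ?_⟩
    simp only [ho₀]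
    rcases Nat.even_or_odd (p x) with he | ho
    · have h1 := (P1 x he).resolve_left hx
      have h2 : ¬ Even (p (m x)) := by rw [h1]; exact Nat.not_even_iff_odd.2 he.add_one
      simp [he, h2]
    · have h1 := P2 x ho
      have h2 : Even (p (m x)) := by
        rcases Nat.even_or_odd (p (m x)) with h3 | h3
        · exact h3
        · exact absurd (h1 ▸ h3.add_one) (Nat.not_even_iff_odd.2 ho)
      have h3 : ¬ Even (p x) := Nat.not_even_iff_odd.2 ho
      simp [h2, h3]
  have h₁ : SM u m' o₁ := by
    refine ⟨h'.invol, h'.pres, h'.fix, fun x hx => ?_⟩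
    simp only [ho₁]
    rcases Nat.even_or_odd (p x) with he | ho
    · have h0 : p x ≠ 0 := fun h0 => hx ((P5 x).1 h0)
      have h1 := P4 x he h0
      have h2 : Odd (p (m' x)) := by
        rcases Nat.even_or_odd (p (m' x)) with h3 | h3
        · exact absurd (h1 ▸ h3.add_one) (Nat.not_odd_iff_even.2 he)
        · exact h3
      have h3 : ¬ Odd (p x) := Nat.not_odd_iff_even.2 he
      simp [h2, h3]
    · have h1 := P3 x ho
      have h2 : ¬ Odd (p (m' x)) := by rw [h1]; exact Nat.not_odd_iff_even.2 ho.add_one
      simp [ho, h2]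
  have hzp : ∀ b b', zp u p b b' = em m o₀ b * em m' o₁ b' := by
    intro b b'
    unfold zp em
    congr 1
    · congr 1
      · symm
        refine Finset.prod_bij (fun x _ => (x, m x)) ?_ ?_ ?_ ?_
        · intro x hx
          simp only [Finset.mem_filter, Finset.mem_univ, true_and, ho₀, decide_eq_true_eq] at hx ⊢
          exact ⟨(h.pres x).symm, (P1 x hx.2).resolve_left hx.1, hx.2⟩
        · intro x _ y _ hxy
          exact congrArg Prod.fst hxy
        · rintro ⟨x, y⟩ hq
          simp only [Finset.mem_filter, Finset.mem_univ, true_and] at hq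
          obtain ⟨q1, q2, q3⟩ := hq
          have hmx : m x ≠ x := by
            intro hh
            have h1 := (P6 x).1 hh
            have h2 := hlt y
            rw [← hbs x y q1] at h2
            omega
          refine ⟨x, ?_, ?_⟩
          · simp only [Finset.mem_filter, Finset.mem_univ, true_and, ho₀, decide_eq_true_eq]
            exact ⟨hmx, q3⟩
          · have h1 := (P1 x q3).resolve_left hmx
            have : m x = y := hinj _ _ ((h.pres x).trans q1) (h1.trans q2.symm)
            simp [this]
        · intro x _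
          rfl
      · refine Finset.prod_congr ?_ fun _ _ => rfl
        ext x
        simp [P6 x]
    · congr 1
      · symm
        refine Finset.prod_bij (fun x _ => (x, m' x)) ?_ ?_ ?_ ?_
        · intro x hx
          simp only [Finset.mem_filter, Finset.mem_univ, true_and, ho₁, decide_eq_true_eq] at hx ⊢
          exact ⟨(h'.pres x).symm, P3 x hx.2, hx.2⟩
        · intro x _ y _ hxy
          exact congrArg Prod.fst hxy
        · rintro ⟨x, y⟩ hq
          simp only [Finset.mem_filter, Finset.mem_univ, true_and] at hq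
          obtain ⟨q1, q2, q3⟩ := hq
          have hmx : m' x ≠ x := by
            intro hh
            have h1 := (P5 x).2 hh
            rw [h1] at q3
            exact absurd q3 (by decide)
          refine ⟨x, ?_, ?_⟩
          · simp only [Finset.mem_filter, Finset.mem_univ, true_and, ho₁, decide_eq_true_eq]
            exact ⟨hmx, q3⟩
          · have h1 := P3 x q3
            have : m' x = y := hinj _ _ ((h'.pres x).trans q1) (h1.trans q2.symm)
            simp [this]
        · intro x _
          rfl
      · refine Finset.prod_congr ?_ fun _ _ => rfl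
        ext x
        simp [P5 x]
  obtain ⟨ε, hε, hε'⟩ := em_orient h h₀
  obtain ⟨δ, hδ, hδ'⟩ := em_orient h' h₁
  have hfin : (fun b b' => em m o b * em m' o' b') = (ε * δ) • zp u p := by
    funext b b'
    simp only [Pi.smul_apply, smul_eq_mul]
    rw [hε', hδ', hzp]
    ring
  rw [hfin]
  have hmem : zp u p ∈
      {f : (X → Fin 2) → (X → Fin 2) → ℤ | ∃ p, IsPath u p ∧ f = zp u p} := ⟨p, hpath, rfl⟩
  exact AddSubgroup.zsmul_mem _ (AddSubgroup.subset_closure hmem) _

/-- MERGING LEMMA: the path elements generate, over `ℤ`, all products of two strip polytabloids.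

PROOF. Consider the graph on `X` whose edges are the pairs `{x, m x}` and `{x, m' x}`. All its
components lie in blocks of `u`; every block has exactly one fixed point `s` of `m` and one fixed point `s'`
of `m'`; the component of `s` is a path ending at `s'` and the others are even cycles (alternating
`m`, `m'`, possibly a double edge). Induction on the number of letters `x` that do not lie in the component of
the `m`-fixed point of their block.
* If every block is a single path: number the letters of each block along the path starting at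
  the `m'`-fixed point (`merge_all`).
* Otherwise take an `m`-edge `{a, c}` of a bad letter and let `s` be the fixed
  point of `m` in this block. With `β = b a, γ = b c, δ = b s` (numbers 0/1):
  `(γ - β) * (1 - δ) = (δ - β) * (1 - γ) + (γ - δ) * (1 - β)` (`em_exchange`). -/
theorem merge {u : Word X} (hodd : ∀ x, Odd (bsize u x)) {m m' : Perm X} {o o' : X → Bool}
    (h : SM u m o) (h' : SM u m' o') :
    (fun b b' => em m o b * em m' o' b') ∈
      AddSubgroup.closure {f : (X → Fin 2) → (X → Fin 2) → ℤ | ∃ p, IsPath u p ∧ f = zp u p} := by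
  classical
  induction hn : (univ.filter (fun x => ¬ MGood m m' x)).card using Nat.strong_induction_on
    generalizing m o with
  | _ n ih =>
  by_cases hall : ∀ x, MGood m m' x
  · exact merge_all hodd h h' hall
  push Not at hall
  obtain ⟨a, ha, hoa⟩ : ∃ a, ¬ MGood m m' a ∧ o a = true := by
    obtain ⟨a, ha⟩ := hall
    cases hoa : o a
    · have hma : m a ≠ a := fun hh => ha (mgood_fixed h h' a hh)
      refine ⟨m a, fun hh => ha ?_, ?_⟩
      · have := MGood.stepm _ hh
        rwa [h.invol] at this
      · rw [h.orient a hma, hoa]; rfl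
    · exact ⟨a, ha, hoa⟩
  have hma : m a ≠ a := fun hh => ha (mgood_fixed h h' a hh)
  set c : X := m a with hc
  have hca : m c = a := h.invol a
  have hbc : ¬ MGood m m' c := fun hh => ha (hca ▸ MGood.stepm _ hh)
  have hoc : o c = false := by rw [h.orient a hma, hoa]; rfl
  obtain ⟨s, hsu, hs⟩ := (h.fix a).exists
  have hgs : MGood m m' s := mgood_fixed h h' s hs
  have has : a ≠ s := fun hh => ha (hh ▸ hgs)
  have hcs : c ≠ s := fun hh => hbc (hh ▸ hgs)
  have huc : u c = u a := h.pres a
  have hne : a ≠ c := hma.symm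
  have S1 := exch_SM h hc.symm hca hne has hcs hs hsu false (by rw [hoa]; rfl)
  have S2 := exch_SM h hca hc.symm hma hcs has hs (hsu.trans huc.symm) true (by rw [hoc]; rfl)
  obtain ⟨G1, G1'⟩ := exch_good (m' := m') hc.symm hca hne has hs hgs ha hbc
  obtain ⟨G2, G2'⟩ := exch_good (m' := m') hca hc.symm hma hcs hs hgs hbc ha
  have L1 : (univ.filter (fun x => ¬ MGood (swap c s * m * swap c s) m' x)).card < n := by
    rw [← hn]
    refine Finset.card_lt_card ⟨fun x hx => ?_, fun hsub => ?_⟩
    · simp only [Finset.mem_filter, Finset.mem_univ, true_and] at hx ⊢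
      exact fun hh => hx (G1 x hh)
    · have := hsub (show a ∈ univ.filter (fun x => ¬ MGood m m' x) by simp [ha])
      simp only [Finset.mem_filter, Finset.mem_univ, true_and] at this
      exact this G1'
  have L2 : (univ.filter (fun x => ¬ MGood (swap a s * m * swap a s) m' x)).card < n := by
    rw [← hn]
    refine Finset.card_lt_card ⟨fun x hx => ?_, fun hsub => ?_⟩
    · simp only [Finset.mem_filter, Finset.mem_univ, true_and] at hx ⊢
      exact fun hh => hx (G2 x hh)
    · have := hsub (show c ∈ univ.filter (fun x => ¬ MGood m m' x) by simp [hbc])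
      simp only [Finset.mem_filter, Finset.mem_univ, true_and] at this
      exact this G2'
  have M1 := ih _ L1 S1 rfl
  have M2 := ih _ L2 S2 rfl
  have := AddSubgroup.add_mem _ M1 M2
  refine (congrArg (· ∈ AddSubgroup.closure
    {f : (X → Fin 2) → (X → Fin 2) → ℤ | ∃ p, IsPath u p ∧ f = zp u p}) ?_).mpr this
  funext b b'
  simp only [Pi.add_apply]
  rw [em_exchange hc.symm hca hne has hcs hs hoa hoc b, add_mul]

end Crest.Agent.Saxl
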