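import Crest.Agent.Saxl.Pt

/-!
CHUNK RESTRICT-A (medium).
-/

set_option autoImplicit false

namespace Crest.Agent.Saxl

open Finset Equiv

variable {X : Type} [Fintype X] [DecidableEq X]

private theorem fin2_eq {a b c : Fin 2} (h1 : a ≠ c) (h2 : b ≠ c) : a = b := by
  revert a b c; decide

private theorem fin2_val (a : Fin 2) : (a : ℕ) = 0 ∨ (a : ℕ) = 1 := by
  revert a; decide

private theorem fin2_lt (a : Fin 2) : (a : ℕ) < 2 := a.2

/-- sign of an involution given by flipping the pairs `{x, m x}` on the set `b ≠ b₀` -/
private theorem sign_flip (m : Perm X) (o : X → Bool) (hm : ∀ x, m (m x) = x)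
    (ho : ∀ x, m x ≠ x → o (m x) = !(o x)) (D : X → Prop) [DecidablePred D]
    (hD : ∀ x, D x → m x ≠ x ∧ D (m x)) (g : Perm X) (hg : ∀ x, g x = if D x then m x else x) :
    ((Perm.sign g : ℤˣ) : ℤ) = (-1) ^ (univ.filter (fun x => D x ∧ o x = true)).card := by
  have hg2 : g ^ 2 = 1 := by
    ext x
    rw [sq, Perm.mul_apply, Perm.one_apply, hg x]
    split_ifs with h
    · rw [hg (m x), if_pos (hD x h).2, hm]
    · rw [hg x, if_neg h]
  rw [Perm.sign_of_pow_two_eq_one hg2]
  have h1 : Fintype.card (Function.fixedPoints g) = (univ.filter (fun x => ¬ D x)).card := by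
    rw [Fintype.card_subtype]
    congr 1
    ext x
    simp only [Finset.mem_filter, Finset.mem_univ, true_and]
    rw [Function.mem_fixedPoints, Function.IsFixedPt, hg x]
    split_ifs with h
    · simp [h, (hD x h).1]
    · simp [h]
  have h2 : Fintype.card X - (univ.filter (fun x => ¬ D x)).card =
      (univ.filter (fun x => D x)).card := by
    have := Finset.card_filter_add_card_filter_not (s := (univ : Finset X)) (fun x => D x)
    rw [Finset.card_univ] at this
    rw [← this]
    simp
  have h3 : (univ.filter (fun x => D x)).card =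
      2 * (univ.filter (fun x => D x ∧ o x = true)).card := by
    have e1 : (univ.filter (fun x => D x)).card =
        ((univ.filter (fun x => D x)).filter (fun x => o x = true)).card +
          ((univ.filter (fun x => D x)).filter (fun x => ¬ o x = true)).card :=
      (Finset.card_filter_add_card_filter_not (s := univ.filter (fun x => D x))
        (fun x => o x = true)).symm
    have e2 : ((univ.filter (fun x => D x)).filter (fun x => ¬ o x = true)).card =
        ((univ.filter (fun x => D x)).filter (fun x => o x = true)).card := by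
      refine Finset.card_bij' (fun x _ => m x) (fun x _ => m x) ?_ ?_ ?_ ?_
      · intro x hx
        simp only [Finset.mem_filter, Finset.mem_univ, true_and] at hx ⊢
        refine ⟨(hD x hx.1).2, ?_⟩
        rw [ho x (hD x hx.1).1]
        simpa using hx.2
      · intro x hx
        simp only [Finset.mem_filter, Finset.mem_univ, true_and] at hx ⊢
        refine ⟨(hD x hx.1).2, ?_⟩
        rw [ho x (hD x hx.1).1, hx.2]
        simp
      · intro x _; exact hm x
      · intro x _; exact hm x
    rw [e1, e2, Finset.filter_filter]
    ring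
  rw [h1, h2, h3, Nat.mul_div_cancel_left _ (by norm_num)]
  simp

/-- CHUNK RESTRICT-A. For a strip word `u` the restriction of a polytabloid to the row words
`2u+b` is zero or plus-minus a strip polytabloid.
PROOF. Assume `res u (pt A B) ≠ 0`: then some `Y = 2u + b` is perpendicular to `A`, so for every
`j` and `i` the set `P_{ij} = {x : A x = j, u x = i}` has at most two elements, being in bijection
(via `Y`) with `{r ∈ {2i, 2i+1} : r + j < k}`: two elements if `2i+1+j<k`, one if `2i+1+j=k`
(then `b = 0` on it), none otherwise. Let `m` exchange the two elements of each two-element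
`P_{ij}` and fix the others: exactly one fixed point in each nonempty strip `i` (`j = k-1-2i`).
`o x` := the reference row word `B`... any orientation will do, e.g. `o x = decide (Y₀ x even)` for
one fixed `Y₀ = 2u+b₀ ⊥ A`. For `Y = 2u+b`: `Y ⊥ A` iff `b` takes different values on the two
elements of each pair and `0` on the fixed points, which is the condition `em m o b ≠ 0`. Signs:
`Y = 2u+b ⊥ A` is obtained from `Y₀` by exchanging the elements of the pairs where they differ;
each exchange is a transposition in `Rs A`, changing the sign of `pt A B` (`pt_alt`) and of `em`. -/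
theorem res_pt {k : ℕ} (hX : Fintype.card X = k * (k + 1) / 2) {A B u : Word X}
    (h : Perp k A B) (hu : IsStrip k u) (hne : res u (pt A B) ≠ 0) :
    ∃ (m : Perm X) (o : X → Bool), SM u m o ∧
      ((∀ b, res u (pt A B) b = em m o b) ∨ (∀ b, res u (pt A B) b = - em m o b)) := by
  classical
  obtain ⟨b₀, hb₀⟩ := Function.ne_iff.mp hne
  set Y₀ : Word X := fun x => 2 * u x + ((b₀ x : Fin 2) : ℕ) with hY₀def
  have hY₀ : Perp k A Y₀ := by
    by_contra hcon
    exact hb₀ (pt_not_perp h hcon)
  -- two letters with the same `A, u, b₀` coincide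
  have K : ∀ x z, A z = A x → u z = u x → b₀ z = b₀ x → z = x := by
    intro x z h1 h2 h3
    refine hY₀.1 (Prod.ext h1 ?_)
    simp only [hY₀def, h2, h3]
  have K2 : ∀ x z z', z ≠ x → z' ≠ x → A z = A x → A z' = A x → u z = u x → u z' = u x →
      z = z' := by
    intro x z z' h1 h2 h3 h4 h5 h6
    refine K z' z (h3.trans h4.symm) (h5.trans h6.symm) (fin2_eq (c := b₀ x) ?_ ?_)
    · exact fun e => h1 (K x z h3 h5 e)
    · exact fun e => h2 (K x z' h4 h6 e)
  -- the matching
  let mf : X → X := fun x => if hx : ∃ z, z ≠ x ∧ A z = A x ∧ u z = u x then hx.choose else x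
  have mf_pos : ∀ x, (∃ z, z ≠ x ∧ A z = A x ∧ u z = u x) →
      mf x ≠ x ∧ A (mf x) = A x ∧ u (mf x) = u x := by
    intro x hx
    have e : mf x = hx.choose := dif_pos hx
    rw [e]
    exact hx.choose_spec
  have mf_neg : ∀ x, ¬ (∃ z, z ≠ x ∧ A z = A x ∧ u z = u x) → mf x = x := fun x hx => dif_neg hx
  have mfA : ∀ x, A (mf x) = A x := by
    intro x
    by_cases hx : ∃ z, z ≠ x ∧ A z = A x ∧ u z = u x
    · exact (mf_pos x hx).2.1
    · rw [mf_neg x hx]
  have mfu : ∀ x, u (mf x) = u x := by
    intro x
    by_cases hx : ∃ z, z ≠ x ∧ A z = A x ∧ u z = u x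
    · exact (mf_pos x hx).2.2
    · rw [mf_neg x hx]
  have mf2 : ∀ x, mf (mf x) = x := by
    intro x
    by_cases hx : ∃ z, z ≠ x ∧ A z = A x ∧ u z = u x
    · obtain ⟨h1, h2, h3⟩ := mf_pos x hx
      obtain ⟨h4, h5, h6⟩ := mf_pos (mf x) ⟨x, h1.symm, h2.symm, h3.symm⟩
      exact K2 (mf x) _ _ h4 h1.symm h5 h2.symm h6 h3.symm
    · rw [mf_neg x hx, mf_neg x hx]
  let m : Perm X := Function.Involutive.toPerm mf mf2
  have hmf : ∀ x, m x = mf x := fun _ => rfl
  let o : X → Bool := fun x => decide (b₀ x = 0)
  have hm0 : ∀ x, m x ≠ x → b₀ (m x) ≠ b₀ x := fun x hx e => hx (K x (m x) (mfA x) (mfu x) e)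
  have ho : ∀ x, m x ≠ x → o (m x) = !(o x) := by
    intro x hx
    have h1 := hm0 x hx
    show decide (b₀ (m x) = 0) = !decide (b₀ x = 0)
    generalize b₀ (m x) = s at h1
    generalize b₀ x = t at h1
    revert s t
    decide
  -- fixed points
  have hfix : ∀ x, m x = x → ((b₀ x : Fin 2) : ℕ) = 0 ∧ A x + 2 * u x + 1 = k := by
    intro x hx
    have hlt := hY₀.2 x
    simp only [hY₀def] at hlt
    have hnot : ¬ A x + (2 * u x + (1 - ((b₀ x : Fin 2) : ℕ))) < k := by
      intro hcon
      obtain ⟨z, hz1, hz2⟩ := hY₀.surj hX _ _ hcon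
      simp only [hY₀def] at hz2
      have h1 := fin2_lt (b₀ z)
      have h2 := fin2_lt (b₀ x)
      have h3 : u z = u x := by omega
      have h4 : ((b₀ z : Fin 2) : ℕ) = 1 - ((b₀ x : Fin 2) : ℕ) := by omega
      have h5 : z ≠ x := by rintro rfl; omega
      exact (mf_pos x ⟨z, h5, hz1, h3⟩).1 hx
    have h2 := fin2_lt (b₀ x)
    omega
  have hSM : SM u m o := by
    refine ⟨mf2, mfu, ?_, ho⟩
    intro x
    have hlt := hY₀.2 x
    simp only [hY₀def] at hlt
    obtain ⟨z, hz1, hz2⟩ := hY₀.surj hX (k - 1 - 2 * u x) (2 * u x) (by omega)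
    simp only [hY₀def] at hz2
    have h1 := fin2_lt (b₀ z)
    have h3 : u z = u x := by omega
    have h4 : ((b₀ z : Fin 2) : ℕ) = 0 := by omega
    refine ⟨z, ⟨h3, ?_⟩, ?_⟩
    · by_contra hcon
      have h5 := hm0 z hcon
      have h6 := hY₀.2 (m z)
      simp only [hY₀def] at h6
      have h7 : A (m z) = A z := mfA z
      have h8 : u (m z) = u z := mfu z
      have h9 : ((b₀ (m z) : Fin 2) : ℕ) ≠ ((b₀ z : Fin 2) : ℕ) := fun e => h5 (Fin.ext e)
      have h10 := fin2_lt (b₀ (m z))
      omega
    · rintro y ⟨hy1, hy2⟩
      obtain ⟨h5, h6⟩ := hfix y hy2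
      refine K z y ?_ (hy1.trans h3.symm) (Fin.ext (h5.trans h4.symm))
      rw [hz1, hy1] at *
      omega
  refine ⟨m, o, hSM, ?_⟩
  -- main claim
  have main : ∀ b, res u (pt A B) b = pt A B Y₀ * em m o b := by
    intro b
    by_cases hC : (∀ x, m x ≠ x → b (m x) ≠ b x) ∧ (∀ x, m x = x → b x = 0)
    · obtain ⟨hC1, hC2⟩ := hC
      let D : X → Prop := fun x => b x ≠ b₀ x
      have hDm : ∀ x, D x → m x ≠ x ∧ D (m x) := by
        intro x hx
        have h1 : m x ≠ x := by
          intro e
          refine hx ?_
          rw [hC2 x e]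
          exact (Fin.ext (hfix x e).1).symm
        refine ⟨h1, fun e => hx ?_⟩
        have h2 := hC1 x h1
        have h3 := hm0 x h1
        have e' : b (m x) = b₀ (m x) := e
        rw [e'] at h2
        exact fin2_eq h2.symm h3.symm
      let gf : X → X := fun x => if D x then m x else x
      have gf2 : Function.Involutive gf := by
        intro x
        simp only [gf]
        by_cases hx : D x
        · rw [if_pos hx, if_pos (hDm x hx).2]
          exact mf2 x
        · rw [if_neg hx, if_neg hx]
      let g : Perm X := Function.Involutive.toPerm gf gf2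
      have hg : ∀ x, g x = if D x then m x else x := fun _ => rfl
      have hgA : A ∘ g = A := by
        funext x
        simp only [Function.comp_apply, hg]
        split_ifs
        · exact mfA x
        · rfl
      have hgb : ∀ x, b₀ (g x) = b x := by
        intro x
        rw [hg]
        split_ifs with hx
        · have h1 := (hDm x hx).1
          exact fin2_eq (hm0 x h1) hx
        · exact (not_not.mp hx).symm
      have hgu : ∀ x, u (g x) = u x := by
        intro x
        rw [hg]
        split_ifs
        · exact mfu x
        · rfl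
      have e1 : (fun x => 2 * u x + ((b x : Fin 2) : ℕ)) = Y₀ ∘ g := by
        funext x
        simp only [Function.comp_apply, hY₀def, hgu, hgb]
      have e2 : res u (pt A B) b = ((Perm.sign g : ℤˣ) : ℤ) * pt A B Y₀ := by
        show pt A B (fun x => 2 * u x + ((b x : Fin 2) : ℕ)) = _
        rw [e1]
        exact pt_alt A B g (by simp [Rs, hgA]) Y₀
      have e3 : em m o b = ((Perm.sign g : ℤˣ) : ℤ) := by
        rw [sign_flip m o mf2 ho D hDm g hg]
        unfold em
        have p2 : ∏ x ∈ univ.filter (fun x => m x = x), (1 - (((b x : Fin 2) : ℕ) : ℤ)) = 1 := by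
          refine Finset.prod_eq_one fun x hx => ?_
          rw [hC2 x (Finset.mem_filter.mp hx).2]
          simp
        have p1 : ∏ x ∈ univ.filter (fun x => m x ≠ x ∧ o x = true),
            ((((b (m x) : Fin 2) : ℕ) : ℤ) - (((b x : Fin 2) : ℕ) : ℤ)) =
            ∏ x ∈ univ.filter (fun x => m x ≠ x ∧ o x = true), if D x then (-1 : ℤ) else 1 := by
          refine Finset.prod_congr rfl fun x hx => ?_
          obtain ⟨h1, h2⟩ := (Finset.mem_filter.mp hx).2
          have h3 : b₀ x = 0 := by simpa [o] using h2
          have h4 := hC1 x h1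
          have h5 : D x ↔ b x ≠ 0 := by
            show b x ≠ b₀ x ↔ _
            rw [h3]
          simp only [h5]
          generalize b x = s at h4
          generalize b (m x) = t at h4
          revert s t
          decide
        rw [p1, p2, mul_one, Finset.prod_ite, Finset.prod_const, Finset.prod_const_one, mul_one,
          Finset.filter_filter]
        congr 2
        ext x
        simp only [Finset.mem_filter, Finset.mem_univ, true_and]
        constructor
        · rintro ⟨⟨_, h2⟩, h3⟩
          exact ⟨h3, h2⟩
        · rintro ⟨h1, h2⟩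
          exact ⟨⟨(hDm x h1).1, h2⟩, h1⟩
      rw [e2, e3, mul_comm]
    · have hnp : ¬ Perp k A (fun x => 2 * u x + ((b x : Fin 2) : ℕ)) := by
        intro hp
        refine hC ⟨?_, ?_⟩
        · intro x hx e
          refine hx (hp.1 (Prod.ext (mfA x) ?_))
          show 2 * u (m x) + ((b (m x) : Fin 2) : ℕ) = 2 * u x + ((b x : Fin 2) : ℕ)
          rw [e, hmf, mfu]
        · intro x hx
          have h1 := hp.2 x
          simp only at h1
          have h2 := (hfix x hx).2
          have h3 := fin2_lt (b x)
          exact Fin.ext (by simp only [Fin.val_zero]; omega)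
      have hem : em m o b = 0 := by
        rw [not_and_or] at hC
        unfold em
        rcases hC with hC | hC
        · push Not at hC
          obtain ⟨x, hx1, hx2⟩ := hC
          have : ∃ z, m z ≠ z ∧ o z = true ∧ b (m z) = b z := by
            by_cases hox : o x = true
            · exact ⟨x, hx1, hox, hx2⟩
            · refine ⟨m x, ?_, ?_, ?_⟩
              · intro e
                rw [hmf (m x), hmf x, mf2] at e
                exact hx1 e.symm
              · rw [ho x hx1]
                simpa using hox
              · rw [hmf (m x), hmf x, mf2, ← hmf x, hx2]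
          obtain ⟨z, hz1, hz2, hz3⟩ := this
          refine mul_eq_zero_of_left (Finset.prod_eq_zero (i := z) ?_ ?_) _
          · simp only [Finset.mem_filter, Finset.mem_univ, true_and]
            exact ⟨hz1, hz2⟩
          · rw [hz3, sub_self]
        · push Not at hC
          obtain ⟨x, hx1, hx2⟩ := hC
          refine mul_eq_zero_of_right _ (Finset.prod_eq_zero (i := x) ?_ ?_)
          · simp only [Finset.mem_filter, Finset.mem_univ, true_and]
            exact hx1
          · have : b x = 1 := by
              generalize b x = s at hx2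
              revert s
              decide
            rw [this]
            simp
      rw [hem, mul_zero]
      exact pt_not_perp h hnp
  rcases pt_perp hX h hY₀ with e | e
  · left
    intro b
    rw [main b, e, one_mul]
  · right
    intro b
    rw [main b, e]
    ring

end Crest.Agent.Saxl
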