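import Crest.Agent.Saxl.GlueDefs
import Crest.Agent.Saxl.Restrict
import Crest.Agent.Saxl.Merge

/-!
CHUNK GLUE-A1 (medium): f0_term_mem, f0_mem.
-/

set_option autoImplicit false

namespace Crest.Agent.Saxl

open Finset Equiv

variable {X : Type} [Fintype X] [DecidableEq X]

variable {W : Type} [AddCommGroup W] [Module ℂ W]

namespace GlueA1

/-- complexification of functions of two words -/
def toC2 : ((X → Fin 2) → (X → Fin 2) → ℤ) →+ FF X where
  toFun F := fun b b' => ((F b b' : ℤ) : ℂ)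
  map_zero' := by funext b b'; simp
  map_add' F G := by funext b b'; simp

theorem toC2_apply (F : (X → Fin 2) → (X → Fin 2) → ℤ) (b b' : X → Fin 2) :
    toC2 F b b' = ((F b b' : ℤ) : ℂ) := rfl

theorem smul_mem_LZ (σ : Representation ℂ (Perm X) W) (w : W) (e : ℤˣ) (g : Perm X) :
    (((e : ℤˣ) : ℤ) : ℂ) • σ g w ∈ LZ σ w := by
  have h1 : σ g w ∈ LZ σ w := AddSubgroup.subset_closure ⟨g, rfl⟩
  rcases Int.units_eq_one_or e with h | h
  · subst h; simpa using h1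
  · subst h; simpa using (LZ σ w).neg_mem h1

/-- integral combinations of path elements -/
theorem closure_mem {u₀ p₀ : Word X} (hp₀ : IsPath u₀ p₀) (σ : Representation ℂ (Perm X) W)
    (ψ : FF X →ₗ[ℂ] W) (ε : Perm X → ℤˣ)
    (hψ : ∀ h : Perm X, u₀ ∘ h = u₀ →
      ∀ F, ψ (frep X h F) = (((ε h : ℤˣ) : ℤ) : ℂ) • σ h (ψ F)) (g : Perm X)
    {F : (X → Fin 2) → (X → Fin 2) → ℤ}
    (hF : F ∈ AddSubgroup.closure {f : (X → Fin 2) → (X → Fin 2) → ℤ |
      ∃ p, IsPath u₀ p ∧ f = zp u₀ p}) :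
    σ g (ψ (toC2 F)) ∈ LZ σ (ψ (zpC u₀ p₀)) := by
  induction hF using AddSubgroup.closure_induction with
  | mem F hF =>
    obtain ⟨p, hp, rfl⟩ := hF
    obtain ⟨h, hh, hp2⟩ := path_conj hp hp₀
    have hh' : u₀ ∘ (h⁻¹ : Perm X) = u₀ := by
      funext x
      have := congrFun hh ((h⁻¹ : Perm X) x)
      simp only [Function.comp_apply] at this ⊢
      rw [← this]; simp
    have h1 : toC2 (zp u₀ p) = frep X h⁻¹ (zpC u₀ p₀) := by
      funext b b'
      rw [toC2_apply, frep_apply]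
      unfold zpC
      rw [zp_comp (p := p₀) h⁻¹ hh' b b', inv_inv, hp2]
    rw [h1, hψ _ hh', map_smul]
    have h2 : σ g (σ h⁻¹ (ψ (zpC u₀ p₀))) = σ (g * h⁻¹) (ψ (zpC u₀ p₀)) := by
      rw [map_mul]; rfl
    rw [h2]
    exact smul_mem_LZ σ _ _ _
  | zero =>
    rw [map_zero, map_zero, map_zero]
    exact zero_mem _
  | add F G _ _ hF hG =>
    rw [map_add, map_add, map_add]
    exact add_mem hF hG
  | neg F _ hF =>
    rw [map_neg, map_neg, map_neg]
    exact neg_mem hF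

theorem base_mem {k : ℕ} (hX : Fintype.card X = k * (k + 1) / 2) {u₀ p₀ : Word X}
    (hu₀ : IsStrip k u₀) (hp₀ : IsPath u₀ p₀) (σ : Representation ℂ (Perm X) W)
    (ψ : FF X →ₗ[ℂ] W) (ε : Perm X → ℤˣ)
    (hψ : ∀ h : Perm X, u₀ ∘ h = u₀ →
      ∀ F, ψ (frep X h F) = (((ε h : ℤˣ) : ℤ) : ℂ) • σ h (ψ F)) (g : Perm X)
    {A B A' B' : Word X} (h : Perp k A B) (h' : Perp k A' B') :
    σ g (ψ (fun b b' => res u₀ (act g⁻¹ (toC (pt A B))) b *
      res u₀ (act g⁻¹ (toC (pt A' B'))) b')) ∈ LZ σ (ψ (zpC u₀ p₀)) := by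
  have e1 : ∀ (A B : Word X) (b : X → Fin 2), res u₀ (act g⁻¹ (toC (pt A B))) b =
      ((res u₀ (pt (A ∘ g) (B ∘ g)) b : ℤ) : ℂ) := by
    intro A B b
    have : act g⁻¹ (pt A B) = pt (A ∘ g) (B ∘ g) := by
      rw [act_pt, inv_inv]
    rw [← this]
    rfl
  have e2 : (fun b b' => res u₀ (act g⁻¹ (toC (pt A B))) b *
      res u₀ (act g⁻¹ (toC (pt A' B'))) b') =
      toC2 (fun b b' => res u₀ (pt (A ∘ g) (B ∘ g)) b * res u₀ (pt (A' ∘ g) (B' ∘ g)) b') := by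
    funext b b'
    rw [e1, e1, toC2_apply]
    push_cast
    rfl
  rw [e2]
  by_cases hz : res u₀ (pt (A ∘ g) (B ∘ g)) = 0
  · have : toC2 (fun b b' => res u₀ (pt (A ∘ g) (B ∘ g)) b * res u₀ (pt (A' ∘ g) (B' ∘ g)) b')
        = 0 := by
      funext b b'
      rw [toC2_apply, hz]
      simp
    rw [this, map_zero, map_zero]
    exact zero_mem _
  by_cases hz' : res u₀ (pt (A' ∘ g) (B' ∘ g)) = 0
  · have : toC2 (fun b b' => res u₀ (pt (A ∘ g) (B ∘ g)) b * res u₀ (pt (A' ∘ g) (B' ∘ g)) b')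
        = 0 := by
      funext b b'
      rw [toC2_apply, hz']
      simp
    rw [this, map_zero, map_zero]
    exact zero_mem _
  obtain ⟨m, o, hm, hs⟩ := res_pt hX (h.comp g) hu₀ hz
  obtain ⟨m', o', hm', hs'⟩ := res_pt hX (h'.comp g) hu₀ hz'
  have hmerge := merge (u := u₀) hu₀.odd hm hm'
  have hmem := closure_mem hp₀ σ ψ ε hψ g hmerge
  have hmem' := closure_mem hp₀ σ ψ ε hψ g (neg_mem hmerge)
  rcases hs with hs | hs <;> rcases hs' with hs' | hs'
  · have : (fun b b' => res u₀ (pt (A ∘ g) (B ∘ g)) b * res u₀ (pt (A' ∘ g) (B' ∘ g)) b') =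
        (fun b b' => em m o b * em m' o' b') := by
      funext b b'; rw [hs, hs']
    rw [this]; exact hmem
  · have : (fun b b' => res u₀ (pt (A ∘ g) (B ∘ g)) b * res u₀ (pt (A' ∘ g) (B' ∘ g)) b') =
        -(fun b b' => em m o b * em m' o' b') := by
      funext b b'; rw [hs, hs']; simp
    rw [this]; exact hmem'
  · have : (fun b b' => res u₀ (pt (A ∘ g) (B ∘ g)) b * res u₀ (pt (A' ∘ g) (B' ∘ g)) b') =
        -(fun b b' => em m o b * em m' o' b') := by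
      funext b b'; rw [hs, hs']; simp
    rw [this]; exact hmem'
  · have : (fun b b' => res u₀ (pt (A ∘ g) (B ∘ g)) b * res u₀ (pt (A' ∘ g) (B' ∘ g)) b') =
        (fun b b' => em m o b * em m' o' b') := by
      funext b b'; rw [hs, hs']; simp
    rw [this]; exact hmem

/-- the general term is biadditive -/
noncomputable def term (u₀ : Word X) (σ : Representation ℂ (Perm X) W) (ψ : FF X →ₗ[ℂ] W)
    (g : Perm X) (x y : Word X → ℂ) : W :=
  σ g (ψ (fun b b' => res u₀ (act g⁻¹ x) b * res u₀ (act g⁻¹ y) b'))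

theorem term_add_left (u₀ : Word X) (σ : Representation ℂ (Perm X) W) (ψ : FF X →ₗ[ℂ] W)
    (g : Perm X) (x x' y : Word X → ℂ) :
    term u₀ σ ψ g (x + x') y = term u₀ σ ψ g x y + term u₀ σ ψ g x' y := by
  unfold term
  rw [← map_add, ← map_add]
  congr 2
  funext b b'
  exact add_mul _ _ _

theorem term_add_right (u₀ : Word X) (σ : Representation ℂ (Perm X) W) (ψ : FF X →ₗ[ℂ] W)
    (g : Perm X) (x y y' : Word X → ℂ) :
    term u₀ σ ψ g x (y + y') = term u₀ σ ψ g x y + term u₀ σ ψ g x y' := by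
  unfold term
  rw [← map_add, ← map_add]
  congr 2
  funext b b'
  exact mul_add _ _ _

theorem term_neg_left (u₀ : Word X) (σ : Representation ℂ (Perm X) W) (ψ : FF X →ₗ[ℂ] W)
    (g : Perm X) (x y : Word X → ℂ) :
    term u₀ σ ψ g (-x) y = - term u₀ σ ψ g x y := by
  unfold term
  rw [← map_neg, ← map_neg]
  congr 2
  funext b b'
  exact neg_mul _ _

theorem term_neg_right (u₀ : Word X) (σ : Representation ℂ (Perm X) W) (ψ : FF X →ₗ[ℂ] W)
    (g : Perm X) (x y : Word X → ℂ) :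
    term u₀ σ ψ g x (-y) = - term u₀ σ ψ g x y := by
  unfold term
  rw [← map_neg, ← map_neg]
  congr 2
  funext b b'
  exact mul_neg _ _

theorem term_zero_left (u₀ : Word X) (σ : Representation ℂ (Perm X) W) (ψ : FF X →ₗ[ℂ] W)
    (g : Perm X) (y : Word X → ℂ) : term u₀ σ ψ g 0 y = 0 := by
  have := term_add_left u₀ σ ψ g 0 0 y
  rw [add_zero] at this
  exact left_eq_add.1 this

theorem term_zero_right (u₀ : Word X) (σ : Representation ℂ (Perm X) W) (ψ : FF X →ₗ[ℂ] W)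
    (g : Perm X) (x : Word X → ℂ) : term u₀ σ ψ g x 0 = 0 := by
  have := term_add_right u₀ σ ψ g x 0 0
  rw [add_zero] at this
  exact left_eq_add.1 this

theorem term_mem {k : ℕ} (hX : Fintype.card X = k * (k + 1) / 2) {u₀ p₀ : Word X}
    (hu₀ : IsStrip k u₀) (hp₀ : IsPath u₀ p₀) (σ : Representation ℂ (Perm X) W)
    (ψ : FF X →ₗ[ℂ] W) (ε : Perm X → ℤˣ)
    (hψ : ∀ h : Perm X, u₀ ∘ h = u₀ →
      ∀ F, ψ (frep X h F) = (((ε h : ℤˣ) : ℤ) : ℂ) • σ h (ψ F)) (g : Perm X)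
    {x y : Word X → ℂ} (hx : x ∈ VZ k X) (hy : y ∈ VZ k X) :
    term u₀ σ ψ g x y ∈ LZ σ (ψ (zpC u₀ p₀)) := by
  unfold VZ at hx
  induction hx using AddSubgroup.closure_induction with
  | mem x hx =>
    obtain ⟨A, B, h, rfl⟩ := hx
    unfold VZ at hy
    induction hy using AddSubgroup.closure_induction with
    | mem y hy =>
      obtain ⟨A', B', h', rfl⟩ := hy
      exact base_mem hX hu₀ hp₀ σ ψ ε hψ g h h'
    | zero => rw [term_zero_right]; exact zero_mem _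
    | add y y' _ _ h1 h2 => rw [term_add_right]; exact add_mem h1 h2
    | neg y _ h1 => rw [term_neg_right]; exact neg_mem h1
  | zero => rw [term_zero_left]; exact zero_mem _
  | add x x' _ _ h1 h2 => rw [term_add_left]; exact add_mem h1 h2
  | neg x _ h1 => rw [term_neg_left]; exact neg_mem h1

end GlueA1

/-- Each term of `f₀` is integral. PROOF: bilinear, so take `x = toC (pt A B)`, `y = toC (pt A' B')`. With
`g = gu u₀ u` (`u ∘ g = u₀`: `strip_conj`, `gu_spec`): `act g⁻¹ (pt A B) = pt (A∘g) (B∘g)` (`act_pt`), its restriction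
to `u₀` is `0` or `± em m o` with `SM u₀ m o` (`res_pt`), same for `y`; by `merge` (`IsStrip.odd`) the product is in
the closure of the `zp u₀ p`, and `ψ (zpC u₀ p) = ± σ h (ψ (zpC u₀ p₀))` (`path_conj`, `zp_comp`, equivariance of
`ψ`) lies in `LZ σ w₀`, which is stable under all `σ g`. -/
theorem f0_term_mem {k : ℕ} (hX : Fintype.card X = k * (k + 1) / 2) {u₀ p₀ : Word X}
    (hu₀ : IsStrip k u₀) (hp₀ : IsPath u₀ p₀) (σ : Representation ℂ (Perm X) W)
    (ψ : FF X →ₗ[ℂ] W) (ε : Perm X → ℤˣ)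
    (hψ : ∀ h : Perm X, u₀ ∘ h = u₀ →
      ∀ F, ψ (frep X h F) = (((ε h : ℤˣ) : ℤ) : ℂ) • σ h (ψ F))
    {u : Word X} (hu : IsStrip k u)
    {x y : Word X → ℂ} (hx : x ∈ VZ k X) (hy : y ∈ VZ k X) :
    σ (gu u₀ u) (ψ (fun b b' => res u₀ (act (gu u₀ u)⁻¹ x) b * res u₀ (act (gu u₀ u)⁻¹ y) b')) ∈
      LZ σ (ψ (zpC u₀ p₀)) :=
  GlueA1.term_mem hX hu₀ hp₀ σ ψ ε hψ (gu u₀ u) hx hy

/-- immediate from `f0_term_mem` -/
theorem f0_mem {k : ℕ} (hX : Fintype.card X = k * (k + 1) / 2) {u₀ p₀ : Word X}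
    (hu₀ : IsStrip k u₀) (hp₀ : IsPath u₀ p₀) (σ : Representation ℂ (Perm X) W)
    (ψ : FF X →ₗ[ℂ] W) (ε : Perm X → ℤˣ)
    (hψ : ∀ h : Perm X, u₀ ∘ h = u₀ →
      ∀ F, ψ (frep X h F) = (((ε h : ℤˣ) : ℤ) : ℂ) • σ h (ψ F))
    {x y : Word X → ℂ} (hx : x ∈ VZ k X) (hy : y ∈ VZ k X) :
    f0 k u₀ σ ψ x y ∈ LZ σ (ψ (zpC u₀ p₀)) := by
  unfold f0
  exact AddSubgroup.sum_mem _ fun u hu =>
    f0_term_mem hX hu₀ hp₀ σ ψ ε hψ (mem_filter.1 hu).2 hx hy

end Crest.Agent.Saxl
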