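import Crest.Agent.Saxl.GlueA1

/-!
CHUNK GLUE-A2 (medium): f0_equiv.
-/

set_option autoImplicit false

namespace Crest.Agent.Saxl

open Finset Equiv

variable {X : Type} [Fintype X] [DecidableEq X]

variable {W : Type} [AddCommGroup W] [Module ℂ W]

private lemma isStrip_comp {k : ℕ} {u : Word X} (hu : IsStrip k u) (g : Perm X) :
    IsStrip k (u ∘ g) := by
  intro i
  rw [← hu i]
  refine Finset.card_bij (fun x _ => g x) ?_ ?_ ?_
  · intro x hx
    simpa using hx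
  · intro x _ y _ hxy
    exact g.injective hxy
  · intro y hy
    refine ⟨g.symm y, ?_, ?_⟩
    · simpa using hy
    · simp

private lemma LZ_stable (σ : Representation ℂ (Perm X) W) (w : W) (g : Perm X) {t : W}
    (ht : t ∈ LZ σ w) : σ g t ∈ LZ σ w := by
  unfold LZ at ht ⊢
  induction ht using AddSubgroup.closure_induction with
  | mem x hx =>
    obtain ⟨h, rfl⟩ := hx
    apply AddSubgroup.subset_closure
    refine ⟨g * h, ?_⟩
    simp [map_mul]
  | zero => simp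
  | add x y _ _ hx hy => rw [map_add]; exact AddSubgroup.add_mem _ hx hy
  | neg x _ hx => rw [map_neg]; exact AddSubgroup.neg_mem _ hx

/-- one term of `f₀` -/
private noncomputable def f0t (u₀ : Word X) (σ : Representation ℂ (Perm X) W)
    (ψ : FF X →ₗ[ℂ] W) (x y : Word X → ℂ) (u : Word X) : W :=
  σ (gu u₀ u) (ψ (fun b b' => res u₀ (act (gu u₀ u)⁻¹ x) b * res u₀ (act (gu u₀ u)⁻¹ y) b'))

private lemma res_act {u₀ : Word X} {h : Perm X} (hh : u₀ ∘ h = u₀) (f : Word X → ℂ)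
    (b : X → Fin 2) : res u₀ (act h f) b = res u₀ f (b ∘ h) := by
  unfold res act
  congr 1
  funext x
  have := congrFun hh x
  simp only [Function.comp_apply] at this ⊢
  rw [this]

private lemma term_equiv {k : ℕ} {u₀ : Word X}
    (hu₀ : IsStrip k u₀) (σ : Representation ℂ (Perm X) W)
    (ψ : FF X →ₗ[ℂ] W) (ε : Perm X → ℤˣ)
    (hψ : ∀ h : Perm X, u₀ ∘ h = u₀ →
      ∀ F, ψ (frep X h F) = (((ε h : ℤˣ) : ℤ) : ℂ) • σ h (ψ F))
    (g : Perm X) (x y : Word X → ℂ) {u : Word X} (hu : IsStrip k u) :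
    ∃ e : ℤˣ, f0t u₀ σ ψ (act g x) (act g y) u =
      (((e : ℤˣ) : ℤ) : ℂ) • σ g (f0t u₀ σ ψ x y (u ∘ g)) := by
  have h1 : u ∘ gu u₀ u = u₀ := gu_spec (strip_conj hu hu₀)
  have h2 : (u ∘ g) ∘ gu u₀ (u ∘ g) = u₀ := gu_spec (strip_conj (isStrip_comp hu g) hu₀)
  set a := gu u₀ u with ha
  set a' := gu u₀ (u ∘ g) with ha'
  set h : Perm X := a⁻¹ * g * a' with hh
  have hu₀h : u₀ ∘ h = u₀ := by
    funext z
    have e1 := congrFun h1 (a⁻¹ (g (a' z)))
    have e2 := congrFun h2 z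
    have e4 : a (a⁻¹ (g (a' z))) = g (a' z) := by simp
    simp only [Function.comp_apply] at e1 e2
    rw [e4] at e1
    simp only [Function.comp_apply, hh, Perm.mul_apply]
    rw [← e1, e2]
  have hag : a⁻¹ * g = h * a'⁻¹ := by rw [hh]; group
  have hF : (fun b b' => res u₀ (act a⁻¹ (act g x)) b * res u₀ (act a⁻¹ (act g y)) b') =
      frep X h (fun b b' => res u₀ (act a'⁻¹ x) b * res u₀ (act a'⁻¹ y) b') := by
    funext b b'
    have key : ∀ (f : Word X → ℂ) (b : X → Fin 2), res u₀ (act a⁻¹ (act g f)) b =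
        res u₀ (act a'⁻¹ f) (b ∘ h) := by
      intro f b
      have : act a⁻¹ (act g f) = act h (act a'⁻¹ f) := by
        change act (a⁻¹ * g) f = act (h * a'⁻¹) f
        rw [hag]
      rw [this, res_act hu₀h]
    rw [frep_apply, key, key]
  refine ⟨ε h, ?_⟩
  unfold f0t
  rw [← ha, ← ha', hF, hψ h hu₀h, map_smul]
  congr 1
  have e3 : a * h = g * a' := by rw [hh]; group
  change (σ a * σ h) _ = (σ g * σ a') _
  rw [← map_mul, ← map_mul, e3]

/-- `f₀` is `G`-equivariant modulo `2L`. PROOF: the term of `u` in `f₀(g x, g y)` involves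
`gu(u)⁻¹ g`, and with `u' = u ∘ g` one has `gu(u)⁻¹ g = h gu(u')⁻¹` with `u₀ ∘ h = u₀`
(`strip_conj`, `gu_spec`); so the term is
`σ(gu u) ψ(h • F) = ± σ(gu u) σ(h) ψ F = ± σ(g) σ(gu u') ψ F`, i.e. `± σ(g)` of the term of `u'`,
which lies in `L` (`f0_term_mem`). -/
theorem f0_equiv {k : ℕ} (hX : Fintype.card X = k * (k + 1) / 2) {u₀ p₀ : Word X}
    (hu₀ : IsStrip k u₀) (hp₀ : IsPath u₀ p₀) (σ : Representation ℂ (Perm X) W)
    (ψ : FF X →ₗ[ℂ] W) (ε : Perm X → ℤˣ)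
    (hψ : ∀ h : Perm X, u₀ ∘ h = u₀ →
      ∀ F, ψ (frep X h F) = (((ε h : ℤˣ) : ℤ) : ℂ) • σ h (ψ F))
    (g : Perm X) {x y : Word X → ℂ} (hx : x ∈ VZ k X) (hy : y ∈ VZ k X) :
    ∃ s ∈ LZ σ (ψ (zpC u₀ p₀)),
      f0 k u₀ σ ψ (act g x) (act g y) = σ g (f0 k u₀ σ ψ x y) + (s + s) := by
  classical
  set S := (Wd k X).filter (fun u => IsStrip k u) with hS
  set L := LZ σ (ψ (zpC u₀ p₀)) with hL
  have hWd : ∀ (u : Word X) (g : Perm X), u ∈ Wd k X → u ∘ g ∈ Wd k X := by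
    intro u g hu
    unfold Wd at hu ⊢
    rw [mem_image] at hu ⊢
    obtain ⟨T, _, rfl⟩ := hu
    exact ⟨T ∘ g, mem_univ _, rfl⟩
  have hSg : ∀ (u : Word X) (g : Perm X), u ∈ S → u ∘ g ∈ S := by
    intro u g hu
    rw [hS, mem_filter] at hu ⊢
    exact ⟨hWd u g hu.1, isStrip_comp hu.2 g⟩
  have hmem : ∀ u ∈ S, f0t u₀ σ ψ x y u ∈ L := by
    intro u hu
    rw [hS, mem_filter] at hu
    exact f0_term_mem hX hu₀ hp₀ σ ψ ε hψ hu.2 hx hy
  -- choose the signs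
  have hterm : ∀ u ∈ S, ∃ s ∈ L, f0t u₀ σ ψ (act g x) (act g y) u =
      σ g (f0t u₀ σ ψ x y (u ∘ g)) + (s + s) := by
    intro u hu
    have huS := hu
    rw [hS, mem_filter] at hu
    obtain ⟨e, he⟩ := term_equiv hu₀ σ ψ ε hψ g x y hu.2
    rcases Int.units_eq_one_or e with h1 | h1
    · refine ⟨0, AddSubgroup.zero_mem _, ?_⟩
      rw [he, h1]
      simp
    · refine ⟨- σ g (f0t u₀ σ ψ x y (u ∘ g)), ?_, ?_⟩
      · exact AddSubgroup.neg_mem _ (LZ_stable σ _ g (hmem _ (hSg u g huS)))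
      · rw [he, h1]
        simp
  choose! s hs hst using hterm
  refine ⟨∑ u ∈ S, s u, AddSubgroup.sum_mem _ hs, ?_⟩
  have e1 : f0 k u₀ σ ψ (act g x) (act g y) =
      ∑ u ∈ S, f0t u₀ σ ψ (act g x) (act g y) u := rfl
  have e2 : f0 k u₀ σ ψ x y = ∑ u ∈ S, f0t u₀ σ ψ x y u := rfl
  have e3 : ∑ u ∈ S, f0t u₀ σ ψ x y u = ∑ u ∈ S, f0t u₀ σ ψ x y (u ∘ g) := by
    refine (Finset.sum_bij (fun u _ => u ∘ g) (fun u hu => hSg u g hu) ?_ ?_ ?_).symm
    · intro u _ v _ huv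
      have : (u ∘ g) ∘ (g⁻¹ : Perm X) = (v ∘ g) ∘ (g⁻¹ : Perm X) := by rw [huv]
      funext z
      have := congrFun this z
      simpa using this
    · intro v hv
      refine ⟨v ∘ (g⁻¹ : Perm X), hSg v g⁻¹ hv, ?_⟩
      funext z
      simp
    · intro u _
      rfl
  rw [e1, e2, e3, map_sum, ← sum_add_distrib, ← sum_add_distrib]
  exact Finset.sum_congr rfl hst

end Crest.Agent.Saxl
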