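import Crest.Agent.Saxl.Defs

/-!
CHUNK PATHCONJ (easy).
-/

set_option autoImplicit false

namespace Crest.Agent.Saxl

open Finset Equiv

variable {X : Type} [Fintype X] [DecidableEq X]

private lemma bsize_congr {u : Word X} {x y : X} (h : u x = u y) : bsize u x = bsize u y := by
  unfold bsize
  rw [h]

private lemma path_surj {u p : Word X} (hp : IsPath u p) (x : X) (j : ℕ) (hj : j < bsize u x) :
    ∃ y, u y = u x ∧ p y = j := by
  have h1 : ((univ.filter (fun y => u y = u x)).image p).card = (range (bsize u x)).card := by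
    rw [card_image_of_injOn, card_range]
    · rfl
    · intro a ha b hb hab
      have ha' : u a = u x := by simpa using ha
      have hb' : u b = u x := by simpa using hb
      have hab' : p a = p b := hab
      apply hp.1
      show (u a, p a) = (u b, p b)
      rw [ha', hb', hab']
  have h2 : (univ.filter (fun y => u y = u x)).image p ⊆ range (bsize u x) := by
    intro a ha
    obtain ⟨y, hy, rfl⟩ := mem_image.1 ha
    have hy' : u y = u x := by simpa using hy
    rw [mem_range, ← bsize_congr hy']
    exact hp.2 y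
  have h3 := eq_of_subset_of_card_le h2 h1.ge
  have h4 : j ∈ (univ.filter (fun y => u y = u x)).image p := by
    rw [h3, mem_range]; exact hj
  obtain ⟨y, hy, hy2⟩ := mem_image.1 h4
  exact ⟨y, by simpa using hy, hy2⟩

/-- `Perm X` preserving `u` acts simply transitively on position functions. -/
theorem path_conj {u p p' : Word X} (hp : IsPath u p) (hp' : IsPath u p') :
    ∃ h : Perm X, u ∘ h = u ∧ p' ∘ h = p := by
  choose f hf using fun x => path_surj hp' x (p x) (hp.2 x)
  have hinj : Function.Injective f := by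
    intro a b hab
    apply hp.1
    show (u a, p a) = (u b, p b)
    rw [← (hf a).1, ← (hf a).2, ← (hf b).1, ← (hf b).2, hab]
  have hbij : Function.Bijective f := Finite.injective_iff_bijective.1 hinj
  refine ⟨Equiv.ofBijective f hbij, ?_, ?_⟩
  · funext x
    exact (hf x).1
  · funext x
    exact (hf x).2

theorem zp_comp {u p : Word X} (h : Perm X) (hh : u ∘ h = u) (b b' : X → Fin 2) :
    zp u p (b ∘ h) (b' ∘ h) = zp u (p ∘ (h⁻¹ : Perm X)) b b' := by
  have hu : ∀ x, u (h x) = u x := fun x => congrFun hh x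
  have hb : ∀ x, bsize u (h x) = bsize u x := fun x => bsize_congr (hu x)
  have key1 : ∀ (P : ℕ → Prop) [DecidablePred P] (c : X → Fin 2),
      (∏ q ∈ (univ : Finset (X × X)).filter
        (fun q => u q.1 = u q.2 ∧ p q.2 = p q.1 + 1 ∧ P (p q.1)),
        (((((c ∘ h) q.2 : Fin 2) : ℕ) : ℤ) - ((((c ∘ h) q.1 : Fin 2) : ℕ) : ℤ))) =
      ∏ q ∈ (univ : Finset (X × X)).filter
        (fun q => u q.1 = u q.2 ∧ (p ∘ (h⁻¹ : Perm X)) q.2 = (p ∘ (h⁻¹ : Perm X)) q.1 + 1 ∧
          P ((p ∘ (h⁻¹ : Perm X)) q.1)),
        ((((c q.2 : Fin 2) : ℕ) : ℤ) - (((c q.1 : Fin 2) : ℕ) : ℤ)) := by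
    intro P _ c
    refine Finset.prod_equiv (Equiv.prodCongr h h) ?_ ?_
    · intro q
      simp [hu]
    · intro q _
      simp
  have key2 : ∀ (c : X → Fin 2),
      (∏ x ∈ univ.filter (fun x => p x + 1 = bsize u x), (1 - ((((c ∘ h) x : Fin 2) : ℕ) : ℤ))) =
      ∏ x ∈ univ.filter (fun x => (p ∘ (h⁻¹ : Perm X)) x + 1 = bsize u x),
        (1 - (((c x : Fin 2) : ℕ) : ℤ)) := by
    intro c
    refine Finset.prod_equiv h ?_ ?_
    · intro x
      simp [hb]
    · intro x _
      simp
  have key3 : ∀ (c : X → Fin 2),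
      (∏ x ∈ univ.filter (fun x => p x = 0), (1 - ((((c ∘ h) x : Fin 2) : ℕ) : ℤ))) =
      ∏ x ∈ univ.filter (fun x => (p ∘ (h⁻¹ : Perm X)) x = 0),
        (1 - (((c x : Fin 2) : ℕ) : ℤ)) := by
    intro c
    refine Finset.prod_equiv h ?_ ?_
    · intro x
      simp
    · intro x _
      simp
  unfold zp
  rw [key1 Even b, key1 Odd b', key2, key3]

theorem IsPath.comp {u p : Word X} (hp : IsPath u p) (h : Perm X) (hh : u ∘ h = u) :
    IsPath u (p ∘ h) := by
  have hu : ∀ x, u (h x) = u x := fun x => congrFun hh x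
  refine ⟨?_, ?_⟩
  · intro a b hab
    apply h.injective
    apply hp.1
    have h1 : (u a, p (h a)) = (u b, p (h b)) := hab
    show (u (h a), p (h a)) = (u (h b), p (h b))
    rw [hu, hu]
    exact h1
  · intro x
    show p (h x) < bsize u x
    rw [← bsize_congr (hu x)]
    exact hp.2 (h x)

theorem exists_path (u : Word X) : ∃ p, IsPath u p := by
  classical
  set e := Fintype.equivFin X
  have hlt : ∀ x y : X, u x = u y → e x < e y →
      (univ.filter (fun z => u z = u x ∧ e z < e x)).card <
        (univ.filter (fun z => u z = u y ∧ e z < e y)).card := by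
    intro x y hxy hlt
    refine card_lt_card ⟨?_, ?_⟩
    · intro z hz
      simp only [mem_filter, mem_univ, true_and] at hz ⊢
      exact ⟨hz.1.trans hxy, hz.2.trans hlt⟩
    · intro hsub
      have h1 : x ∈ univ.filter (fun z => u z = u y ∧ e z < e y) := by
        simp only [mem_filter, mem_univ, true_and]
        exact ⟨hxy, hlt⟩
      have h2 := hsub h1
      simp at h2
  refine ⟨fun x => (univ.filter (fun z => u z = u x ∧ e z < e x)).card, ?_, ?_⟩
  · intro x y hxy
    simp only [Prod.mk.injEq] at hxy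
    obtain ⟨h1, h2⟩ := hxy
    by_contra hne
    rcases lt_or_gt_of_ne (fun h => hne (e.injective h)) with h | h
    · exact absurd h2 (hlt x y h1 h).ne
    · exact absurd h2 (hlt y x h1.symm h).ne'
  · intro x
    refine card_lt_card ⟨?_, ?_⟩
    · intro z hz
      simp only [mem_filter, mem_univ, true_and] at hz ⊢
      exact hz.1
    · intro hsub
      have h1 : x ∈ univ.filter (fun z => u z = u x) := by simp
      have h2 := hsub h1
      simp at h2

/-- sizes of strips are odd -/
theorem IsStrip.odd {k : ℕ} {u : Word X} (hu : IsStrip k u) (x : X) : Odd (bsize u x) := by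
  have h1 : bsize u x = if 2 * u x < k then 2 * (k - 2 * u x) - 1 else 0 := hu (u x)
  have h2 : 0 < bsize u x := card_pos.2 ⟨x, by simp⟩
  by_cases h : 2 * u x < k
  · rw [h1, if_pos h]
    exact ⟨k - 2 * u x - 1, by omega⟩
  · rw [h1, if_neg h] at h2
    exact absurd h2 (lt_irrefl 0)

end Crest.Agent.Saxl
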