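import Crest.Agent.Saxl.GlueDefs
import Crest.Agent.Saxl.Uniq
import Crest.Agent.Saxl.PathConj

/-!
CHUNK GLUE-A3 (medium): f0_value.
-/

set_option autoImplicit false

namespace Crest.Agent.Saxl

open Finset Equiv

variable {X : Type} [Fintype X] [DecidableEq X]

variable {W : Type} [AddCommGroup W] [Module ℂ W]

omit [DecidableEq X] in
/-- block sizes are transported by permutations -/
private lemma bsize_comp' (u : Word X) (g : Perm X) (x : X) : bsize (u ∘ g) x = bsize u (g x) := by
  unfold bsize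
  apply Finset.card_bij (fun y _ => g y)
  · intro y hy
    simpa using hy
  · intro a _ b _ h
    exact g.injective h
  · intro y hy
    refine ⟨g⁻¹ y, ?_, by simp⟩
    simpa using hy

/-- the path element transported by an arbitrary permutation -/
private lemma zp_comp_gen (u p : Word X) (g : Perm X) (b b' : X → Fin 2) :
    zp u p (b ∘ (g⁻¹ : Perm X)) (b' ∘ (g⁻¹ : Perm X)) = zp (u ∘ g) (p ∘ g) b b' := by
  unfold zp
  congr 1
  · congr 1
    · symm
      apply Finset.prod_bij (fun q _ => ((g q.1, g q.2) : X × X))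
      · intro q hq
        simpa using hq
      · intro q _ q' _ h
        simp only [Prod.mk.injEq, EmbeddingLike.apply_eq_iff_eq] at h
        exact Prod.ext h.1 h.2
      · intro q hq
        refine ⟨(g⁻¹ q.1, g⁻¹ q.2), ?_, by simp⟩
        simpa using hq
      · intro q _
        simp
    · symm
      apply Finset.prod_bij (fun x _ => g x)
      · intro x hx
        simp only [Finset.mem_filter, Finset.mem_univ, true_and, Function.comp_apply,
          bsize_comp'] at hx ⊢
        exact hx
      · intro a _ b _ h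
        exact g.injective h
      · intro x hx
        refine ⟨g⁻¹ x, ?_, by simp⟩
        simp only [Finset.mem_filter, Finset.mem_univ, true_and, Function.comp_apply,
          bsize_comp'] at hx ⊢
        rw [show g (g⁻¹ x) = x from by simp]
        exact hx
      · intro x _
        simp
  · congr 1
    · symm
      apply Finset.prod_bij (fun q _ => ((g q.1, g q.2) : X × X))
      · intro q hq
        simpa using hq
      · intro q _ q' _ h
        simp only [Prod.mk.injEq, EmbeddingLike.apply_eq_iff_eq] at h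
        exact Prod.ext h.1 h.2
      · intro q hq
        refine ⟨(g⁻¹ q.1, g⁻¹ q.2), ?_, by simp⟩
        simpa using hq
      · intro q _
        simp
    · symm
      apply Finset.prod_bij (fun x _ => g x)
      · intro x hx
        simpa using hx
      · intro a _ b _ h
        exact g.injective h
      · intro x hx
        refine ⟨g⁻¹ x, ?_, by simp⟩
        simpa using hx
      · intro x _
        simp

private lemma isPath_comp_gen {u p : Word X} (hp : IsPath u p) (g : Perm X) :
    IsPath (u ∘ g) (p ∘ g) := by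
  refine ⟨fun x y hxy => ?_, fun x => ?_⟩
  · simp only [Function.comp_apply] at hxy
    exact g.injective (hp.1 hxy)
  · rw [bsize_comp']
    exact hp.2 (g x)

/-- The value of `f₀` at `e_A ⊗ e_B`: only the strip word `u = uAB` contributes (`strip_unique`: if the
restriction of `pt A B` and of `pt B A` to `u` are both nonzero then `u = uAB k A B`), and it
contributes `± σ(g) ψ(zpC u₀ p)` (`res_uAB`). -/
theorem f0_value {k : ℕ} (hX : Fintype.card X = k * (k + 1) / 2) {u₀ p₀ A B : Word X}
    (hAB : Perp k A B)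
    (hu₀ : IsStrip k u₀) (hp₀ : IsPath u₀ p₀) (σ : Representation ℂ (Perm X) W)
    (ψ : FF X →ₗ[ℂ] W) (ε : Perm X → ℤˣ)
    (hψ : ∀ h : Perm X, u₀ ∘ h = u₀ →
      ∀ F, ψ (frep X h F) = (((ε h : ℤˣ) : ℤ) : ℂ) • σ h (ψ F)) :
    ∃ g : Perm X, f0 k u₀ σ ψ (toC (pt A B)) (toC (pt B A)) = σ g (ψ (zpC u₀ p₀)) ∨
      f0 k u₀ σ ψ (toC (pt A B)) (toC (pt B A)) = - σ g (ψ (zpC u₀ p₀)) := by
  set u : Word X := uAB k A B with hu
  have hus : IsStrip k u := isStrip_uAB hX hAB
  have hmem : u ∈ (Wd k X).filter (fun u => IsStrip k u) := by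
    rw [Finset.mem_filter]
    refine ⟨?_, hus⟩
    rw [mem_Wd]
    intro x
    have := hAB.2 x
    have h2 : u x = (k - 1 - (A x + B x)) / 2 := rfl
    omega
  -- general form of the restriction
  have hres : ∀ (v : Word X), IsStrip k v → ∀ (f : Word X → ℂ) (b : X → Fin 2),
      res u₀ (act (gu u₀ v)⁻¹ f) b = res v f (b ∘ ((gu u₀ v)⁻¹ : Perm X)) := by
    intro v hv f b
    have hg := gu_spec (strip_conj hv hu₀)
    unfold res act
    congr 1
    funext x
    have hx := congrFun hg ((gu u₀ v)⁻¹ x)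
    rw [Function.comp_apply, show (gu u₀ v) ((gu u₀ v)⁻¹ x) = x from by simp] at hx
    simp only [Function.comp_apply]
    rw [hx]
  have hval : f0 k u₀ σ ψ (toC (pt A B)) (toC (pt B A)) =
      σ (gu u₀ u) (ψ (fun b b' => res u₀ (act (gu u₀ u)⁻¹ (toC (pt A B))) b *
        res u₀ (act (gu u₀ u)⁻¹ (toC (pt B A))) b')) := by
    unfold f0
    apply Finset.sum_eq_single_of_mem u hmem
    intro v hv hne
    rw [Finset.mem_filter] at hv
    have hz : (fun b b' => res u₀ (act (gu u₀ v)⁻¹ (toC (pt A B))) b *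
        res u₀ (act (gu u₀ v)⁻¹ (toC (pt B A))) b' : FF X) = 0 := by
      funext b b'
      rw [hres v hv.2, hres v hv.2]
      by_contra hcon
      simp only [Pi.zero_apply] at hcon
      have h1 : res v (toC (pt A B)) (b ∘ ((gu u₀ v)⁻¹ : Perm X)) ≠ 0 := left_ne_zero_of_mul hcon
      have h2 : res v (toC (pt B A)) (b' ∘ ((gu u₀ v)⁻¹ : Perm X)) ≠ 0 := right_ne_zero_of_mul hcon
      apply hne
      refine strip_unique hX hAB hv.2 (b ∘ ((gu u₀ v)⁻¹ : Perm X)) (b' ∘ ((gu u₀ v)⁻¹ : Perm X)) ?_ ?_
      · by_contra hP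
        apply h1
        unfold res toC
        rw [pt_not_perp hAB hP]
        simp
      · by_contra hP
        apply h2
        unfold res toC
        rw [pt_not_perp hAB.symm hP]
        simp
    rw [hz]
    simp
  obtain ⟨p, hp, hpz⟩ := res_uAB hX hAB
  have hg := gu_spec (strip_conj hus hu₀)
  set g : Perm X := gu u₀ u with hgdef
  have hp' : IsPath u₀ (p ∘ g) := by
    have := isPath_comp_gen hp g
    rwa [← hu, hg] at this
  obtain ⟨h, hh, hhp⟩ := path_conj hp' hp₀
  have hh' : u₀ ∘ (h⁻¹ : Perm X) = u₀ := (Hs u₀).inv_mem hh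
  -- the path element
  have hz1 : ∀ b b', zp u p (b ∘ (g⁻¹ : Perm X)) (b' ∘ (g⁻¹ : Perm X)) =
      zp u₀ p₀ (b ∘ (h⁻¹ : Perm X)) (b' ∘ (h⁻¹ : Perm X)) := by
    intro b b'
    rw [zp_comp_gen, zp_comp_gen, hg, hh, hhp]
  have hF : (fun b b' => res u₀ (act g⁻¹ (toC (pt A B))) b *
        res u₀ (act g⁻¹ (toC (pt B A))) b' : FF X) = frep X h⁻¹ (zpC u₀ p₀) ∨
      (fun b b' => res u₀ (act g⁻¹ (toC (pt A B))) b *
        res u₀ (act g⁻¹ (toC (pt B A))) b' : FF X) = - frep X h⁻¹ (zpC u₀ p₀) := by
    have hcast : ∀ c c' : X → Fin 2, res u (toC (pt A B)) c * res u (toC (pt B A)) c' =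
        ((res u (pt A B) c * res u (pt B A) c' : ℤ) : ℂ) := by
      intro c c'
      simp [res, toC]
    rcases hpz with hpz | hpz
    · left
      funext b b'
      rw [hres u hus, hres u hus, hcast, hpz]
      simp only [frep_apply, zpC]
      rw [← hz1]
    · right
      funext b b'
      rw [hres u hus, hres u hus, hcast, hpz]
      simp only [Pi.neg_apply, frep_apply, zpC]
      rw [← hz1]
      push_cast
      rfl
  have hψ' := hψ h⁻¹ hh' (zpC u₀ p₀)
  have hsgn : ψ (frep X h⁻¹ (zpC u₀ p₀)) = σ h⁻¹ (ψ (zpC u₀ p₀)) ∨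
      ψ (frep X h⁻¹ (zpC u₀ p₀)) = - σ h⁻¹ (ψ (zpC u₀ p₀)) := by
    rcases Int.units_eq_one_or (ε h⁻¹) with he | he
    · left
      rw [hψ', he]
      simp
    · right
      rw [hψ', he]
      simp
  refine ⟨g * h⁻¹, ?_⟩
  rw [hval, map_mul, Module.End.mul_apply]
  rcases hF with hF | hF <;> rcases hsgn with hs | hs
  · left
    rw [hF, hs]
  · right
    rw [hF, hs, map_neg]
  · right
    rw [hF, map_neg, hs, map_neg]
  · left
    rw [hF, map_neg, hs, neg_neg]

end Crest.Agent.Saxl
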