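import Crest.Agent.Saxl.Defs

/-!
Definitions for the gluing step; CHUNK STRIPCONJ = strip_conj (easy).
-/

set_option autoImplicit false

namespace Crest.Agent.Saxl

open Finset Equiv

variable {X : Type} [Fintype X] [DecidableEq X]

/-- a permutation `g` with `u ∘ g = u₀`, if there is one -/
noncomputable def gu (u₀ u : Word X) : Perm X := by
  classical
  exact if h : ∃ g : Perm X, u ∘ g = u₀ then h.choose else 1

lemma gu_spec {u₀ u : Word X} (h : ∃ g : Perm X, u ∘ g = u₀) : u ∘ gu u₀ u = u₀ := by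
  unfold gu
  rw [dif_pos h]
  exact h.choose_spec

/-- strip words are conjugate -/
theorem strip_conj {k : ℕ} {u u₀ : Word X} (hu : IsStrip k u) (hu₀ : IsStrip k u₀) :
    ∃ g : Perm X, u ∘ g = u₀ := by
  have hc : ∀ i, Nonempty ({x // u₀ x = i} ≃ {x // u x = i}) := fun i => by
    rw [← Fintype.card_eq, Fintype.card_subtype, Fintype.card_subtype, hu i, hu₀ i]
  let e : ∀ i, {x // u₀ x = i} ≃ {x // u x = i} := fun i => (hc i).some
  refine ⟨(Equiv.sigmaFiberEquiv u₀).symm.trans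
    ((Equiv.sigmaCongrRight e).trans (Equiv.sigmaFiberEquiv u)), ?_⟩
  funext x
  exact (e (u₀ x) ⟨x, rfl⟩).2

/-- The bilinear map `f₀(x,y) = ∑_u g_u ψ(res(g_u⁻¹ x) ⊗ res(g_u⁻¹ y))`, the sum over all strip words. -/
noncomputable def f0 {W : Type} [AddCommGroup W] [Module ℂ W] (k : ℕ) (u₀ : Word X)
    (σ : Representation ℂ (Perm X) W) (ψ : FF X →ₗ[ℂ] W) (x y : Word X → ℂ) : W :=
  ∑ u ∈ (Wd k X).filter (fun u => IsStrip k u),
    σ (gu u₀ u) (ψ (fun b b' => res u₀ (act (gu u₀ u)⁻¹ x) b * res u₀ (act (gu u₀ u)⁻¹ y) b'))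

/-- The lattice spanned by polytabloids (complexified). -/
def VZ (k : ℕ) (X : Type) [Fintype X] [DecidableEq X] : AddSubgroup (Word X → ℂ) :=
  AddSubgroup.closure {f | ∃ A B : Word X, Perp k A B ∧ f = toC (pt A B)}

/-- The lattice `ℤG w`. -/
def LZ {W : Type} [AddCommGroup W] [Module ℂ W] (σ : Representation ℂ (Perm X) W) (w : W) :
    AddSubgroup W := AddSubgroup.closure (Set.range fun g : Perm X => σ g w)

end Crest.Agent.Saxl
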