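import Crest.Agent.Saxl.IrrA
import Crest.Agent.Saxl.Shapes

/-!
CHUNK IRR-B (medium; only the definitions of IrrA and `shape_dom` of Shapes are used).
-/

set_option autoImplicit false

namespace Crest.Agent.Saxl

open Finset Equiv

variable {X : Type} [Fintype X] [DecidableEq X]

private noncomputable def AR (ρ : Word X) : MonoidAlgebra ℂ (Perm X) :=
  ∑ r ∈ Rs ρ, MonoidAlgebra.of ℂ (Perm X) r

private noncomputable def BR (κ : Word X) : MonoidAlgebra ℂ (Perm X) :=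
  ∑ c ∈ Rs κ, (((Perm.sign c : ℤˣ) : ℤ) : ℂ) • MonoidAlgebra.of ℂ (Perm X) c

private theorem EP_eq (ρ κ : Word X) : EP ρ κ = AR ρ * BR κ := by
  unfold EP AR BR
  rw [Finset.sum_mul_sum]
  refine Finset.sum_congr rfl fun r _ => Finset.sum_congr rfl fun c _ => ?_
  rw [mul_smul_comm, map_mul]

private theorem mem_Rs {w : Word X} {g : Perm X} : g ∈ Rs w ↔ w ∘ g = w := by
  simp [Rs]

private theorem of_mul_AR {ρ : Word X} {τ : Perm X} (hτ : ρ ∘ τ = ρ) :
    MonoidAlgebra.of ℂ (Perm X) τ * AR ρ = AR ρ := by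
  unfold AR
  rw [Finset.mul_sum]
  refine Finset.sum_equiv (Equiv.mulLeft τ) (fun r => ?_) (fun r _ => ?_)
  · rw [mem_Rs, mem_Rs]
    have e : ρ ∘ ((Equiv.mulLeft τ) r : Perm X) = (ρ ∘ τ) ∘ r := rfl
    rw [e, hτ]
  · rw [← map_mul]
    rfl

private theorem BR_mul_of {κ : Word X} {τ : Perm X} (hτ : κ ∘ τ = κ) :
    BR κ * MonoidAlgebra.of ℂ (Perm X) τ = (((Perm.sign τ : ℤˣ) : ℤ) : ℂ) • BR κ := by
  unfold BR
  rw [Finset.sum_mul, Finset.smul_sum]
  refine Finset.sum_equiv (Equiv.mulRight τ) (fun c => ?_) (fun c _ => ?_)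
  · rw [mem_Rs, mem_Rs]
    have e : κ ∘ ((Equiv.mulRight τ) c : Perm X) = (κ ∘ c) ∘ τ := rfl
    rw [e]
    constructor
    · intro h; rw [h, hτ]
    · intro h
      have h2 : (κ ∘ c) ∘ τ = κ ∘ τ := by rw [h, hτ]
      exact τ.surjective.injective_comp_right h2
  · rw [smul_mul_assoc, ← map_mul, smul_smul]
    have e : (Equiv.mulRight τ) c = c * τ := rfl
    rw [e, Perm.sign_mul]
    congr 1
    have h1 : (Perm.sign τ : ℤˣ) * (Perm.sign c * Perm.sign τ) = Perm.sign c := by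
      rw [mul_comm (Perm.sign c), ← mul_assoc, Int.units_mul_self, one_mul]
    have h2 := congrArg (fun z : ℤˣ => (((z : ℤˣ) : ℤ) : ℂ)) h1
    simp only [Units.val_mul, Int.cast_mul] at h2
    rw [Units.val_mul, Int.cast_mul]
    exact h2.symm

private theorem inj_of_ne {κ ρ' : Word X} {g : Perm X}
    (hne : BR κ * MonoidAlgebra.of ℂ (Perm X) g * AR ρ' ≠ 0) :
    Function.Injective (fun x => (κ x, ρ' (g⁻¹ x))) := by
  intro x y hxy
  by_contra hne'
  simp only [Prod.mk.injEq] at hxy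
  obtain ⟨h1, h2⟩ := hxy
  apply hne
  have hτ : κ ∘ (swap x y : Perm X) = κ := by
    funext z
    simp only [Function.comp_apply]
    by_cases hx : z = x
    · rw [hx, swap_apply_left, h1]
    · by_cases hy : z = y
      · rw [hy, swap_apply_right, h1]
      · rw [swap_apply_of_ne_of_ne hx hy]
  have hτ' : ρ' ∘ (swap (g⁻¹ x) (g⁻¹ y) : Perm X) = ρ' := by
    funext z
    simp only [Function.comp_apply]
    by_cases hx : z = g⁻¹ x
    · rw [hx, swap_apply_left, h2]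
    · by_cases hy : z = g⁻¹ y
      · rw [hy, swap_apply_right, h2]
      · rw [swap_apply_of_ne_of_ne hx hy]
  have e1 : g * swap (g⁻¹ x) (g⁻¹ y) = swap x y * g := by
    have := Equiv.mul_swap_eq_swap_mul g (g⁻¹ x) (g⁻¹ y)
    simpa using this
  have e2 : BR κ * MonoidAlgebra.of ℂ (Perm X) g * AR ρ' =
      -(BR κ * MonoidAlgebra.of ℂ (Perm X) g * AR ρ') := by
    calc BR κ * MonoidAlgebra.of ℂ (Perm X) g * AR ρ'
        = BR κ * MonoidAlgebra.of ℂ (Perm X) g *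
          (MonoidAlgebra.of ℂ (Perm X) (swap (g⁻¹ x) (g⁻¹ y)) * AR ρ') := by rw [of_mul_AR hτ']
      _ = BR κ * (MonoidAlgebra.of ℂ (Perm X) (g * swap (g⁻¹ x) (g⁻¹ y))) * AR ρ' := by
          rw [map_mul]; simp only [mul_assoc]
      _ = BR κ * MonoidAlgebra.of ℂ (Perm X) (swap x y) * MonoidAlgebra.of ℂ (Perm X) g * AR ρ' := by
          rw [e1, map_mul]; simp only [mul_assoc]
      _ = -(BR κ * MonoidAlgebra.of ℂ (Perm X) g * AR ρ') := by
          rw [BR_mul_of hτ, Perm.sign_swap hne']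
          simp
  have e3 : (2 : ℂ) • (BR κ * MonoidAlgebra.of ℂ (Perm X) g * AR ρ') = 0 := by
    rw [two_smul]
    nth_rewrite 1 [e2]
    exact neg_add_cancel _
  exact (smul_eq_zero.1 e3).resolve_left two_ne_zero

/-- PROOF. `E_Q a E_P` with `Q = (ρ, κ)`, `P = (ρ', κ')`: by linearity `a = g`; the middle factor
`(∑_{c ∈ Rs κ} sgn c · c) g (∑_{r ∈ Rs ρ'} r)` vanishes if there are `x ≠ y` with `κ x = κ y` and
`ρ' (g⁻¹ x) = ρ' (g⁻¹ y)` (`τ = swap x y ∈ Rs κ`, `g⁻¹ τ g = swap (g⁻¹ x) (g⁻¹ y) ∈ Rs ρ'`, so the factor equals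
its negative). So if it does not vanish `x ↦ (κ x, ρ' (g⁻¹ x))` is injective and `shape_dom` applies. -/
theorem EP_mul_EP {ρ κ ρ' κ' : Word X} (h : IsTab (fun _ => 0) ρ κ)
    (h' : IsTab (fun _ => 0) ρ' κ') (a : MonoidAlgebra ℂ (Perm X))
    (hne : EP ρ κ * a * EP ρ' κ' ≠ 0) (t : ℕ) :
    (univ.filter (fun x => ρ' x < t)).card ≤ (univ.filter (fun x => ρ x < t)).card := by
  have hex : ∃ g : Perm X, BR κ * MonoidAlgebra.of ℂ (Perm X) g * AR ρ' ≠ 0 := by
    by_contra hcon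
    push Not at hcon
    apply hne
    have hmid : BR κ * a * AR ρ' = 0 := by
      clear hne
      induction a using MonoidAlgebra.induction_on with
      | of g => exact hcon g
      | add x y hx hy => rw [mul_add, add_mul, hx, hy, add_zero]
      | smul r x hx => rw [mul_smul_comm, smul_mul_assoc, hx, smul_zero]
    rw [EP_eq, EP_eq]
    calc AR ρ * BR κ * a * (AR ρ' * BR κ') = AR ρ * (BR κ * a * AR ρ') * BR κ' := by
          simp only [mul_assoc]
      _ = 0 := by rw [hmid, mul_zero, zero_mul]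
  obtain ⟨g, hg⟩ := hex
  exact shape_dom h h' g⁻¹ (inj_of_ne hg) t

/-- immediate from `EP_mul_EP` (`z_Q E_P = ∑ g E_Q g⁻¹ E_P`) -/
theorem zP_mul_EP_other {ρ κ ρ' κ' : Word X} (h : IsTab (fun _ => 0) ρ κ)
    (h' : IsTab (fun _ => 0) ρ' κ') (hne : zP ρ κ * EP ρ' κ' ≠ 0) (t : ℕ) :
    (univ.filter (fun x => ρ' x < t)).card ≤ (univ.filter (fun x => ρ x < t)).card := by
  unfold zP at hne
  rw [Finset.sum_mul] at hne
  obtain ⟨g, -, hg⟩ := Finset.exists_ne_zero_of_sum_ne_zero hne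
  refine EP_mul_EP h h' (MonoidAlgebra.of ℂ (Perm X) g⁻¹) (fun h0 => hg ?_) t
  rw [mul_assoc, mul_assoc, ← mul_assoc (EP ρ κ), h0, mul_zero]

end Crest.Agent.Saxl
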