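import Crest.Agent.Saxl.IrrA
import Crest.Agent.Saxl.IrrB
import Crest.Agent.Saxl.Shapes
import Crest.Agent.Saxl.Center

/-!
CHUNK IRR (medium; IrrA, IrrB, Shapes, Center are black boxes).
-/

set_option autoImplicit false

namespace Crest.Agent.Saxl

open Finset Equiv

variable {X : Type} [Fintype X] [DecidableEq X]

/-- Two lists of positive naturals with the same `getD · 0` are equal. -/
theorem list_eq_of_getD_pos : ∀ (l l' : List ℕ), (∀ a ∈ l, 0 < a) → (∀ a ∈ l', 0 < a) →
    (∀ i, l.getD i 0 = l'.getD i 0) → l = l'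
  | [], [], _, _, _ => rfl
  | [], b :: l', _, h', h => by
    have h1 := h 0
    have h2 := h' b (by simp)
    simp at h1
    omega
  | a :: l, [], h0, _, h => by
    have h1 := h 0
    have h2 := h0 a (by simp)
    simp at h1
    omega
  | a :: l, b :: l', h0, h0', h => by
    have h1 := h 0
    simp at h1
    subst h1
    congr 1
    refine list_eq_of_getD_pos l l' (fun x hx => h0 x (by simp [hx]))
      (fun x hx => h0' x (by simp [hx])) (fun i => ?_)
    have h2 := h (i + 1)
    simpa using h2

theorem partition_eq_of_cnt {n : ℕ} (P Q : n.Partition)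
    (h : ∀ i, (P.parts.sort (· ≥ ·)).getD i 0 = (Q.parts.sort (· ≥ ·)).getD i 0) : P = Q := by
  have h1 := list_eq_of_getD_pos (P.parts.sort (· ≥ ·)) (Q.parts.sort (· ≥ ·))
    (fun a ha => P.parts_pos ((Multiset.mem_sort _).1 ha))
    (fun a ha => Q.parts_pos ((Multiset.mem_sort _).1 ha)) h
  have h2 : P.parts = Q.parts := by
    rw [← Multiset.sort_eq P.parts (· ≥ ·), ← Multiset.sort_eq Q.parts (· ≥ ·), h1]
  exact Nat.Partition.ext h2

theorem asAlgebraHom_EP {W : Type} [AddCommGroup W] [Module ℂ W]
    (σ : Representation ℂ (Perm X) W) (ρ κ : Word X) (w : W) :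
    σ.asAlgebraHom (EP ρ κ) w = yact σ ρ κ w := by
  unfold EP yact
  rw [map_sum, LinearMap.sum_apply]
  refine Finset.sum_congr rfl fun r _ => ?_
  rw [map_sum, LinearMap.sum_apply]
  refine Finset.sum_congr rfl fun c _ => ?_
  rw [map_smul, Representation.asAlgebraHom_of, LinearMap.smul_apply]

/-- EVERY NONZERO REPRESENTATION IS SEEN BY SOME YOUNG SYMMETRISER.
PROOF. For each partition `P` choose a tableau `(ρ_P, κ_P)` (`exists_tab_of_partition`), `E_P = EP ρ_P κ_P`,
`z_P = zP ρ_P κ_P`. Say `P ⊴ Q` if `#{ρ_P < t} ≤ #{ρ_Q < t}` for all `t`; this is antisymmetric (equal counts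
give equal row sizes, so equal sorted part lists, `P = Q`). `z_Q E_P = 0` unless `P ⊴ Q` (`zP_mul_EP_other`),
`z_P E_P = c E_P ≠ 0` (`zP_mul_EP`, `EP_ne_zero`). So the `z_P` are linearly independent: in a relation
`∑ c_Q z_Q = 0` take `P` maximal for `⊴` among `c_P ≠ 0` and multiply by `E_P`. By `one_mem_span_of_central`
`1 = ∑ c_P z_P`. If `yact σ ρ_P κ_P w = 0` for all `P`, `w` then every `z_P` acts as zero on `W`
(`σ.asAlgebraHom`), so `1` does, `W = 0`. -/
theorem exists_yact_ne_zero {W : Type} [AddCommGroup W] [Module ℂ W] [Nontrivial W]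
    (σ : Representation ℂ (Perm X) W) :
    ∃ ρ κ : Word X, IsTab (fun _ => 0) ρ κ ∧ ∃ w : W, yact σ ρ κ w ≠ 0 := by
  classical
  by_contra hcon
  push Not at hcon
  choose ρ κ hT hsize using exists_tab_of_partition (X := X)
  set f : (Fintype.card X).Partition → ℕ → ℕ :=
    fun P t => (univ.filter (fun x => ρ P x < t)).card with hf
  have hrow : ∀ P i, f P (i + 1) = f P i + (univ.filter (fun x => ρ P x = i)).card := by
    intro P i
    simp only [hf]
    rw [← Finset.card_union_of_disjoint]
    · congr 1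
      ext x
      simp only [mem_filter, mem_univ, true_and, mem_union]
      omega
    · rw [Finset.disjoint_left]
      intro x hx hx'
      simp only [mem_filter, mem_univ, true_and] at hx hx'
      omega
  have hanti : ∀ P Q, f P ≤ f Q → f Q ≤ f P → P = Q := by
    intro P Q h1 h2
    have h3 : f P = f Q := le_antisymm h1 h2
    apply partition_eq_of_cnt
    intro i
    rw [← hsize P i, ← hsize Q i]
    have h4 := hrow P i
    have h5 := hrow Q i
    rw [h3] at h4
    omega
  have hli : LinearIndependent ℂ (fun P => zP (ρ P) (κ P)) := by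
    rw [Fintype.linearIndependent_iff]
    intro g hg
    by_contra hne
    push Not at hne
    obtain ⟨P0, hP0⟩ := hne
    obtain ⟨P, hP⟩ := Finset.exists_maximalFor f
      ((univ : Finset (Fintype.card X).Partition).filter (fun P => g P ≠ 0))
      ⟨P0, by simp [hP0]⟩
    have hgP : g P ≠ 0 := by
      have := hP.prop
      simpa using this
    have h1 : ∑ Q, g Q • (zP (ρ Q) (κ Q) * EP (ρ P) (κ P)) = 0 := by
      have h2 := congrArg (fun a => a * EP (ρ P) (κ P)) hg
      simp only [zero_mul, Finset.sum_mul, smul_mul_assoc] at h2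
      exact h2
    rw [Finset.sum_eq_single P] at h1
    · obtain ⟨c, hc, hcE⟩ := zP_mul_EP (hT P)
      rw [hcE, smul_smul] at h1
      rcases smul_eq_zero.1 h1 with h | h
      · exact (mul_ne_zero hgP hc) h
      · exact EP_ne_zero (hT P) h
    · intro Q _ hQP
      by_cases hgQ : g Q = 0
      · rw [hgQ, zero_smul]
      · by_cases hz : zP (ρ Q) (κ Q) * EP (ρ P) (κ P) = 0
        · rw [hz, smul_zero]
        · exfalso
          have h3 : f P ≤ f Q := fun t => zP_mul_EP_other (hT Q) (hT P) hz t
          have h4 : f Q ≤ f P := hP.le_of_le (by simpa using hgQ) h3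
          exact hQP (hanti Q P h4 h3)
    · intro h
      exact absurd (mem_univ _) h
  have h1 := one_mem_span_of_central (X := X) (ι := (Fintype.card X).Partition) le_rfl
    (fun P => zP (ρ P) (κ P)) (fun P g => zP_central (ρ P) (κ P) g) hli
  have hE : ∀ P, σ.asAlgebraHom (EP (ρ P) (κ P)) = 0 := by
    intro P
    ext w
    rw [asAlgebraHom_EP]
    exact hcon _ _ (hT P) w
  have hz : ∀ P, σ.asAlgebraHom (zP (ρ P) (κ P)) = 0 := by
    intro P
    unfold zP
    rw [map_sum]
    refine Finset.sum_eq_zero fun g _ => ?_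
    rw [map_mul, map_mul, hE P, mul_zero, zero_mul]
  have h2 : Submodule.span ℂ (Set.range fun P => zP (ρ P) (κ P)) ≤
      LinearMap.ker (σ.asAlgebraHom.toLinearMap) := by
    rw [Submodule.span_le]
    rintro _ ⟨P, rfl⟩
    exact hz P
  have h3 : σ.asAlgebraHom 1 = 0 := h2 h1
  rw [map_one] at h3
  obtain ⟨w, hw⟩ := exists_ne (0 : W)
  apply hw
  have := congrArg (fun L : Module.End ℂ W => L w) h3
  simpa using this

end Crest.Agent.Saxl
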