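import Crest.Agent.Saxl.Pt

/-!
CHUNK PARITY (medium).  The mod 2 count: the number of `T` perpendicular to both `A` and `Y` is
odd iff `A ⊥ Y`.
-/

set_option autoImplicit false

namespace Crest.Agent.Saxl

open Finset Equiv

variable {X : Type} [Fintype X] [DecidableEq X]

namespace ParityAux

/-- the staircase -/
def St (k : ℕ) : Finset (ℕ × ℕ) := (range k ×ˢ range k).filter (fun p => p.1 + p.2 < k)

lemma mem_St {k : ℕ} {p : ℕ × ℕ} : p ∈ St k ↔ p.1 + p.2 < k := by
  simp only [St, mem_filter, mem_product, mem_range]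
  omega

lemma fiber_St {k i : ℕ} (hi : i ∈ range k) : ((St k).filter (fun p => p.1 = i)).card = k - i := by
  rw [← card_range (k - i)]
  symm
  refine card_bij (fun j _ => (i, j)) ?_ ?_ ?_
  · intro j hj
    rw [mem_filter, mem_St]
    rw [mem_range] at hj hi
    exact ⟨by simp only; omega, rfl⟩
  · intro a _ b _ h
    exact (Prod.mk.inj h).2
  · rintro ⟨a, b⟩ hp
    rw [mem_filter, mem_St] at hp
    obtain ⟨h1, h2⟩ := hp
    simp only at h1 h2
    subst h2
    exact ⟨b, by rw [mem_range]; omega, rfl⟩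

/-- summation over the staircase of a function of the first coordinate -/
lemma sum_fst_St (k : ℕ) (φ : ℕ → ℤ) :
    ∑ p ∈ St k, φ p.1 = ∑ i ∈ range k, ((k - i : ℕ) : ℤ) * φ i := by
  rw [← sum_fiberwise_of_maps_to (s := St k) (t := range k) (g := Prod.fst)
    (f := fun p => φ p.1)]
  · refine sum_congr rfl fun i hi => ?_
    rw [sum_congr rfl (g := fun _ => φ i)]
    · rw [sum_const, fiber_St hi, nsmul_eq_mul]
    · intro p hp
      rw [mem_filter] at hp
      rw [hp.2]
  · intro p hp
    rw [mem_St] at hp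
    rw [mem_range]
    omega

lemma sum_snd_St (k : ℕ) (φ : ℕ → ℤ) :
    ∑ p ∈ St k, φ p.2 = ∑ p ∈ St k, φ p.1 := by
  refine sum_nbij' Prod.swap Prod.swap ?_ ?_ ?_ ?_ ?_
  · intro p hp; rw [mem_St] at hp ⊢; simp only [Prod.fst_swap, Prod.snd_swap]; omega
  · intro p hp; rw [mem_St] at hp ⊢; simp only [Prod.fst_swap, Prod.snd_swap]; omega
  · intro p _; simp
  · intro p _; simp
  · intro p _; rfl

lemma card_St (k : ℕ) : (St k).card = ∑ i ∈ range k, (k - i) := by
  rw [card_eq_sum_card_fiberwise (s := St k) (t := range k) (f := Prod.fst)]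
  · exact sum_congr rfl fun i hi => fiber_St hi
  · intro p hp
    have hp' : p ∈ St k := hp
    rw [mem_St] at hp'
    show p.1 ∈ (range k : Set ℕ)
    rw [coe_range, Set.mem_Iio]
    omega

lemma sum_sub (k : ℕ) : ∑ i ∈ range k, (k - i) = k * (k + 1) / 2 := by
  have h1 : ∑ i ∈ range k, (k - i) = ∑ i ∈ range k, (i + 1) := by
    rw [← sum_range_reflect (fun i => i + 1) k]
    refine sum_congr rfl fun i hi => ?_
    rw [mem_range] at hi
    omega
  have h2 := sum_range_id (k + 1)
  rw [sum_range_succ'] at h2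
  rw [h1]
  simp only [add_zero] at h2
  rw [h2]
  congr 1
  rw [Nat.add_sub_cancel, Nat.mul_comm]

lemma card_St' (k : ℕ) : (St k).card = k * (k + 1) / 2 := by rw [card_St, sum_sub]

/-- summation over the letters of a function of the value of a word of type `k` -/
lemma sum_type {k : ℕ} (hX : Fintype.card X = k * (k + 1) / 2) {A : Word X} (hA : IsType k A)
    (φ : ℕ → ℤ) : ∑ x, φ (A x) = ∑ i ∈ range k, ((k - i : ℕ) : ℤ) * φ i := by
  have hmaps : ∀ x ∈ (univ : Finset X), A x ∈ range k := by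
    intro x _
    rw [mem_range]
    by_contra hc
    have h1 := hA (A x)
    have h2 : x ∈ univ.filter (fun y => A y = A x) := by simp
    have h3 : 0 < (univ.filter (fun y => A y = A x)).card := card_pos.2 ⟨x, h2⟩
    omega
  rw [← sum_fiberwise_of_maps_to hmaps (fun x => φ (A x))]
  refine sum_congr rfl fun i _ => ?_
  rw [sum_congr rfl (g := fun _ => φ i)]
  · rw [sum_const, hA i, nsmul_eq_mul]
  · intro x hx
    rw [mem_filter] at hx
    rw [hx.2]

lemma image_perp {k : ℕ} (hX : Fintype.card X = k * (k + 1) / 2) {A B : Word X}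
    (h : Perp k A B) : univ.image (fun x => (A x, B x)) = St k := by
  apply eq_of_subset_of_card_le
  · intro p hp
    rw [mem_image] at hp
    obtain ⟨x, _, rfl⟩ := hp
    rw [mem_St]
    exact h.2 x
  · rw [card_St', card_image_of_injective _ h.1, card_univ, hX]

lemma sum_perp {k : ℕ} (hX : Fintype.card X = k * (k + 1) / 2) {A B : Word X}
    (h : Perp k A B) (φ : ℕ × ℕ → ℤ) : ∑ x, φ (A x, B x) = ∑ p ∈ St k, φ p := by
  rw [← image_perp hX h, sum_image]
  intro a _ b _ hab
  exact h.1 hab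

end ParityAux

open ParityAux

/-- A 0/1 matrix with row sums `k, k-1, .., 1` and column sums `k, k-1, .., 1` is the staircase.
PROOF. Let `r_i` = row `i` (`i < k`), it has `k - i` ones in distinct columns. For each `t ≤ k` count the letters
with `Y x < t`: `∑_{j<t} (k-j)`; on the other hand row `i` contains at most `min (k-i) t` of them
and `∑_{i<k} min (k-i) t = ∑_{j<t} (k-j)`. So row `i` has exactly `min (k-i) t` letters with
`Y x < t`; for `t = k-i` all letters of row `i` have `Y x < k - i`. -/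
theorem perp_of_injective {k : ℕ} (hX : Fintype.card X = k * (k + 1) / 2) {A Y : Word X}
    (hA : IsType k A) (hY : IsType k Y) (hinj : Function.Injective (fun x => (A x, Y x))) :
    Perp k A Y := by
  refine ⟨hinj, ?_⟩
  set I : Finset (ℕ × ℕ) := univ.image (fun x => (A x, Y x)) with hI
  have hcard : I.card = (St k).card := by
    rw [card_St', hI, card_image_of_injective _ hinj, card_univ, hX]
  have hsum : ∑ p ∈ I, (((p.1 : ℕ) : ℤ) + ((p.2 : ℕ) : ℤ)) =
      ∑ p ∈ St k, (((p.1 : ℕ) : ℤ) + ((p.2 : ℕ) : ℤ)) := by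
    rw [hI, sum_image (fun a _ b _ hab => hinj hab)]
    rw [sum_add_distrib, sum_add_distrib, sum_snd_St k (fun n => (n : ℤ)),
      sum_fst_St k (fun n => (n : ℤ)), sum_type hX hA (fun n => (n : ℤ)),
      sum_type hX hY (fun n => (n : ℤ))]
  have hd1 : ∑ p ∈ I \ St k, (((p.1 : ℕ) : ℤ) + ((p.2 : ℕ) : ℤ)) =
      ∑ p ∈ St k \ I, (((p.1 : ℕ) : ℤ) + ((p.2 : ℕ) : ℤ)) := by
    have e1 := sum_sdiff (inter_subset_left : I ∩ St k ⊆ I)
      (f := fun p : ℕ × ℕ => (((p.1 : ℕ) : ℤ) + ((p.2 : ℕ) : ℤ)))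
    have e2 := sum_sdiff (inter_subset_right : I ∩ St k ⊆ St k)
      (f := fun p : ℕ × ℕ => (((p.1 : ℕ) : ℤ) + ((p.2 : ℕ) : ℤ)))
    rw [sdiff_inter_self_left] at e1
    rw [sdiff_inter_self_right] at e2
    linarith
  have hd2 : (I \ St k).card = (St k \ I).card := by
    have e1 := card_sdiff_add_card_inter I (St k)
    have e2 := card_sdiff_add_card_inter (St k) I
    rw [inter_comm] at e2
    omega
  have hlow : ((I \ St k).card : ℤ) * k ≤
      ∑ p ∈ I \ St k, (((p.1 : ℕ) : ℤ) + ((p.2 : ℕ) : ℤ)) := by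
    rw [← nsmul_eq_mul]
    refine card_nsmul_le_sum _ _ _ ?_
    intro p hp
    rw [mem_sdiff, mem_St] at hp
    have := hp.2
    omega
  have hup : ∑ p ∈ St k \ I, (((p.1 : ℕ) : ℤ) + ((p.2 : ℕ) : ℤ)) ≤
      ((St k \ I).card : ℤ) * ((k : ℤ) - 1) := by
    rw [← nsmul_eq_mul]
    refine sum_le_card_nsmul _ _ _ ?_
    intro p hp
    rw [mem_sdiff, mem_St] at hp
    have := hp.1
    omega
  have hzero : (I \ St k).card = 0 := by
    rw [← hd2] at hup
    have h3 : ((I \ St k).card : ℤ) * k ≤ ((I \ St k).card : ℤ) * ((k : ℤ) - 1) := by linarith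
    have h4 : ((I \ St k).card : ℤ) ≤ 0 := by nlinarith
    omega
  intro x
  by_contra hc
  have hx : (A x, Y x) ∈ I \ St k := by
    rw [mem_sdiff, mem_St]
    exact ⟨mem_image_of_mem _ (mem_univ x), by simpa using hc⟩
  rw [card_eq_zero] at hzero
  rw [hzero] at hx
  exact absurd hx (notMem_empty _)

/-- if `A ⊥ Y` there is exactly one `T` perpendicular to both, namely
`T x = k - 1 - (A x + Y x)`.
PROOF: induction on antidiagonals (from outside): `T⁻¹(0)` meets every row `i<k` and every column `j<k` of the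
staircase `(A,Y)` in exactly one cell (because `(A,T)`, `(Y,T)` are bijections onto the staircase,
`T = 0` meets each value of `A` once), hence it is the antidiagonal `A+Y=k-1`: row `k-1` has the
single cell `(k-1,0)`, row `k-2` has cells `(k-2,0),(k-2,1)` and column 0 is used, etc. -/
theorem common_unique {k : ℕ} (hX : Fintype.card X = k * (k + 1) / 2) {A Y : Word X}
    (h : Perp k A Y) (T : Word X) :
    (Perp k A T ∧ Perp k Y T) ↔ T = fun x => k - 1 - (A x + Y x) := by
  -- the solution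
  have hsol : Perp k A (fun x => k - 1 - (A x + Y x)) ∧ Perp k Y (fun x => k - 1 - (A x + Y x)) := by
    refine ⟨⟨?_, ?_⟩, ⟨?_, ?_⟩⟩
    · intro x y hxy
      simp only [Prod.mk.injEq] at hxy
      apply h.1
      have h1 := h.2 x
      have h2 := h.2 y
      simp only [Prod.mk.injEq]
      omega
    · intro x
      have h1 := h.2 x
      show A x + (k - 1 - (A x + Y x)) < k
      omega
    · intro x y hxy
      simp only [Prod.mk.injEq] at hxy
      apply h.1
      have h1 := h.2 x
      have h2 := h.2 y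
      simp only [Prod.mk.injEq]
      omega
    · intro x
      have h1 := h.2 x
      show Y x + (k - 1 - (A x + Y x)) < k
      omega
  constructor
  · rintro ⟨h1, h2⟩
    -- sum of squares
    have key : ∀ S : Word X, Perp k A S → Perp k Y S →
        ∑ x, (((A x : ℕ) : ℤ) + ((Y x : ℕ) : ℤ) + ((S x : ℕ) : ℤ) - ((k : ℤ) - 1)) ^ 2 =
          ∑ p ∈ St k, (3 * ((p.1 : ℕ) : ℤ) ^ 2 + 6 * (((p.1 : ℕ) : ℤ) * ((p.2 : ℕ) : ℤ))
            - 6 * ((k : ℤ) - 1) * ((p.1 : ℕ) : ℤ) + ((k : ℤ) - 1) ^ 2) := by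
      intro S g1 g2
      have e1 : ∑ x, (((A x : ℕ) : ℤ) + ((Y x : ℕ) : ℤ) + ((S x : ℕ) : ℤ) - ((k : ℤ) - 1)) ^ 2 =
          ∑ x, ((((A x : ℕ) : ℤ) ^ 2 + 2 * (((A x : ℕ) : ℤ) * ((Y x : ℕ) : ℤ))
              - 2 * ((k : ℤ) - 1) * ((A x : ℕ) : ℤ) + ((k : ℤ) - 1) ^ 2) +
            (((Y x : ℕ) : ℤ) ^ 2 + 2 * (((Y x : ℕ) : ℤ) * ((S x : ℕ) : ℤ))
              - 2 * ((k : ℤ) - 1) * ((Y x : ℕ) : ℤ)) +
            (((S x : ℕ) : ℤ) ^ 2 + 2 * (((S x : ℕ) : ℤ) * ((A x : ℕ) : ℤ))
              - 2 * ((k : ℤ) - 1) * ((S x : ℕ) : ℤ))) :=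
        sum_congr rfl fun x _ => by ring
      rw [e1, sum_add_distrib, sum_add_distrib]
      have s1 := sum_perp hX h (fun p => ((p.1 : ℕ) : ℤ) ^ 2 + 2 * (((p.1 : ℕ) : ℤ) * ((p.2 : ℕ) : ℤ))
              - 2 * ((k : ℤ) - 1) * ((p.1 : ℕ) : ℤ) + ((k : ℤ) - 1) ^ 2)
      have s2 := sum_perp hX g2 (fun p => ((p.1 : ℕ) : ℤ) ^ 2 + 2 * (((p.1 : ℕ) : ℤ) * ((p.2 : ℕ) : ℤ))
              - 2 * ((k : ℤ) - 1) * ((p.1 : ℕ) : ℤ))
      have s3 := sum_perp hX g1.symm (fun p => ((p.1 : ℕ) : ℤ) ^ 2
              + 2 * (((p.1 : ℕ) : ℤ) * ((p.2 : ℕ) : ℤ))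
              - 2 * ((k : ℤ) - 1) * ((p.1 : ℕ) : ℤ))
      simp only at s1 s2 s3
      rw [s1, s2, s3, ← sum_add_distrib, ← sum_add_distrib]
      exact sum_congr rfl fun p _ => by ring
    have k1 := key T h1 h2
    have k2 := key _ hsol.1 hsol.2
    have k3 : ∑ x, (((A x : ℕ) : ℤ) + ((Y x : ℕ) : ℤ) +
        (((k - 1 - (A x + Y x) : ℕ)) : ℤ) - ((k : ℤ) - 1)) ^ 2 = 0 := by
      refine sum_eq_zero fun x _ => ?_
      have h5 := h.2 x
      have h6 : (((k - 1 - (A x + Y x) : ℕ)) : ℤ) = (k : ℤ) - 1 - (((A x : ℕ) : ℤ) + ((Y x : ℕ) : ℤ)) := by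
        omega
      rw [h6]; ring
    rw [← k2, k3] at k1
    funext x
    have h7 := (sum_eq_zero_iff_of_nonneg (fun x _ => sq_nonneg _)).1 k1 x (mem_univ x)
    have h8 := pow_eq_zero_iff (two_ne_zero) |>.1 h7
    have h5 := h.2 x
    omega
  · rintro rfl
    exact hsol

/-- PROOF. If `A ⊥ Y`: exactly one `T` (`common_unique`). If not, by `perp_of_injective` there are
`x ≠ y` with `A x = A y` and `Y x = Y y`; then `T ↦ T ∘ swap x y` is a fixed point free involution
of the set (`T x ≠ T y` since `Perp k A T`). -/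
theorem odd_common_iff {k : ℕ} (hX : Fintype.card X = k * (k + 1) / 2) {A Y : Word X}
    (hA : IsType k A) (hY : IsType k Y) :
    Odd ((Wd k X).filter (fun T => Perp k A T ∧ Perp k Y T)).card ↔ Perp k A Y := by
  constructor
  · intro hodd
    by_contra hnp
    have hni : ¬ Function.Injective (fun x => (A x, Y x)) := fun hi =>
      hnp (perp_of_injective hX hA hY hi)
    rw [Function.not_injective_iff] at hni
    obtain ⟨x, y, hxy, hne⟩ := hni
    simp only [Prod.mk.injEq] at hxy
    have hAs : A ∘ (swap x y : Perm X) = A := by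
      funext z
      show A (swap x y z) = A z
      rw [swap_apply_def]
      split_ifs with h1 h2
      · rw [h1, hxy.1]
      · rw [h2, hxy.1]
      · rfl
    have hYs : Y ∘ (swap x y : Perm X) = Y := by
      funext z
      show Y (swap x y z) = Y z
      rw [swap_apply_def]
      split_ifs with h1 h2
      · rw [h1, hxy.2]
      · rw [h2, hxy.2]
      · rfl
    have hz : ∑ T ∈ (Wd k X).filter (fun T => Perp k A T ∧ Perp k Y T), (1 : ZMod 2) = 0 := by
      refine sum_involution (fun T _ => T ∘ (swap x y : Perm X)) ?_ ?_ ?_ ?_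
      · intro T _; decide
      · intro T hT _ heq
        rw [mem_filter] at hT
        have h1 : T x = T y := by
          have := congrFun heq x
          simp only [Function.comp_apply, swap_apply_left] at this
          exact this.symm
        apply hne
        apply hT.2.1.1
        simp only [Prod.mk.injEq]
        exact ⟨hxy.1, h1⟩
      · intro T hT
        rw [mem_filter] at hT ⊢
        refine ⟨?_, ?_, ?_⟩
        · rw [mem_Wd] at hT ⊢
          intro z
          exact hT.1 _
        · have := hT.2.1.comp (swap x y)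
          rwa [hAs] at this
        · have := hT.2.2.comp (swap x y)
          rwa [hYs] at this
      · intro T _
        funext z
        simp
    rw [sum_const, nsmul_eq_mul, mul_one] at hz
    have h2 : 2 ∣ ((Wd k X).filter (fun T => Perp k A T ∧ Perp k Y T)).card :=
      (ZMod.natCast_eq_zero_iff _ _).1 hz
    exact (Nat.not_even_iff_odd.2 hodd) (even_iff_two_dvd.2 h2)
  · intro hp
    have h1 : (Wd k X).filter (fun T => Perp k A T ∧ Perp k Y T) =
        {fun x => k - 1 - (A x + Y x)} := by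
      ext T
      rw [mem_filter, mem_singleton, common_unique hX hp]
      constructor
      · exact fun h => h.2
      · intro h
        refine ⟨?_, h⟩
        rw [mem_Wd]
        intro x
        have := hp.2 x
        rw [h]
        show k - 1 - (A x + Y x) < k
        omega
    rw [h1, card_singleton]
    exact odd_one

end Crest.Agent.Saxl
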