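import Crest.Agent.Saxl.Defs

/-!
CHUNK PT (easy).  Basic facts on perpendicular words and polytabloids.
`pt A B Y = ∑_{σ ∈ Rs A} sgn σ [Y = B ∘ σ⁻¹]`.  For `Perp k A B` the map `x ↦ (A x, B x)` is a
bijection onto the staircase `{(i,j) : i+j<k}` (cardinality `k(k+1)/2`); if also `Perp k A Y` then
there is a unique permutation `σ` with `(A, Y) = (A, B) ∘ σ⁻¹`, so exactly one term of the sum is
nonzero; conversely a nonzero term forces `Y = B ∘ σ⁻¹`, `A = A ∘ σ⁻¹`, so `Perp k A Y`.
-/

set_option autoImplicit false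

namespace Crest.Agent.Saxl

open Finset Equiv

variable {X : Type} [Fintype X] [DecidableEq X]

theorem act_mul {X : Type} {R : Type*} (g h : Perm X) (f : Word X → R) :
    act (g * h) f = act g (act h f) := rfl

theorem act_one {X : Type} {R : Type*} (f : Word X → R) : act (1 : Perm X) f = f := rfl

theorem Perp.symm {X : Type} {k : ℕ} {A B : Word X} (h : Perp k A B) : Perp k B A := by
  refine ⟨fun x y hxy => h.1 ?_, fun x => by rw [add_comm]; exact h.2 x⟩
  simp only [Prod.mk.injEq] at hxy ⊢
  exact ⟨hxy.2, hxy.1⟩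

theorem Perp.comp {X : Type} {k : ℕ} {A B : Word X} (h : Perp k A B) (g : Perm X) :
    Perp k (A ∘ g) (B ∘ g) := by
  refine ⟨fun x y hxy => g.injective (h.1 ?_), fun x => h.2 (g x)⟩
  simpa using hxy

theorem mem_Wd {k : ℕ} {Y : Word X} : Y ∈ Wd k X ↔ ∀ x, Y x < k := by
  simp only [Wd, mem_image, mem_univ, true_and]
  constructor
  · rintro ⟨T, rfl⟩ x
    exact (T x).2
  · intro h
    exact ⟨fun x => ⟨Y x, h x⟩, rfl⟩

/-- an injection between sets of the same size is a bijection -/
theorem Perp.surj {k : ℕ} (hX : Fintype.card X = k * (k + 1) / 2) {A B : Word X}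
    (h : Perp k A B) (i j : ℕ) (hij : i + j < k) : ∃ x, A x = i ∧ B x = j := by
  classical
  set S : Finset (Σ _ : ℕ, ℕ × ℕ) := (range k).sigma (fun m => antidiagonal m) with hS
  have hcard : S.card = k * (k + 1) / 2 := by
    rw [hS, card_sigma]
    simp only [Nat.card_antidiagonal]
    have : (∑ m ∈ range k, (m + 1)) * 2 = k * (k + 1) := by
      clear hX h hij hS S
      induction k with
      | zero => simp
      | succ k ih => rw [sum_range_succ, add_mul, ih]; ring
    omega
  set f : X → (Σ _ : ℕ, ℕ × ℕ) := fun x => ⟨A x + B x, (A x, B x)⟩ with hf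
  have hinj : Function.Injective f := by
    intro x y hxy
    apply h.1
    simp only [hf, Sigma.mk.injEq, heq_eq_eq] at hxy
    exact hxy.2
  have hsub : univ.image f ⊆ S := by
    intro y hy
    rw [mem_image] at hy
    obtain ⟨x, _, rfl⟩ := hy
    simp only [hS, hf, mem_sigma, mem_range, HasAntidiagonal.mem_antidiagonal, and_true]
    exact h.2 x
  have heq : univ.image f = S := by
    refine eq_of_subset_of_card_le hsub ?_
    rw [card_image_of_injective _ hinj, card_univ, hX, hcard]
  have hmem : (⟨i + j, (i, j)⟩ : Σ _ : ℕ, ℕ × ℕ) ∈ univ.image f := by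
    rw [heq, hS]
    simp [hij]
  rw [mem_image] at hmem
  obtain ⟨x, _, hx⟩ := hmem
  simp only [hf, Sigma.mk.injEq, heq_eq_eq, Prod.mk.injEq] at hx
  exact ⟨x, hx.2.1, hx.2.2⟩

theorem Perp.isType {k : ℕ} (hX : Fintype.card X = k * (k + 1) / 2) {A B : Word X}
    (h : Perp k A B) : IsType k A := by
  intro j
  have : (univ.filter (fun x => A x = j)).card = (range (k - j)).card := by
    refine card_bij (fun x _ => B x) ?_ ?_ ?_
    · intro x hx
      rw [mem_filter] at hx
      have := h.2 x
      rw [mem_range]; omega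
    · intro x hx y hy hxy
      rw [mem_filter] at hx hy
      apply h.1
      simp only [Prod.mk.injEq]
      exact ⟨hx.2.trans hy.2.symm, hxy⟩
    · intro b hb
      rw [mem_range] at hb
      obtain ⟨x, hx1, hx2⟩ := h.surj hX j b (by omega)
      exact ⟨x, by simp [hx1], hx2⟩
  rw [this, card_range]

/-- perpendicular pairs form one (regular) orbit -/
theorem perp_conj {k : ℕ} (hX : Fintype.card X = k * (k + 1) / 2) {A B A' B' : Word X}
    (h : Perp k A B) (h' : Perp k A' B') : ∃! g : Perm X, A' = A ∘ g ∧ B' = B ∘ g := by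
  classical
  have hex : ∀ x, ∃ y, A y = A' x ∧ B y = B' x := fun x => h.surj hX _ _ (h'.2 x)
  choose f hf using hex
  have hinj : Function.Injective f := by
    intro x y hxy
    apply h'.1
    simp only [Prod.mk.injEq]
    rw [← (hf x).1, ← (hf x).2, ← (hf y).1, ← (hf y).2, hxy]
    exact ⟨rfl, rfl⟩
  have hbij : Function.Bijective f := Finite.injective_iff_bijective.mp hinj
  refine ⟨Equiv.ofBijective f hbij, ⟨?_, ?_⟩, ?_⟩
  · funext x; exact (hf x).1.symm
  · funext x; exact (hf x).2.symm
  · rintro g ⟨h1, h2⟩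
    ext x
    apply h.1
    simp only [Prod.mk.injEq, Equiv.ofBijective_apply]
    rw [(hf x).1, (hf x).2]
    exact ⟨(congrFun h1 x).symm, (congrFun h2 x).symm⟩

theorem act_pt (A B : Word X) (g : Perm X) :
    act g (pt A B) = pt (A ∘ (g⁻¹ : Perm X)) (B ∘ (g⁻¹ : Perm X)) := by
  funext Y
  unfold act pt
  refine sum_equiv (MulAut.conj g).toEquiv ?_ ?_
  · intro σ
    simp only [Rs, mem_filter, mem_univ, true_and, MulEquiv.coe_toEquiv, MulAut.conj_apply]
    constructor
    · intro h
      funext x
      have := congrFun h (g⁻¹ x)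
      simpa [Perm.mul_apply] using this
    · intro h
      funext x
      have := congrFun h (g x)
      simpa [Perm.mul_apply] using this
  · intro σ _
    change _ = ((Perm.sign (g * σ * g⁻¹) : ℤˣ) : ℤ) *
      (if Y = (B ∘ (g⁻¹ : Perm X)) ∘ ((g * σ * g⁻¹)⁻¹ : Perm X) then 1 else 0)
    have hs : Perm.sign (g * σ * g⁻¹) = Perm.sign σ := by
      rw [Perm.sign_mul, Perm.sign_mul, Perm.sign_inv, mul_comm (Perm.sign g), mul_assoc,
        Int.units_mul_self, mul_one]
    rw [hs]
    congr 1
    have : (Y ∘ g = B ∘ (σ⁻¹ : Perm X)) ↔ (Y = (B ∘ (g⁻¹ : Perm X)) ∘ ((g * σ * g⁻¹)⁻¹ : Perm X)) := by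
      constructor
      · intro h
        funext x
        have := congrFun h (g⁻¹ x)
        simpa [Perm.mul_apply] using this
      · intro h
        funext x
        have := congrFun h (g x)
        simpa [Perm.mul_apply] using this
    exact if_congr this rfl rfl

theorem pt_perp {k : ℕ} (hX : Fintype.card X = k * (k + 1) / 2) {A B Y : Word X}
    (h : Perp k A B) (hY : Perp k A Y) : pt A B Y = 1 ∨ pt A B Y = -1 := by
  obtain ⟨g, ⟨hg1, hg2⟩, hg3⟩ := perp_conj hX h hY
  have key : pt A B Y = ((Perm.sign (g⁻¹ : Perm X) : ℤˣ) : ℤ) := by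
    unfold pt
    rw [sum_eq_single (g⁻¹ : Perm X)]
    · rw [inv_inv, if_pos hg2, mul_one]
    · intro σ hσ hne
      rw [if_neg, mul_zero]
      intro hc
      apply hne
      have h1 : A = A ∘ (σ⁻¹ : Perm X) := by
        simp only [Rs, mem_filter, mem_univ, true_and] at hσ
        funext x
        have := congrFun hσ (σ⁻¹ x)
        simpa using this
      have := hg3 σ⁻¹ ⟨h1, hc⟩
      rw [← this, inv_inv]
    · intro hn
      exfalso
      apply hn
      simp only [Rs, mem_filter, mem_univ, true_and]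
      funext x
      have := congrFun hg1 (g⁻¹ x)
      simpa using this
  rw [key]
  rcases Int.units_eq_one_or (Perm.sign (g⁻¹ : Perm X)) with h1 | h1
  · left; rw [h1]; rfl
  · right; rw [h1]; rfl

theorem pt_not_perp {k : ℕ} {A B Y : Word X} (h : Perp k A B) (hY : ¬ Perp k A Y) :
    pt A B Y = 0 := by
  unfold pt
  refine sum_eq_zero fun σ hσ => ?_
  rw [if_neg, mul_zero]
  intro hc
  apply hY
  have h1 : A = A ∘ (σ⁻¹ : Perm X) := by
    simp only [Rs, mem_filter, mem_univ, true_and] at hσ
    funext x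
    have := congrFun hσ (σ⁻¹ x)
    simpa using this
  have h2 := h.comp σ⁻¹
  rwa [← h1, ← hc] at h2

theorem pt_self {k : ℕ} {A B : Word X} (h : Perp k A B) : pt A B B = 1 := by
  unfold pt
  rw [sum_eq_single (1 : Perm X)]
  · simp
  · intro σ hσ hne
    rw [if_neg, mul_zero]
    intro hc
    apply hne
    have h1 : A = A ∘ (σ⁻¹ : Perm X) := by
      simp only [Rs, mem_filter, mem_univ, true_and] at hσ
      funext x
      have := congrFun hσ (σ⁻¹ x)
      simpa using this
    have h2 : σ⁻¹ = 1 := by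
      ext x
      apply h.1
      simp only [Prod.mk.injEq, Perm.coe_one, id_eq]
      exact ⟨(congrFun h1 x).symm, (congrFun hc x).symm⟩
    exact inv_eq_one.mp h2
  · intro hn
    exfalso; apply hn
    simp [Rs]

/-- `e_A` alternates under the stabiliser of `A` -/
theorem pt_alt (A B : Word X) (g : Perm X) (hg : g ∈ Rs A) (Y : Word X) :
    act g (pt A B) Y = ((Perm.sign g : ℤˣ) : ℤ) * pt A B Y := by
  have hg' : A ∘ g = A := by simpa [Rs] using hg
  unfold act pt
  rw [mul_sum]
  refine sum_equiv (Equiv.mulLeft g) ?_ ?_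
  · intro σ
    simp only [Rs, mem_filter, mem_univ, true_and, Equiv.coe_mulLeft]
    have : A ∘ ((g * σ : Perm X)) = A ∘ σ := by
      funext x
      have := congrFun hg' (σ x)
      simpa [Perm.mul_apply] using this
    rw [this]
  · intro σ _
    simp only [Equiv.coe_mulLeft]
    have hs : ((Perm.sign (g * σ) : ℤˣ) : ℤ) = ((Perm.sign g : ℤˣ) : ℤ) * ((Perm.sign σ : ℤˣ) : ℤ) := by
      simp
    rw [hs, ← mul_assoc, ← mul_assoc]
    have hgg : ((Perm.sign g : ℤˣ) : ℤ) * ((Perm.sign g : ℤˣ) : ℤ) = 1 := by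
      rcases Int.units_eq_one_or (Perm.sign g) with h1 | h1 <;> simp [h1]
    rw [hgg, one_mul]
    congr 1
    have : (Y ∘ g = B ∘ (σ⁻¹ : Perm X)) ↔ (Y = B ∘ ((g * σ)⁻¹ : Perm X)) := by
      constructor
      · intro h
        funext x
        have := congrFun h (g⁻¹ x)
        simpa [Perm.mul_apply] using this
      · intro h
        funext x
        have := congrFun h (g x)
        simpa [Perm.mul_apply] using this
    exact if_congr this rfl rfl

/-- changing the reference row word changes `e_A` by a sign only -/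
theorem pt_ref {k : ℕ} (hX : Fintype.card X = k * (k + 1) / 2) {A B B' : Word X}
    (h : Perp k A B) (h' : Perp k A B') :
    (∀ Y, pt A B' Y = pt A B Y) ∨ (∀ Y, pt A B' Y = - pt A B Y) := by
  obtain ⟨g, ⟨hg1, hg2⟩, -⟩ := perp_conj hX h h'
  have key : ∀ Y, pt A B' Y = ((Perm.sign g : ℤˣ) : ℤ) * pt A B Y := by
    intro Y
    unfold pt
    rw [mul_sum]
    refine sum_equiv (Equiv.mulRight (g⁻¹ : Perm X)) ?_ ?_
    · intro σ
      simp only [Rs, mem_filter, mem_univ, true_and, Equiv.coe_mulRight]
      constructor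
      · intro h
        funext x
        have h1 := congrFun h (g⁻¹ x)
        have h2 := congrFun hg1 (g⁻¹ x)
        have e : g (g⁻¹ x) = x := by simp
        simp only [Function.comp_apply, e] at h1 h2
        simp only [Function.comp_apply, Perm.mul_apply]
        rw [h1, h2]
      · intro h
        funext x
        have h1 := congrFun h (g x)
        have h2 := congrFun hg1 x
        have e : g⁻¹ (g x) = x := by simp
        simp only [Function.comp_apply, Perm.mul_apply, e] at h1 h2
        simp only [Function.comp_apply]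
        rw [h1, ← h2]
    · intro σ _
      simp only [Equiv.coe_mulRight]
      have hs : ((Perm.sign (σ * g⁻¹) : ℤˣ) : ℤ) =
          ((Perm.sign g : ℤˣ) : ℤ) * ((Perm.sign σ : ℤˣ) : ℤ) := by
        simp [mul_comm]
      rw [hs, ← mul_assoc, ← mul_assoc]
      have hgg : ((Perm.sign g : ℤˣ) : ℤ) * ((Perm.sign g : ℤˣ) : ℤ) = 1 := by
        rcases Int.units_eq_one_or (Perm.sign g) with h1 | h1 <;> simp [h1]
      rw [hgg, one_mul]
      congr 1
      have : B' ∘ (σ⁻¹ : Perm X) = B ∘ ((σ * g⁻¹)⁻¹ : Perm X) := by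
        rw [hg2]
        funext x
        simp
      refine if_congr ?_ rfl rfl
      rw [this]
  rcases Int.units_eq_one_or (Perm.sign g) with h1 | h1
  · left; intro Y; rw [key, h1]; simp
  · right; intro Y; rw [key, h1]; simp

end Crest.Agent.Saxl
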