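import Crest.Agent.Saxl.Irr

/-!
CHUNK ROWFOUR (medium).
-/

set_option autoImplicit false

namespace Crest.Agent.Saxl

open Finset Equiv

variable {X : Type} [Fintype X] [DecidableEq X]

/-- restriction of a representation to an invariant subspace -/
noncomputable def subRep {W : Type} [AddCommGroup W] [Module ℂ W]
    (σ : Representation ℂ (Perm X) W) (W' : Submodule ℂ W) (h : ∀ g, ∀ x ∈ W', σ g x ∈ W') :
    Representation ℂ (Perm X) W' where
  toFun g := (σ g).restrict (h g)
  map_one' := by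
    ext x
    simp
  map_mul' g g' := by
    ext x
    simp [LinearMap.restrict_apply]

theorem subRep_apply {W : Type} [AddCommGroup W] [Module ℂ W]
    (σ : Representation ℂ (Perm X) W) (W' : Submodule ℂ W) (h : ∀ g, ∀ x ∈ W', σ g x ∈ W')
    (g : Perm X) (x : W') : ((subRep σ W' h g x : W') : W) = σ g x := rfl

theorem yact_subRep {W : Type} [AddCommGroup W] [Module ℂ W]
    (σ : Representation ℂ (Perm X) W) (W' : Submodule ℂ W) (h : ∀ g, ∀ x ∈ W', σ g x ∈ W')
    (ρ κ : Word X) (x : W') : ((yact (subRep σ W' h) ρ κ x : W') : W) = yact σ ρ κ (x : W) := by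
  unfold yact
  simp only [Submodule.coe_sum, Submodule.coe_smul, subRep_apply]

/-- the Young symmetriser as a linear map -/
noncomputable def yactL {W : Type} [AddCommGroup W] [Module ℂ W]
    (σ : Representation ℂ (Perm X) W) (ρ κ : Word X) : W →ₗ[ℂ] W :=
  ∑ r ∈ Rs ρ, ∑ c ∈ Rs κ, (((Perm.sign c : ℤˣ) : ℤ) : ℂ) • σ (r * c)

theorem yactL_apply {W : Type} [AddCommGroup W] [Module ℂ W]
    (σ : Representation ℂ (Perm X) W) (ρ κ : Word X) (w : W) :
    yactL σ ρ κ w = yact σ ρ κ w := by
  simp [yactL, yact, LinearMap.sum_apply]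

/-- PROOF. Let `W' ⊆ W` be the span of the `σ g w` (a nonzero subrepresentation). By
`exists_yact_ne_zero` for `W'` there are `ρ, κ` and `w' ∈ W'` with `yact ≠ 0`; by linearity we may
take `w' = σ g w`. Then `∑_{c ∈ Rs κ} sgn(c) σ(c) σ(g) w ≠ 0`. If some `x` had `ρ x ≥ 4`, the column
of `x` contains (by `lower`) letters `y_0, .., y_4` with `ρ y_i = i`, `κ y_i = κ x`; two of them,
`y ≠ y'`, satisfy `c (g⁻¹ y) = c (g⁻¹ y')`; `τ = swap y y' ∈ Rs κ` and
`σ(τ) σ(g) w = σ(g) σ(swap (g⁻¹ y) (g⁻¹ y')) w = σ(g) w`, so the alternating sum is zero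
(pair `c` with `c τ`). -/
theorem exists_four_rows {W : Type} [AddCommGroup W] [Module ℂ W]
    (σ : Representation ℂ (Perm X) W) (q : X → Fin 4) (w : W) (hw : w ≠ 0)
    (hinv : ∀ g ∈ Rs q, σ g w = w) :
    ∃ ρ κ : Word X, IsTab (fun _ => 0) ρ κ ∧ (∀ x, ρ x < 4) ∧ ∃ w' : W, yact σ ρ κ w' ≠ 0 := by
  classical
  set W' : Submodule ℂ W := Submodule.span ℂ (Set.range fun g : Perm X => σ g w) with hW'
  have hmem : ∀ g, σ g w ∈ W' := fun g => Submodule.subset_span ⟨g, rfl⟩
  have hinvW : ∀ g, ∀ x ∈ W', σ g x ∈ W' := by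
    intro g x hx
    refine Submodule.span_induction (p := fun x _ => σ g x ∈ W') ?_ ?_ ?_ ?_ hx
    · rintro _ ⟨g', rfl⟩
      have : σ g (σ g' w) = σ (g * g') w := by rw [map_mul]; rfl
      simp only
      rw [this]; exact hmem _
    · rw [map_zero]; exact W'.zero_mem
    · intro x y _ _ hx hy
      rw [map_add]; exact W'.add_mem hx hy
    · intro a x _ hx
      rw [map_smul]; exact W'.smul_mem a hx
  have hw1 : w ∈ W' := by
    have := hmem 1
    rwa [map_one] at this
  have hnt : Nontrivial W' := ⟨⟨⟨w, hw1⟩, 0, fun h => hw (congrArg Subtype.val h)⟩⟩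
  obtain ⟨ρ, κ, htab, x, hx⟩ := exists_yact_ne_zero (subRep σ W' hinvW)
  have hx' : yactL σ ρ κ (x : W) ≠ 0 := by
    rw [yactL_apply, ← yact_subRep σ W' hinvW]
    intro h
    exact hx (Subtype.ext h)
  obtain ⟨g, hg⟩ : ∃ g : Perm X, yactL σ ρ κ (σ g w) ≠ 0 := by
    by_contra hcon
    push Not at hcon
    apply hx'
    have hle : W' ≤ LinearMap.ker (yactL σ ρ κ) := by
      rw [hW', Submodule.span_le]
      rintro _ ⟨g, rfl⟩
      exact hcon g
    exact hle x.2
  rw [yactL_apply] at hg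
  refine ⟨ρ, κ, htab, ?_, σ g w, hg⟩
  intro x
  by_contra hx4
  push Not at hx4
  apply hg
  -- the five letters
  have hy : ∀ i : Fin 5, ∃ y, ρ y = i ∧ κ y = κ x := by
    intro i
    obtain ⟨y, _, h1, h2⟩ := htab.lower x i (κ x) (by have := i.2; omega) le_rfl
    exact ⟨y, h1, h2⟩
  choose y hy1 hy2 using hy
  obtain ⟨i, i', hne, hq⟩ := Fintype.exists_ne_map_eq_of_card_lt
    (fun i : Fin 5 => q (g⁻¹ (y i))) (by simp)
  have hyne : y i ≠ y i' := by
    intro h
    apply hne
    apply Fin.ext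
    rw [← hy1 i, ← hy1 i', h]
  set τ : Perm X := swap (y i) (y i') with hτ
  have hτκ : κ ∘ τ = κ := by
    funext z
    simp only [Function.comp_apply, hτ]
    rcases eq_or_ne z (y i) with h | h
    · rw [h, swap_apply_left, hy2, hy2]
    · rcases eq_or_ne z (y i') with h' | h'
      · rw [h', swap_apply_right, hy2, hy2]
      · rw [swap_apply_of_ne_of_ne h h']
  have hτv : σ τ (σ g w) = σ g w := by
    have h1 : τ * g = g * swap (g⁻¹ (y i)) (g⁻¹ (y i')) := by
      rw [hτ]
      ext z
      simp only [Perm.mul_apply]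
      rcases eq_or_ne (g z) (y i) with h | h
      · have hz : z = g⁻¹ (y i) := by rw [← h]; simp
        rw [h, swap_apply_left, hz, swap_apply_left]; simp
      · rcases eq_or_ne (g z) (y i') with h' | h'
        · have hz : z = g⁻¹ (y i') := by rw [← h']; simp
          rw [h', swap_apply_right, hz, swap_apply_right]; simp
        · rw [swap_apply_of_ne_of_ne h h', swap_apply_of_ne_of_ne]
          · rintro rfl; exact h (by simp)
          · rintro rfl; exact h' (by simp)
    have h2 : σ τ (σ g w) = σ (τ * g) w := by rw [map_mul]; rfl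
    have h3 : σ (g * swap (g⁻¹ (y i)) (g⁻¹ (y i'))) w =
        σ g (σ (swap (g⁻¹ (y i)) (g⁻¹ (y i'))) w) := by rw [map_mul]; rfl
    rw [h2, h1, h3, hinv]
    simp only [Rs, mem_filter, mem_univ, true_and]
    funext z
    simp only [Function.comp_apply]
    rcases eq_or_ne z (g⁻¹ (y i)) with h | h
    · rw [h, swap_apply_left, hq]
    · rcases eq_or_ne z (g⁻¹ (y i')) with h' | h'
      · rw [h', swap_apply_right, hq]
      · rw [swap_apply_of_ne_of_ne h h']
  set v : W := σ g w with hv
  have hS : ∑ c ∈ Rs κ, (((Perm.sign c : ℤˣ) : ℤ) : ℂ) • σ c v = 0 := by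
    have h1 : ∑ c ∈ Rs κ, (((Perm.sign c : ℤˣ) : ℤ) : ℂ) • σ c v =
        ∑ c ∈ Rs κ, (((Perm.sign (c * τ) : ℤˣ) : ℤ) : ℂ) • σ (c * τ) v := by
      refine (sum_equiv (Equiv.mulRight τ) ?_ ?_).symm
      · intro c
        simp only [Rs, mem_filter, mem_univ, true_and, Equiv.coe_mulRight]
        constructor
        · intro h
          funext z
          have e1 := congrFun h (τ z)
          have e2 := congrFun hτκ z
          simp only [Function.comp_apply] at e1 e2
          simp only [Function.comp_apply, Perm.mul_apply]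
          rw [e1, e2]
        · intro h
          funext z
          have e1 := congrFun h (τ z)
          have e2 := congrFun hτκ z
          have e3 : τ (τ z) = z := by rw [hτ]; simp
          simp only [Function.comp_apply, Perm.mul_apply, e3] at e1 e2
          simp only [Function.comp_apply]
          rw [e1, e2]
      · intro c _
        rfl
    have h2 : ∑ c ∈ Rs κ, (((Perm.sign (c * τ) : ℤˣ) : ℤ) : ℂ) • σ (c * τ) v =
        - ∑ c ∈ Rs κ, (((Perm.sign c : ℤˣ) : ℤ) : ℂ) • σ c v := by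
      rw [← sum_neg_distrib]
      refine sum_congr rfl fun c _ => ?_
      have e1 : σ (c * τ) v = σ c v := by
        rw [map_mul]
        change σ c (σ τ v) = σ c v
        rw [hτv]
      rw [e1, Perm.sign_mul, hτ, Perm.sign_swap hyne]
      simp
    have h3 := h1.trans h2
    have h4 : (2 : ℂ) • ∑ c ∈ Rs κ, (((Perm.sign c : ℤˣ) : ℤ) : ℂ) • σ c v = 0 := by
      rw [two_smul]
      nth_rewrite 1 [h3]
      simp
    exact (smul_eq_zero.mp h4).resolve_left two_ne_zero
  unfold yact
  refine sum_eq_zero fun r _ => ?_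
  have : ∑ c ∈ Rs κ, (((Perm.sign c : ℤˣ) : ℤ) : ℂ) • σ (r * c) v =
      σ r (∑ c ∈ Rs κ, (((Perm.sign c : ℤˣ) : ℤ) : ℂ) • σ c v) := by
    rw [map_sum]
    refine sum_congr rfl fun c _ => ?_
    rw [map_smul, map_mul]
    rfl
  rw [this, hS, map_zero]

end Crest.Agent.Saxl
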