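import Crest.Agent.Saxl.Pt

/-!
CHUNK UNIQ-A (medium).
-/

set_option autoImplicit false

namespace Crest.Agent.Saxl

open Finset Equiv

variable {X : Type} [Fintype X] [DecidableEq X]

/-- the complementary word `k-1-(A+B)` is perpendicular to `A` -/
theorem Perp.compl {X : Type} {k : ℕ} {A B : Word X} (h : Perp k A B) :
    Perp k A (fun x => k - 1 - (A x + B x)) := by
  refine ⟨?_, ?_⟩
  · intro x y hxy
    simp only [Prod.mk.injEq] at hxy
    have hx := h.2 x
    have hy := h.2 y
    apply h.1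
    simp only [Prod.mk.injEq]
    refine ⟨hxy.1, ?_⟩
    omega
  · intro x
    have hx := h.2 x
    show A x + (k - 1 - (A x + B x)) < k
    omega

/-- The antidiagonal strips form a strip word. Cells `(i,j)` with `i+j = s`, `s < k`: `s+1` of
them; strip `i` consists of `s = k-1-2i` and `s = k-2-2i` (if `≥ 0`). -/
theorem isStrip_uAB {k : ℕ} (hX : Fintype.card X = k * (k + 1) / 2) {A B : Word X}
    (h : Perp k A B) : IsStrip k (uAB k A B) := by
  intro i
  have ht : IsType k (fun x => k - 1 - (A x + B x)) := Perp.isType hX (Perp.compl h).symm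
  have h1 := ht (2 * i)
  have h2 := ht (2 * i + 1)
  have hdis : Disjoint (univ.filter (fun x : X => k - 1 - (A x + B x) = 2 * i))
      (univ.filter (fun x : X => k - 1 - (A x + B x) = 2 * i + 1)) := by
    rw [Finset.disjoint_filter]
    intro x _ h3 h4
    omega
  have hun : univ.filter (fun x : X => uAB k A B x = i) =
      univ.filter (fun x : X => k - 1 - (A x + B x) = 2 * i) ∪
        univ.filter (fun x : X => k - 1 - (A x + B x) = 2 * i + 1) := by
    ext x
    have hx : uAB k A B x = (k - 1 - (A x + B x)) / 2 := rfl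
    simp only [mem_filter, mem_univ, true_and, mem_union]
    rw [hx]
    clear hX
    omega
  rw [hun, card_union_of_disjoint hdis, h1, h2]
  split_ifs with hk <;> omega

/-- sums over a perpendicular pair do not depend on the pair -/
theorem sum_perp {k : ℕ} (hX : Fintype.card X = k * (k + 1) / 2) {A Y Y' : Word X}
    (h : Perp k A Y) (h' : Perp k A Y') (F : ℕ → ℕ → ℤ) :
    ∑ x, F (A x) (Y x) = ∑ x, F (A x) (Y' x) := by
  obtain ⟨g, ⟨hA, hY⟩, -⟩ := perp_conj hX h h'
  have : ∀ x, F (A x) (Y' x) = F (A (g x)) (Y (g x)) := by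
    intro x
    have e1 : A x = A (g x) := congrFun hA x
    have e2 : Y' x = Y (g x) := congrFun hY x
    rw [← e2, ← e1]
  rw [Finset.sum_congr rfl (fun x _ => this x)]
  exact (Equiv.sum_comp g (fun x => F (A x) (Y x))).symm

/-- UNIQUENESS of the strips balanced for both `A` and `B`.
PROOF. Suppose `Y = 2u+b ⊥ A` and `Y' = 2u+b' ⊥ B`, and let `Y₀ = k-1-(A+B)`, which is perpendicular
to both `A` and `B`, so that (`sum_perp`) the joint distribution of `(A, u)` is that of
`(A, v)`, `v = Y₀ / 2 = uAB`, and that of `(B, u)` is that of `(B, v)`. Hence the sums of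
`u`, `u²`, `A u`, `B u` and so of `d (d - 1)`, `d = Y₀ - 2 u`, do not change when `u` is replaced with `v`;
for `v` the sum is `0`. As `d (d - 1) ≥ 0`, `d ∈ {0, 1}`, i.e. `u = v`. -/
theorem strip_unique {k : ℕ} (hX : Fintype.card X = k * (k + 1) / 2) {A B u : Word X}
    (h : Perp k A B) (_hu : IsStrip k u) (b b' : X → Fin 2)
    (hb : Perp k A (fun x => 2 * u x + ((b x : Fin 2) : ℕ)))
    (hb' : Perp k B (fun x => 2 * u x + ((b' x : Fin 2) : ℕ))) :
    u = uAB k A B := by
  have hYA : Perp k A (fun x => k - 1 - (A x + B x)) := Perp.compl h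
  have hYB : Perp k B (fun x => k - 1 - (A x + B x)) := by
    have h1 := Perp.compl h.symm
    have h2 : (fun x => k - 1 - (B x + A x)) = (fun x => k - 1 - (A x + B x)) := by
      funext x
      rw [add_comm]
    rwa [h2] at h1
  have hu2 : ∀ x, (2 * u x + ((b x : Fin 2) : ℕ)) / 2 = u x := by
    intro x
    have := (b x).isLt
    omega
  have hu2' : ∀ x, (2 * u x + ((b' x : Fin 2) : ℕ)) / 2 = u x := by
    intro x
    have := (b' x).isLt
    omega
  set v : Word X := uAB k A B with hv
  have hv2 : ∀ x, (k - 1 - (A x + B x)) / 2 = v x := fun x => rfl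
  have hA : ∀ G : ℕ → ℕ → ℤ, ∑ x, G (A x) (u x) = ∑ x, G (A x) (v x) := by
    intro G
    have := sum_perp hX hb hYA (fun a y => G a (y / 2))
    simpa only [hu2, hv2] using this
  have hB : ∀ G : ℕ → ℕ → ℤ, ∑ x, G (B x) (u x) = ∑ x, G (B x) (v x) := by
    intro G
    have := sum_perp hX hb' hYB (fun a y => G a (y / 2))
    simpa only [hu2', hv2] using this
  have s1 := hA (fun _ y => (y : ℤ))
  have s2 := hA (fun _ y => (y : ℤ) ^ 2)
  have s3 := hA (fun a y => (a : ℤ) * y)
  have s4 := hB (fun a y => (a : ℤ) * y)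
  -- the sum of d (d - 1)
  have key : ∀ w : Word X, ∑ x, (((k : ℤ) - 1 - A x - B x - 2 * w x) *
      ((k : ℤ) - 1 - A x - B x - 2 * w x - 1)) =
      ∑ x, ((k : ℤ) - 1 - A x - B x) * ((k : ℤ) - 1 - A x - B x - 1)
        + (-4 * ((k : ℤ) - 1) + 2) * ∑ x, (w x : ℤ) + 4 * ∑ x, (w x : ℤ) ^ 2
        + 4 * ∑ x, (A x : ℤ) * w x + 4 * ∑ x, (B x : ℤ) * w x := by
    intro w
    simp only [Finset.mul_sum, ← Finset.sum_add_distrib]
    refine Finset.sum_congr rfl fun x _ => ?_
    ring
  have hvs : ∑ x, (((k : ℤ) - 1 - A x - B x - 2 * v x) *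
      ((k : ℤ) - 1 - A x - B x - 2 * v x - 1)) = 0 := by
    refine Finset.sum_eq_zero fun x _ => ?_
    have hx := h.2 x
    have h1 := hv2 x
    have h2 : ((k : ℤ) - 1 - A x - B x - 2 * v x) = 0 ∨
        ((k : ℤ) - 1 - A x - B x - 2 * v x - 1) = 0 := by
      omega
    rcases h2 with h2 | h2 <;> rw [h2] <;> simp
  have hus : ∑ x, (((k : ℤ) - 1 - A x - B x - 2 * u x) *
      ((k : ℤ) - 1 - A x - B x - 2 * u x - 1)) = 0 := by
    rw [key u, s1, s2, s3, s4, ← key v, hvs]
  have hnn : ∀ x ∈ (univ : Finset X), 0 ≤ (((k : ℤ) - 1 - A x - B x - 2 * u x) *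
      ((k : ℤ) - 1 - A x - B x - 2 * u x - 1)) := by
    intro x _
    set d : ℤ := (k : ℤ) - 1 - A x - B x - 2 * u x
    rcases le_or_gt d 0 with hd | hd
    · exact mul_nonneg_of_nonpos_of_nonpos hd (by omega)
    · exact mul_nonneg (by omega) (by omega)
  have hz := (Finset.sum_eq_zero_iff_of_nonneg hnn).mp hus
  funext x
  have h1 := hz x (mem_univ x)
  have hx := h.2 x
  have h3 := hv2 x
  rcases mul_eq_zero.mp h1 with h2 | h2 <;> omega

end Crest.Agent.Saxl
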