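import Crest.Agent.Saxl.Pt
import Crest.Agent.Saxl.UniqA

/-!
CHUNK UNIQ-B (medium).
-/

set_option autoImplicit false

namespace Crest.Agent.Saxl

open Finset Equiv

variable {X : Type} [Fintype X] [DecidableEq X]

namespace UB

/-- A system of disjoint pairs and singles covering `X`. -/
structure PS (Q : Finset (X × X)) (Z : Finset X) : Prop where
  fst : ∀ q ∈ Q, ∀ q' ∈ Q, q.1 = q'.1 → q = q'
  snd : ∀ q ∈ Q, ∀ q' ∈ Q, q.2 = q'.2 → q = q'
  ne : ∀ q ∈ Q, ∀ q' ∈ Q, q.1 ≠ q'.2
  z1 : ∀ q ∈ Q, q.1 ∉ Z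
  z2 : ∀ q ∈ Q, q.2 ∉ Z
  cov : ∀ x, (∃ q ∈ Q, q.1 = x) ∨ (∃ q ∈ Q, q.2 = x) ∨ x ∈ Z

/-- The product. -/
def FQ (Q : Finset (X × X)) (Z : Finset X) (b : X → Fin 2) : ℤ :=
  (∏ q ∈ Q, ((((b q.2 : Fin 2) : ℕ) : ℤ) - (((b q.1 : Fin 2) : ℕ) : ℤ))) *
    (∏ x ∈ Z, (1 - (((b x : Fin 2) : ℕ) : ℤ)))

theorem FQ_swap {Q : Finset (X × X)} {Z : Finset X} (h : PS Q Z) (b : X → Fin 2) {q : X × X}
    (hq : q ∈ Q) : FQ Q Z (b ∘ (swap q.1 q.2 : Perm X)) = - FQ Q Z b := by
  unfold FQ
  rw [← Finset.mul_prod_erase Q _ hq, ← Finset.mul_prod_erase Q _ hq]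
  have h1 : ∏ x ∈ Z, (1 - ((((b ∘ (swap q.1 q.2 : Perm X)) x : Fin 2) : ℕ) : ℤ)) =
      ∏ x ∈ Z, (1 - (((b x : Fin 2) : ℕ) : ℤ)) := by
    refine Finset.prod_congr rfl fun x hx => ?_
    have e1 : x ≠ q.1 := fun e => h.z1 q hq (e ▸ hx)
    have e2 : x ≠ q.2 := fun e => h.z2 q hq (e ▸ hx)
    rw [Function.comp_apply, swap_apply_of_ne_of_ne e1 e2]
  have h2 : ∏ x ∈ Q.erase q, (((((b ∘ (swap q.1 q.2 : Perm X)) x.2 : Fin 2) : ℕ) : ℤ) -
      ((((b ∘ (swap q.1 q.2 : Perm X)) x.1 : Fin 2) : ℕ) : ℤ)) =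
      ∏ x ∈ Q.erase q, ((((b x.2 : Fin 2) : ℕ) : ℤ) - (((b x.1 : Fin 2) : ℕ) : ℤ)) := by
    refine Finset.prod_congr rfl fun x hx => ?_
    rw [Finset.mem_erase] at hx
    have e1 : x.1 ≠ q.1 := fun e => hx.1 (h.fst x hx.2 q hq e)
    have e2 : x.1 ≠ q.2 := h.ne x hx.2 q hq
    have e3 : x.2 ≠ q.1 := (h.ne q hq x hx.2).symm
    have e4 : x.2 ≠ q.2 := fun e => hx.1 (h.snd x hx.2 q hq e)
    rw [Function.comp_apply, Function.comp_apply, swap_apply_of_ne_of_ne e1 e2,
      swap_apply_of_ne_of_ne e3 e4]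
  rw [h1, h2, Function.comp_apply, Function.comp_apply, swap_apply_left, swap_apply_right]
  ring

/-- indicator of the second components -/
def b0 (Q : Finset (X × X)) : X → Fin 2 := fun x => if ∃ q ∈ Q, q.2 = x then 1 else 0

theorem fin2_cases (a : Fin 2) : a = 0 ∨ a = 1 := by omega

theorem main {Q : Finset (X × X)} {Z : Finset X} (h : PS Q Z) (f : (X → Fin 2) → ℤ)
    (hf : ∀ q ∈ Q, ∀ b, f (b ∘ (swap q.1 q.2 : Perm X)) = - f b)
    (hz : ∀ z ∈ Z, ∀ b, b z = 1 → f b = 0) :
    ∀ (n : ℕ) (b : X → Fin 2), (Q.filter (fun q => b q.1 = 1)).card = n →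
      f b = FQ Q Z b * f (b0 Q) := by
  intro n
  induction n using Nat.strong_induction_on with
  | _ n ih =>
    intro b hb
    by_cases c1 : ∃ z ∈ Z, b z = 1
    · obtain ⟨z, hz1, hz2⟩ := c1
      rw [hz z hz1 b hz2]
      have : FQ Q Z b = 0 := by
        unfold FQ
        rw [Finset.prod_eq_zero (s := Z) hz1 (by rw [hz2]; simp), mul_zero]
      rw [this, zero_mul]
    by_cases c2 : ∃ q ∈ Q, b q.1 = b q.2
    · obtain ⟨q, hq1, hq2⟩ := c2
      have e : b ∘ (swap q.1 q.2 : Perm X) = b := by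
        funext x
        rw [Function.comp_apply]
        rcases eq_or_ne x q.1 with rfl | h1
        · rw [swap_apply_left, hq2]
        · rcases eq_or_ne x q.2 with rfl | h2
          · rw [swap_apply_right, hq2]
          · rw [swap_apply_of_ne_of_ne h1 h2]
      have := hf q hq1 b
      rw [e] at this
      have hf0 : f b = 0 := by omega
      have : FQ Q Z b = 0 := by
        unfold FQ
        rw [Finset.prod_eq_zero (s := Q) hq1 (by rw [hq2]; simp), zero_mul]
      rw [hf0, this, zero_mul]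
    push Not at c1 c2
    by_cases c3 : ∃ q ∈ Q, b q.1 = 1
    · obtain ⟨q, hq1, hq2⟩ := c3
      have hb2 : b q.2 ≠ 1 := fun e => c2 q hq1 (by rw [hq2, e])
      have hlt : (Q.filter (fun q' => (b ∘ (swap q.1 q.2 : Perm X)) q'.1 = 1)).card < n := by
        rw [← hb]
        apply Finset.card_lt_card
        rw [Finset.ssubset_iff_of_subset]
        · refine ⟨q, by simp [hq1, hq2], ?_⟩
          simp [hb2]
        · intro q' hq'
          rw [Finset.mem_filter] at hq' ⊢
          refine ⟨hq'.1, ?_⟩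
          by_cases e : q' = q
          · rw [e, hq2]
          · have e1 : q'.1 ≠ q.1 := fun e' => e (h.fst q' hq'.1 q hq1 e')
            have e2 : q'.1 ≠ q.2 := h.ne q' hq'.1 q hq1
            have := hq'.2
            rwa [Function.comp_apply, swap_apply_of_ne_of_ne e1 e2] at this
      have h1 := ih _ hlt (b ∘ (swap q.1 q.2 : Perm X)) rfl
      rw [hf q hq1, FQ_swap h b hq1] at h1
      linarith
    · push Not at c3
      have hbb : b = b0 Q := by
        funext x
        unfold b0
        rcases h.cov x with ⟨q, hq, rfl⟩ | ⟨q, hq, rfl⟩ | hx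
        · rw [if_neg]
          · rcases fin2_cases (b q.1) with e | e
            · exact e
            · exact absurd e (c3 q hq)
          · rintro ⟨q', hq', e⟩
            exact h.ne q hq q' hq' e.symm
        · rw [if_pos ⟨q, hq, rfl⟩]
          rcases fin2_cases (b q.2) with e | e
          · rcases fin2_cases (b q.1) with e' | e'
            · exact absurd (e'.trans e.symm) (c2 q hq)
            · exact absurd e' (c3 q hq)
          · exact e
        · rw [if_neg]
          · rcases fin2_cases (b x) with e | e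
            · exact e
            · exact absurd e (c1 x hx)
          · rintro ⟨q', hq', e⟩
            exact h.z2 q' hq' (e ▸ hx)
      have hF : FQ Q Z b = 1 := by
        unfold FQ
        rw [Finset.prod_eq_one, Finset.prod_eq_one, one_mul]
        · intro x hx
          rcases fin2_cases (b x) with e | e
          · rw [e]; simp
          · exact absurd e (c1 x hx)
        · intro q hq
          rcases fin2_cases (b q.1) with e' | e'
          · rcases fin2_cases (b q.2) with e | e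
            · exact absurd (e'.trans e.symm) (c2 q hq)
            · rw [e, e']; simp
          · exact absurd e' (c3 q hq)
      rw [hF, ← hbb, one_mul]

/-- The positions. -/
def ps (k : ℕ) (A B : Word X) : Word X := fun x => 2 * A x + (k - 1 - (A x + B x)) % 2

theorem bsize_eq {k : ℕ} (hX : Fintype.card X = k * (k + 1) / 2) {A B : Word X}
    (h : Perp k A B) (x : X) : bsize (uAB k A B) x = 2 * (k - 2 * uAB k A B x) - 1 := by
  have h1 := isStrip_uAB hX h (uAB k A B x)
  have h2 := h.2 x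
  unfold bsize
  rw [h1, if_pos]
  unfold uAB
  omega

theorem isPath_ps {k : ℕ} (hX : Fintype.card X = k * (k + 1) / 2) {A B : Word X}
    (h : Perp k A B) : IsPath (uAB k A B) (ps k A B) := by
  constructor
  · intro x y hxy
    simp only [Prod.mk.injEq, uAB, ps] at hxy
    have h1 := h.2 x
    have h2 := h.2 y
    apply h.1
    simp only [Prod.mk.injEq]
    omega
  · intro x
    rw [bsize_eq hX h]
    have h1 := h.2 x
    simp only [uAB, ps]
    omega

theorem exists_ps {k : ℕ} (hX : Fintype.card X = k * (k + 1) / 2) {A B : Word X}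
    (h : Perp k A B) (x : X) {i : ℕ} (hi : i + 1 < 2 * (k - 2 * uAB k A B x)) :
    ∃ z, uAB k A B z = uAB k A B x ∧ ps k A B z = i := by
  have hx := h.2 x
  have hu : 2 * uAB k A B x < k := by unfold uAB; omega
  obtain ⟨z, hz1, hz2⟩ := Perp.surj hX h (i / 2) (k - 2 * uAB k A B x - 1 - i % 2 - i / 2)
    (by omega)
  have hzz := h.2 z
  refine ⟨z, ?_, ?_⟩
  · have e : uAB k A B z = (k - 1 - (A z + B z)) / 2 := rfl
    rw [e, hz1, hz2]
    omega
  · unfold ps
    rw [hz1, hz2]
    omega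

theorem PS1 {k : ℕ} (hX : Fintype.card X = k * (k + 1) / 2) {A B : Word X}
    (h : Perp k A B) : PS ((univ : Finset (X × X)).filter
      (fun q => uAB k A B q.1 = uAB k A B q.2 ∧ ps k A B q.2 = ps k A B q.1 + 1 ∧
        Even (ps k A B q.1)))
      (univ.filter (fun x => ps k A B x + 1 = bsize (uAB k A B) x)) := by
  have hp := isPath_ps hX h
  constructor
  · intro q hq q' hq' e
    rw [Finset.mem_filter] at hq hq'
    obtain ⟨_, h1, h2, h3⟩ := hq
    obtain ⟨_, h1', h2', h3'⟩ := hq'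
    rw [e] at h1 h2
    refine Prod.ext e (hp.1 ?_)
    simp only [Prod.mk.injEq]
    exact ⟨h1.symm.trans h1', h2.trans h2'.symm⟩
  · intro q hq q' hq' e
    rw [Finset.mem_filter] at hq hq'
    obtain ⟨_, h1, h2, h3⟩ := hq
    obtain ⟨_, h1', h2', h3'⟩ := hq'
    rw [e] at h1 h2
    refine Prod.ext (hp.1 ?_) e
    simp only [Prod.mk.injEq]
    exact ⟨h1.trans h1'.symm, by omega⟩
  · intro q hq q' hq' e
    rw [Finset.mem_filter] at hq hq'
    obtain ⟨_, h1, h2, h3⟩ := hq
    obtain ⟨_, h1', h2', h3'⟩ := hq'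
    rw [e, h2'] at h3
    rw [Nat.even_iff] at h3 h3'
    omega
  · intro q hq hz
    rw [Finset.mem_filter] at hq hz
    obtain ⟨_, h1, h2, h3⟩ := hq
    have h4 := hp.2 q.2
    have h5 := bsize_eq hX h q.1
    have h6 := bsize_eq hX h q.2
    rw [h1] at h5
    have := hz.2
    omega
  · intro q hq hz
    rw [Finset.mem_filter] at hq hz
    obtain ⟨_, h1, h2, h3⟩ := hq
    have h6 := bsize_eq hX h q.2
    have := hz.2
    rw [Nat.even_iff] at h3
    have h7 := hp.2 q.2
    omega
  · intro x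
    have h6 := bsize_eq hX h x
    have h7 := hp.2 x
    rcases Nat.even_or_odd (ps k A B x) with hev | hodd
    · by_cases hl : ps k A B x + 1 = bsize (uAB k A B) x
      · exact Or.inr (Or.inr (by simp [hl]))
      · obtain ⟨z, hz1, hz2⟩ := exists_ps hX h x (i := ps k A B x + 1) (by
          rw [Nat.even_iff] at hev
          omega)
        exact Or.inl ⟨(x, z), by simp [hz1, hz2, hev], rfl⟩
    · rw [Nat.odd_iff] at hodd
      obtain ⟨z, hz1, hz2⟩ := exists_ps hX h x (i := ps k A B x - 1) (by omega)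
      refine Or.inr (Or.inl ⟨(z, x), ?_, rfl⟩)
      rw [Finset.mem_filter]
      refine ⟨Finset.mem_univ _, hz1, ?_, ?_⟩
      · simp only [hz2]; omega
      · simp only [hz2]
        rw [Nat.even_iff]; omega

theorem PS2 {k : ℕ} (hX : Fintype.card X = k * (k + 1) / 2) {A B : Word X}
    (h : Perp k A B) : PS ((univ : Finset (X × X)).filter
      (fun q => uAB k A B q.1 = uAB k A B q.2 ∧ ps k A B q.2 = ps k A B q.1 + 1 ∧
        Odd (ps k A B q.1)))
      (univ.filter (fun x => ps k A B x = 0)) := by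
  have hp := isPath_ps hX h
  constructor
  · intro q hq q' hq' e
    rw [Finset.mem_filter] at hq hq'
    obtain ⟨_, h1, h2, h3⟩ := hq
    obtain ⟨_, h1', h2', h3'⟩ := hq'
    rw [e] at h1 h2
    refine Prod.ext e (hp.1 ?_)
    simp only [Prod.mk.injEq]
    exact ⟨h1.symm.trans h1', h2.trans h2'.symm⟩
  · intro q hq q' hq' e
    rw [Finset.mem_filter] at hq hq'
    obtain ⟨_, h1, h2, h3⟩ := hq
    obtain ⟨_, h1', h2', h3'⟩ := hq'
    rw [e] at h1 h2
    refine Prod.ext (hp.1 ?_) e
    simp only [Prod.mk.injEq]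
    exact ⟨h1.trans h1'.symm, by omega⟩
  · intro q hq q' hq' e
    rw [Finset.mem_filter] at hq hq'
    obtain ⟨_, h1, h2, h3⟩ := hq
    obtain ⟨_, h1', h2', h3'⟩ := hq'
    rw [e, h2'] at h3
    rw [Nat.odd_iff] at h3 h3'
    omega
  · intro q hq hz
    rw [Finset.mem_filter] at hq hz
    obtain ⟨_, h1, h2, h3⟩ := hq
    rw [Nat.odd_iff] at h3
    have := hz.2
    omega
  · intro q hq hz
    rw [Finset.mem_filter] at hq hz
    obtain ⟨_, h1, h2, h3⟩ := hq
    have := hz.2
    omega
  · intro x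
    have h6 := bsize_eq hX h x
    have h7 := hp.2 x
    rcases Nat.even_or_odd (ps k A B x) with hev | hodd
    · by_cases hl : ps k A B x = 0
      · exact Or.inr (Or.inr (by simp [hl]))
      · obtain ⟨z, hz1, hz2⟩ := exists_ps hX h x (i := ps k A B x - 1) (by omega)
        rw [Nat.even_iff] at hev
        refine Or.inr (Or.inl ⟨(z, x), ?_, rfl⟩)
        rw [Finset.mem_filter]
        refine ⟨Finset.mem_univ _, hz1, ?_, ?_⟩
        · simp only [hz2]; omega
        · simp only [hz2]
          rw [Nat.odd_iff]; omega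
    · obtain ⟨z, hz1, hz2⟩ := exists_ps hX h x (i := ps k A B x + 1) (by
          rw [Nat.odd_iff] at hodd
          omega)
      exact Or.inl ⟨(x, z), by simp [hz1, hz2, hodd], rfl⟩

theorem comp_swap_word {u : Word X} {x y : X} (hu : u x = u y) (b : X → Fin 2) :
    (fun z => 2 * u z + (((b ∘ (swap x y : Perm X)) z : Fin 2) : ℕ)) =
      (fun z => 2 * u z + ((b z : Fin 2) : ℕ)) ∘ (swap x y : Perm X) := by
  funext z
  simp only [Function.comp_apply]
  congr 2
  rcases eq_or_ne z x with rfl | h1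
  · rw [swap_apply_left, hu]
  · rcases eq_or_ne z y with rfl | h2
    · rw [swap_apply_right, hu]
    · rw [swap_apply_of_ne_of_ne h1 h2]

theorem res_swap {A B u : Word X} {x y : X} (hu : u x = u y) (hA : A x = A y) (hne : x ≠ y)
    (b : X → Fin 2) : res u (pt A B) (b ∘ (swap x y : Perm X)) = - res u (pt A B) b := by
  unfold res
  rw [comp_swap_word hu]
  have hg : (swap x y : Perm X) ∈ Rs A := by
    unfold Rs
    rw [Finset.mem_filter]
    refine ⟨Finset.mem_univ _, ?_⟩
    funext z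
    rw [Function.comp_apply]
    rcases eq_or_ne z x with rfl | h1
    · rw [swap_apply_left, hA]
    · rcases eq_or_ne z y with rfl | h2
      · rw [swap_apply_right, hA]
      · rw [swap_apply_of_ne_of_ne h1 h2]
  have := pt_alt A B (swap x y) hg (fun z => 2 * u z + ((b z : Fin 2) : ℕ))
  rw [Perm.sign_swap hne] at this
  unfold act at this
  rw [this]
  simp

end UB

/-- On the antidiagonal strips the pair of restricted polytabloids is the path element (up to
sign). Positions in strip `i` (`l = k-2i`): position `2q` is the cell `(A,B) = (q, l-1-q)`, position `2q+1`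
the cell `(q, l-2-q)`, i.e. `p x = 2 A x` if `A x + B x = l-1` and `2 A x + 1` if `A x + B x = l-2`.
`pt A B` alternates along `A`-blocks: the pairs `{(q,l-1-q),(q,l-2-q)}` (positions `2q, 2q+1`), the
last position `2(l-1)` (cell `(l-1,0)`) is alone in its `A`-block in this strip. `pt B A` alternates
along `B`-blocks: the pairs `{(q,l-2-q),(q+1,l-1-(q+1))}` (positions `2q+1, 2q+2`), position `0` is
alone. So `p` satisfies the claim; signs as in `res_pt`. -/
theorem res_uAB {k : ℕ} (hX : Fintype.card X = k * (k + 1) / 2) {A B : Word X}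
    (h : Perp k A B) :
    ∃ p : Word X, IsPath (uAB k A B) p ∧
      ((∀ b b', res (uAB k A B) (pt A B) b * res (uAB k A B) (pt B A) b' = zp (uAB k A B) p b b') ∨
       (∀ b b', res (uAB k A B) (pt A B) b * res (uAB k A B) (pt B A) b' =
          - zp (uAB k A B) p b b')) := by
  have hp := UB.isPath_ps hX h
  refine ⟨UB.ps k A B, hp, ?_⟩
  set Q1 := (univ : Finset (X × X)).filter
      (fun q => uAB k A B q.1 = uAB k A B q.2 ∧ UB.ps k A B q.2 = UB.ps k A B q.1 + 1 ∧
        Even (UB.ps k A B q.1)) with hQ1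
  set Z1 := univ.filter (fun x => UB.ps k A B x + 1 = bsize (uAB k A B) x) with hZ1
  set Q2 := (univ : Finset (X × X)).filter
      (fun q => uAB k A B q.1 = uAB k A B q.2 ∧ UB.ps k A B q.2 = UB.ps k A B q.1 + 1 ∧
        Odd (UB.ps k A B q.1)) with hQ2
  set Z2 := univ.filter (fun x => UB.ps k A B x = 0) with hZ2
  have H1 : UB.PS Q1 Z1 := UB.PS1 hX h
  have H2 : UB.PS Q2 Z2 := UB.PS2 hX h
  have m1 := fun b => UB.main H1 (fun b => res (uAB k A B) (pt A B) b) (by
    intro q hq b
    have hne : q.1 ≠ q.2 := H1.ne q hq q hq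
    rw [hQ1, Finset.mem_filter] at hq
    obtain ⟨_, h1, h2, h3⟩ := hq
    refine UB.res_swap h1 ?_ hne b
    have a1 := h.2 q.1
    have a2 := h.2 q.2
    rw [Nat.even_iff] at h3
    simp only [uAB, UB.ps] at h1 h2 h3
    omega) (by
    intro z hz b hb
    refine pt_not_perp h fun hY => ?_
    rw [hZ1, Finset.mem_filter] at hz
    have a1 := UB.bsize_eq hX h z
    have a2 := hz.2
    have a3 := h.2 z
    have a4 := hY.2 z
    simp only [hb] at a4
    simp only [uAB, UB.ps] at a1 a2 a4
    have : ((1 : Fin 2) : ℕ) = 1 := rfl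
    omega) _ b rfl
  have m2 := fun b => UB.main H2 (fun b => res (uAB k A B) (pt B A) b) (by
    intro q hq b
    have hne : q.1 ≠ q.2 := H2.ne q hq q hq
    rw [hQ2, Finset.mem_filter] at hq
    obtain ⟨_, h1, h2, h3⟩ := hq
    refine UB.res_swap h1 ?_ hne b
    have a1 := h.2 q.1
    have a2 := h.2 q.2
    rw [Nat.odd_iff] at h3
    simp only [uAB, UB.ps] at h1 h2 h3
    omega) (by
    intro z hz b hb
    refine pt_not_perp h.symm fun hY => ?_
    rw [hZ2, Finset.mem_filter] at hz
    have a2 := hz.2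
    have a3 := h.2 z
    have a4 := hY.2 z
    simp only [hb] at a4
    simp only [uAB, UB.ps] at a2 a4
    have : ((1 : Fin 2) : ℕ) = 1 := rfl
    omega) _ b rfl
  have hb1 : ∀ x, ((UB.b0 Q1 x : Fin 2) : ℕ) = (k - 1 - (A x + B x)) % 2 := by
    intro x
    unfold UB.b0
    split_ifs with hc
    · obtain ⟨q, hq, rfl⟩ := hc
      rw [hQ1, Finset.mem_filter] at hq
      obtain ⟨_, h1, h2, h3⟩ := hq
      rw [Nat.even_iff] at h3
      have : ((1 : Fin 2) : ℕ) = 1 := rfl
      simp only [UB.ps] at h2 h3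
      omega
    · have : ((0 : Fin 2) : ℕ) = 0 := rfl
      rcases H1.cov x with ⟨q, hq, rfl⟩ | h2 | h2
      · rw [hQ1, Finset.mem_filter] at hq
        obtain ⟨_, h1, h2, h3⟩ := hq
        rw [Nat.even_iff] at h3
        simp only [UB.ps] at h2 h3
        omega
      · exact absurd h2 hc
      · rw [hZ1, Finset.mem_filter] at h2
        have a1 := UB.bsize_eq hX h x
        have a2 := h2.2
        have a3 := h.2 x
        simp only [uAB, UB.ps] at a1 a2
        omega
  have hb2 : ∀ x, ((UB.b0 Q2 x : Fin 2) : ℕ) =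
      if (k - 1 - (A x + B x)) % 2 = 0 ∧ A x ≠ 0 then 1 else 0 := by
    intro x
    unfold UB.b0
    have t0 : ((0 : Fin 2) : ℕ) = 0 := rfl
    have t1 : ((1 : Fin 2) : ℕ) = 1 := rfl
    by_cases hc : ∃ q ∈ Q2, q.2 = x
    · rw [if_pos hc]
      obtain ⟨q, hq, rfl⟩ := hc
      rw [hQ2, Finset.mem_filter] at hq
      obtain ⟨_, h1, h2, h3⟩ := hq
      rw [Nat.odd_iff] at h3
      simp only [UB.ps] at h2 h3
      rw [if_pos (by omega)]
      rfl
    · rw [if_neg hc, if_neg]
      · rfl
      rcases H2.cov x with ⟨q, hq, rfl⟩ | h2 | h2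
      · rw [hQ2, Finset.mem_filter] at hq
        obtain ⟨_, h1, h2, h3⟩ := hq
        rw [Nat.odd_iff] at h3
        simp only [UB.ps] at h2 h3
        omega
      · exact absurd h2 hc
      · rw [hZ2, Finset.mem_filter] at h2
        have a2 := h2.2
        simp only [UB.ps] at a2
        omega
  have hY1 : Perp k A (fun x => 2 * uAB k A B x + ((UB.b0 Q1 x : Fin 2) : ℕ)) := by
    constructor
    · intro x y hxy
      simp only [Prod.mk.injEq, hb1, uAB] at hxy
      have a1 := h.2 x
      have a2 := h.2 y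
      apply h.1
      simp only [Prod.mk.injEq]
      omega
    · intro x
      simp only [hb1, uAB]
      have a1 := h.2 x
      omega
  have hY2 : Perp k B (fun x => 2 * uAB k A B x + ((UB.b0 Q2 x : Fin 2) : ℕ)) := by
    constructor
    · intro x y hxy
      simp only [Prod.mk.injEq, hb2, uAB] at hxy
      have a1 := h.2 x
      have a2 := h.2 y
      apply h.1
      simp only [Prod.mk.injEq]
      obtain ⟨c1, c2⟩ := hxy
      split_ifs at c2 <;> omega
    · intro x
      simp only [hb2, uAB]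
      have a1 := h.2 x
      split_ifs <;> omega
  have s1 := pt_perp hX h hY1
  have s2 := pt_perp hX h.symm hY2
  have hzp : ∀ b b', zp (uAB k A B) (UB.ps k A B) b b' = UB.FQ Q1 Z1 b * UB.FQ Q2 Z2 b' :=
    fun b b' => rfl
  have r1 : res (uAB k A B) (pt A B) (UB.b0 Q1) = 1 ∨
    res (uAB k A B) (pt A B) (UB.b0 Q1) = -1 := s1
  have r2 : res (uAB k A B) (pt B A) (UB.b0 Q2) = 1 ∨
    res (uAB k A B) (pt B A) (UB.b0 Q2) = -1 := s2
  have m1' : ∀ b, res (uAB k A B) (pt A B) b =
    UB.FQ Q1 Z1 b * res (uAB k A B) (pt A B) (UB.b0 Q1) := m1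
  have m2' : ∀ b, res (uAB k A B) (pt B A) b =
    UB.FQ Q2 Z2 b * res (uAB k A B) (pt B A) (UB.b0 Q2) := m2
  rcases r1 with r1 | r1 <;> rcases r2 with r2 | r2
  · left; intro b b'; rw [m1', m2', r1, r2, hzp]; ring
  · right; intro b b'; rw [m1', m2', r1, r2, hzp]; ring
  · right; intro b b'; rw [m1', m2', r1, r2, hzp]; ring
  · left; intro b b'; rw [m1', m2', r1, r2, hzp]; ring

end Crest.Agent.Saxl
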