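import Crest.Agent.Saxl.YoungA

/-!
CHUNK YOUNG-B (medium): YE_char, YE_sandwich (immediate from YE_char), YE_sq.
-/

set_option autoImplicit false

namespace Crest.Agent.Saxl

open Finset Equiv

variable {X : Type} [Fintype X] [DecidableEq X]

/-- `R ∩ C = 1`. -/
theorem tab_inter {u ρ κ : Word X} (h : IsTab u ρ κ) (g : Hs u)
    (h1 : ρ ∘ (g : Perm X) = ρ) (h2 : κ ∘ (g : Perm X) = κ) : g = 1 := by
  apply Subtype.ext
  apply Equiv.ext
  intro x
  apply h.inj
  have hu : u ∘ (g : Perm X) = u := g.2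
  have e1 := congrFun hu x
  have e2 := congrFun h1 x
  have e3 := congrFun h2 x
  simp only [Function.comp_apply] at e1 e2 e3
  simp [e1, e2, e3]

theorem comp_inv_of {β : Type} {w : X → β} {g : Perm X} (h : w ∘ g = w) :
    w ∘ (g⁻¹ : Perm X) = w := by
  funext x
  have h1 := congrFun h (g⁻¹ x)
  simp only [Function.comp_apply] at h1 ⊢
  rw [← h1]; simp

theorem comp_mul_of {β : Type} {w : X → β} {g g' : Perm X} (h : w ∘ g = w) (h' : w ∘ g' = w) :
    w ∘ (g * g' : Perm X) = w := by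
  funext x
  have h1 := congrFun h (g' x)
  have h2 := congrFun h' x
  simp only [Function.comp_apply] at h1 h2 ⊢
  rw [Perm.mul_apply, h1, h2]

theorem comp_swap_of {β : Type} {w : X → β} {x y : X} (h : w x = w y) :
    w ∘ (swap x y : Perm X) = w := by
  funext z
  simp only [Function.comp_apply]
  rw [swap_apply_def]
  split_ifs with h1 h2
  · rw [h1, h]
  · rw [h2, h]
  · rfl

/-- every `g` is either `r c`, or the coefficient vanishes. -/
theorem YE_dich {u ρ κ : Word X} (h : IsTab u ρ κ) (A : Hs u → ℂ)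
    (hr : ∀ r g : Hs u, ρ ∘ (r : Perm X) = ρ → A (r * g) = A g)
    (hc : ∀ c g : Hs u, κ ∘ (c : Perm X) = κ →
      A (g * c) = (((Perm.sign (c : Perm X) : ℤˣ) : ℤ) : ℂ) * A g) (g : Hs u) :
    (∃ r c : Hs u, ρ ∘ (r : Perm X) = ρ ∧ κ ∘ (c : Perm X) = κ ∧ g = r * c) ∨
      (A g = 0 ∧ ∀ r c : Hs u, ρ ∘ (r : Perm X) = ρ → κ ∘ (c : Perm X) = κ → g ≠ r * c) := by
  have hgu : u ∘ (g : Perm X) = u := g.2
  have hgu' : u ∘ ((g : Perm X)⁻¹ : Perm X) = u := comp_inv_of hgu
  by_cases hinj : Function.Injective (fun x => (u x, ρ x, κ ((g : Perm X)⁻¹ x)))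
  · left
    obtain ⟨r, hr1, hr2, hr3⟩ := tab_factor h (g : Perm X)⁻¹ hgu' hinj
    refine ⟨⟨r, hr1⟩, ⟨r, hr1⟩⁻¹ * g, hr2, ?_, by group⟩
    have e : (((⟨r, hr1⟩ : Hs u)⁻¹ * g : Hs u) : Perm X) = ((g : Perm X)⁻¹ * r)⁻¹ := by
      simp
    rw [e]
    exact comp_inv_of hr3
  · right
    rw [Function.Injective] at hinj
    push Not at hinj
    obtain ⟨x, y, hxy, hne⟩ := hinj
    simp only [Prod.mk.injEq] at hxy
    obtain ⟨e1, e2, e3⟩ := hxy
    set τ : Hs u := ⟨swap x y, comp_swap_of e1⟩ with hτ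
    have hux : ∀ z, u ((g : Perm X)⁻¹ z) = u z := fun z => congrFun hgu' z
    have e1' : u ((g : Perm X)⁻¹ x) = u ((g : Perm X)⁻¹ y) := by rw [hux, hux, e1]
    set τ' : Hs u := ⟨swap ((g : Perm X)⁻¹ x) ((g : Perm X)⁻¹ y), comp_swap_of e1'⟩ with hτ'
    have hconj : τ * g = g * τ' := by
      apply Subtype.ext
      simp only [Subgroup.coe_mul, hτ, hτ']
      have := Equiv.swap_mul_eq_mul_swap (g : Perm X) x y
      simpa using this
    have hρτ : ρ ∘ (τ : Perm X) = ρ := comp_swap_of e2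
    have hκτ' : κ ∘ (τ' : Perm X) = κ := comp_swap_of e3
    have hne' : (g : Perm X)⁻¹ x ≠ (g : Perm X)⁻¹ y := fun hh => hne ((g : Perm X)⁻¹.injective hh)
    have hsign : Perm.sign (τ' : Perm X) = -1 := Perm.sign_swap hne'
    have h1 := hr τ g hρτ
    have h2 := hc τ' g hκτ'
    rw [← hconj, h1, hsign] at h2
    refine ⟨?_, ?_⟩
    · have : A g = - A g := by simpa using h2
      have h3 : (2 : ℂ) * A g = 0 := by linear_combination this
      simpa using h3
    · intro r c hr' hc' hg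
      -- `(u x, ρ x, κ (g⁻¹ x))` would be injective
      apply hne
      have hru : u ∘ (r : Perm X) = u := r.2
      have hinv : (g : Perm X)⁻¹ = (c : Perm X)⁻¹ * (r : Perm X)⁻¹ := by
        rw [hg]; simp
      have hkc : ∀ z, κ ((c : Perm X)⁻¹ z) = κ z := fun z => congrFun (comp_inv_of hc') z
      have hrr : ∀ z, ρ ((r : Perm X)⁻¹ z) = ρ z := fun z => congrFun (comp_inv_of hr') z
      have hur : ∀ z, u ((r : Perm X)⁻¹ z) = u z := fun z => congrFun (comp_inv_of hru) z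
      rw [hinv, Perm.mul_apply, Perm.mul_apply, hkc, hkc] at e3
      apply (r : Perm X)⁻¹.injective
      apply h.inj
      simp only [Prod.mk.injEq, hur, hrr]
      exact ⟨e1, e2, e3⟩

theorem YE_coeff {u ρ κ : Word X} (g : Hs u) :
    (YE u ρ κ).coeff g =
      ∑ r ∈ (univ : Finset (Hs u)).filter (fun r : Hs u => ρ ∘ (r : Perm X) = ρ),
        ∑ c ∈ (univ : Finset (Hs u)).filter (fun c : Hs u => κ ∘ (c : Perm X) = κ),
          (((Perm.sign (c : Perm X) : ℤˣ) : ℤ) : ℂ) * (if r * c = g then 1 else 0) := by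
  classical
  unfold YE
  rw [MonoidAlgebra.coeff_sum, Finsupp.finset_sum_apply]
  refine Finset.sum_congr rfl fun r _ => ?_
  rw [MonoidAlgebra.coeff_sum, Finsupp.finset_sum_apply]
  refine Finset.sum_congr rfl fun c _ => ?_
  rw [MonoidAlgebra.coeff_smul_apply, MonoidAlgebra.of_apply, MonoidAlgebra.coeff_single_apply,
    smul_eq_mul]

theorem YE_coeff_rc {u ρ κ : Word X} (h : IsTab u ρ κ) (r c : Hs u)
    (hr : ρ ∘ (r : Perm X) = ρ) (hc : κ ∘ (c : Perm X) = κ) :
    (YE u ρ κ).coeff (r * c) = (((Perm.sign (c : Perm X) : ℤˣ) : ℤ) : ℂ) := by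
  classical
  have huniq : ∀ r' c' : Hs u, ρ ∘ (r' : Perm X) = ρ → κ ∘ (c' : Perm X) = κ →
      r' * c' = r * c → r' = r ∧ c' = c := by
    intro r' c' hr' hc' he
    have h1 : r⁻¹ * r' = c * c'⁻¹ := by
      have : r' = r * c * c'⁻¹ := by rw [← he]; group
      rw [this]; group
    have h2 : ρ ∘ ((r⁻¹ * r' : Hs u) : Perm X) = ρ := by
      rw [Subgroup.coe_mul, Subgroup.coe_inv]
      exact comp_mul_of (comp_inv_of hr) hr'
    have h3 : κ ∘ ((r⁻¹ * r' : Hs u) : Perm X) = κ := by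
      rw [h1, Subgroup.coe_mul, Subgroup.coe_inv]
      exact comp_mul_of hc (comp_inv_of hc')
    have h4 := tab_inter h _ h2 h3
    have h5 : r' = r := (inv_mul_eq_one.1 h4).symm
    refine ⟨h5, ?_⟩
    rw [h5] at he
    exact mul_left_cancel he
  rw [YE_coeff, Finset.sum_eq_single r, Finset.sum_eq_single c]
  · simp
  · intro c' hc' hne
    rw [if_neg, mul_zero]
    intro he
    exact hne (huniq r c' hr (by simpa using hc') he).2
  · intro hcon
    exact absurd (by simpa using hc) hcon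
  · intro r' hr' hne
    apply Finset.sum_eq_zero
    intro c' hc'
    rw [if_neg, mul_zero]
    intro he
    exact hne (huniq r' c' (by simpa using hr') (by simpa using hc') he).1
  · intro hcon
    exact absurd (by simpa using hr) hcon

/-- PROOF: the coefficient of `a` at `g` vanishes unless `g = r c`: if
`(u x, ρ x, κ (g⁻¹ x))` is not injective take `x ≠ y` with equal values, `τ = swap x y` is row
preserving and `g⁻¹ τ g = swap (g⁻¹ x) (g⁻¹ y)` is column preserving, so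
`a g = a (τ g) = a (g (g⁻¹ τ g)) = - a g`. Otherwise `tab_factor` for `g⁻¹` gives `g⁻¹ r =: c`
column preserving, `g = r c⁻¹`. And `a (r c) = sgn c · a 1`. The elements `r c` are distinct
(`R ∩ C = 1`). -/
theorem YE_char {u ρ κ : Word X} (h : IsTab u ρ κ) (a : MonoidAlgebra ℂ (Hs u))
    (hr : ∀ r : Hs u, ρ ∘ (r : Perm X) = ρ → MonoidAlgebra.of ℂ (Hs u) r * a = a)
    (hc : ∀ c : Hs u, κ ∘ (c : Perm X) = κ →
      a * MonoidAlgebra.of ℂ (Hs u) c = (((Perm.sign (c : Perm X) : ℤˣ) : ℤ) : ℂ) • a) :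
    ∃ z : ℂ, a = z • YE u ρ κ := by
  classical
  have hr' : ∀ r g : Hs u, ρ ∘ (r : Perm X) = ρ → a.coeff (r * g) = a.coeff g := by
    intro r g h1
    have h2 := hr r⁻¹ (by rw [Subgroup.coe_inv]; exact comp_inv_of h1)
    have h3 := congrArg (fun b : MonoidAlgebra ℂ (Hs u) => b.coeff g) h2
    simp only [MonoidAlgebra.of_apply, MonoidAlgebra.coeff_single_mul_apply, one_mul,
      inv_inv] at h3
    exact h3
  have hc' : ∀ c g : Hs u, κ ∘ (c : Perm X) = κ →
      a.coeff (g * c) = (((Perm.sign (c : Perm X) : ℤˣ) : ℤ) : ℂ) * a.coeff g := by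
    intro c g h1
    have h2 := hc c⁻¹ (by rw [Subgroup.coe_inv]; exact comp_inv_of h1)
    have h3 := congrArg (fun b : MonoidAlgebra ℂ (Hs u) => b.coeff g) h2
    simp only [MonoidAlgebra.of_apply, MonoidAlgebra.coeff_mul_single_apply, mul_one,
      inv_inv, MonoidAlgebra.coeff_smul_apply, smul_eq_mul, Subgroup.coe_inv,
      Perm.sign_inv] at h3
    exact h3
  refine ⟨a.coeff 1, ?_⟩
  rw [← MonoidAlgebra.coeff_inj]
  ext g
  rw [MonoidAlgebra.coeff_smul_apply, smul_eq_mul]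
  rcases YE_dich h (fun g => a.coeff g) hr' hc' g with ⟨r, c, h1, h2, rfl⟩ | ⟨h1, h2⟩
  · rw [YE_coeff_rc h r c h1 h2, hr' r c h1]
    have := hc' c 1 h2
    rw [one_mul] at this
    rw [this, mul_comm]
  · have h3 : (YE u ρ κ).coeff g = 0 := by
      rw [YE_coeff]
      refine Finset.sum_eq_zero fun r hr0 => Finset.sum_eq_zero fun c hc0 => ?_
      rw [if_neg, mul_zero]
      exact fun he => h2 r c (by simpa using hr0) (by simpa using hc0) he.symm
    rw [h3, mul_zero]
    exact h1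

theorem of_mul_YE {u ρ κ : Word X} (r : Hs u) (hr : ρ ∘ (r : Perm X) = ρ) :
    MonoidAlgebra.of ℂ (Hs u) r * YE u ρ κ = YE u ρ κ := by
  classical
  unfold YE
  rw [Finset.mul_sum]
  refine Finset.sum_bij' (fun r' _ => r * r') (fun r' _ => r⁻¹ * r') ?_ ?_ ?_ ?_ ?_
  · intro r' hr'
    simp only [mem_filter, mem_univ, true_and] at hr' ⊢
    rw [Subgroup.coe_mul]; exact comp_mul_of hr hr'
  · intro r' hr'
    simp only [mem_filter, mem_univ, true_and] at hr' ⊢
    rw [Subgroup.coe_mul, Subgroup.coe_inv]; exact comp_mul_of (comp_inv_of hr) hr'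
  · intro r' _; group
  · intro r' _; group
  · intro r' _
    rw [Finset.mul_sum]
    refine Finset.sum_congr rfl fun c _ => ?_
    rw [mul_smul_comm, ← map_mul, mul_assoc]

theorem YE_mul_of {u ρ κ : Word X} (c : Hs u) (hc : κ ∘ (c : Perm X) = κ) :
    YE u ρ κ * MonoidAlgebra.of ℂ (Hs u) c =
      (((Perm.sign (c : Perm X) : ℤˣ) : ℤ) : ℂ) • YE u ρ κ := by
  classical
  unfold YE
  rw [Finset.sum_mul, Finset.smul_sum]
  refine Finset.sum_congr rfl fun r _ => ?_
  rw [Finset.sum_mul, Finset.smul_sum]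
  refine Finset.sum_bij' (fun c' _ => c' * c) (fun c' _ => c' * c⁻¹) ?_ ?_ ?_ ?_ ?_
  · intro r' hr'
    simp only [mem_filter, mem_univ, true_and] at hr' ⊢
    rw [Subgroup.coe_mul]; exact comp_mul_of hr' hc
  · intro r' hr'
    simp only [mem_filter, mem_univ, true_and] at hr' ⊢
    rw [Subgroup.coe_mul, Subgroup.coe_inv]; exact comp_mul_of hr' (comp_inv_of hc)
  · intro r' _; group
  · intro r' _; group
  · intro c' _
    rw [smul_mul_assoc, ← map_mul, mul_assoc, smul_smul]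
    congr 1
    rw [Subgroup.coe_mul, Perm.sign_mul]
    push_cast
    have : (((Perm.sign (c : Perm X) : ℤˣ) : ℤ) : ℂ) * (((Perm.sign (c : Perm X) : ℤˣ) : ℤ) : ℂ) = 1 := by
      rcases Int.units_eq_one_or (Perm.sign (c : Perm X)) with h | h <;> rw [h] <;> norm_num
    linear_combination (-(((Perm.sign (c' : Perm X) : ℤˣ) : ℤ) : ℂ)) * this

theorem YE_sandwich {u ρ κ : Word X} (h : IsTab u ρ κ) (a : MonoidAlgebra ℂ (Hs u)) :
    ∃ z : ℂ, YE u ρ κ * a * YE u ρ κ = z • YE u ρ κ := by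
  apply YE_char h
  · intro r hr
    rw [← mul_assoc, ← mul_assoc, of_mul_YE r hr]
  · intro c hc
    rw [mul_assoc, YE_mul_of c hc, mul_smul_comm]

/-- PROOF that `γ ≠ 0`: if `E² = 0` then right multiplication by `E` on the group algebra is nilpotent, so has
trace zero; but its trace is `|Hs u| * (coefficient of E at 1) = |Hs u|` (the coefficient at `1` is `1` because
`R ∩ C = 1`). -/
theorem YE_sq {u ρ κ : Word X} (h : IsTab u ρ κ) :
    ∃ γ : ℂ, γ ≠ 0 ∧ YE u ρ κ * YE u ρ κ = γ • YE u ρ κ := by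
  classical
  obtain ⟨γ, hγ⟩ := YE_sandwich h 1
  rw [mul_one] at hγ
  refine ⟨γ, ?_, hγ⟩
  rintro rfl
  rw [zero_smul] at hγ
  set E := YE u ρ κ with hE
  have h1 : E.coeff 1 = 1 := by
    have := YE_coeff_rc h 1 1 (by rfl) (by rfl)
    simpa using this
  let f : MonoidAlgebra ℂ (Hs u) →ₗ[ℂ] MonoidAlgebra ℂ (Hs u) := LinearMap.mulRight ℂ E
  have hnil : IsNilpotent f := by
    refine ⟨2, ?_⟩
    ext1 x
    apply LinearMap.ext
    intro y
    simp [f, pow_two, mul_assoc, hγ]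
  have htr := (LinearMap.isNilpotent_trace_of_isNilpotent hnil).eq_zero
  rw [LinearMap.trace_eq_matrix_trace ℂ (MonoidAlgebra.basis (Hs u) ℂ) f, Matrix.trace] at htr
  have hdiag : ∀ g : Hs u,
      (LinearMap.toMatrix (MonoidAlgebra.basis (Hs u) ℂ) (MonoidAlgebra.basis (Hs u) ℂ) f).diag g
        = 1 := by
    intro g
    rw [Matrix.diag_apply, LinearMap.toMatrix_apply, MonoidAlgebra.basis_apply]
    change (MonoidAlgebra.single g (1 : ℂ) * E).coeff g = 1
    have e : (MonoidAlgebra.single g (1 : ℂ) * E).coeff g = E.coeff (g⁻¹ * g) := by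
      rw [MonoidAlgebra.coeff_single_mul_apply, one_mul]
    rw [e, inv_mul_cancel, h1]
  rw [Finset.sum_congr rfl fun g _ => hdiag g] at htr
  rw [Finset.sum_const, nsmul_eq_mul, mul_one, Nat.cast_eq_zero, Finset.card_univ] at htr
  exact Fintype.card_ne_zero htr

end Crest.Agent.Saxl
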